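import Vale.Agent.Lib.P310.Num.Defs

/-!
# Decoding the numbering of gates, tokens and constraints
-/

namespace Vale.Agent.Lib.P310.Num

open Mach Tab

namespace AD

variable (A : AD)

lemma div_add_of_lt {a l d : ℕ} (hl : l < d) : (a * d + l) / d = a := by
  have hd : 0 < d := by omega
  rw [Nat.add_comm, Nat.add_mul_div_right _ _ hd, Nat.div_eq_of_lt hl, Nat.zero_add]

lemma mod_add_of_lt {a l d : ℕ} (hl : l < d) : (a * d + l) % d = l := by
  rw [Nat.add_comm, Nat.add_mul_mod_self_right, Nat.mod_eq_of_lt hl]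

/-! ### Gates -/

lemma gτ_three (τ k : ℕ) (hk : k < 3) : gτ (3 * τ + k) = τ := by
  unfold gτ
  omega

lemma gκ_rule (τ k : ℕ) (hτ : τ < A.nR) (hk : k < 3) : A.gκ (3 * τ + k) = k := by
  unfold gκ
  rw [if_pos (by omega)]
  omega

lemma gκ_root0 : A.gκ (3 * A.nR) = 3 := by
  unfold gκ
  rw [if_neg (by omega), if_pos rfl]

lemma gκ_root1 : A.gκ (3 * A.nR + 1) = 4 := by
  unfold gκ
  rw [if_neg (by omega), if_neg (by omega)]

/-! ### Tokens -/

lemma tI_tok {i x : ℕ} (hx : x < A.s) : A.tI (i * A.s + x) = i :=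
  div_add_of_lt hx

lemma tX_tok {i x : ℕ} (hx : x < A.s) : A.tX (i * A.s + x) = x :=
  mod_add_of_lt hx

/-! ### Constraints -/

lemma pκ_link {g c l : ℕ} (hg : g < A.nG) (hc : c < A.Ntok) (hl : l < A.Lc) :
    A.pκ ((g * A.Ntok + c) * A.Lc + l) = 0 := by
  unfold pκ
  rw [if_pos]
  have h1 : g * A.Ntok + c + 1 ≤ A.nG * A.Ntok := by
    calc g * A.Ntok + c + 1 ≤ g * A.Ntok + A.Ntok := by omega
      _ = (g + 1) * A.Ntok := by ring
      _ ≤ A.nG * A.Ntok := Nat.mul_le_mul_right _ hg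
  have h2 : (g * A.Ntok + c + 1) * A.Lc ≤ A.nG * A.Ntok * A.Lc := Nat.mul_le_mul_right _ h1
  have h3 : (g * A.Ntok + c + 1) * A.Lc = (g * A.Ntok + c) * A.Lc + A.Lc := by ring
  unfold N₁
  omega

lemma pA_link {g c l : ℕ} (hg : g < A.nG) (hc : c < A.Ntok) (hl : l < A.Lc) :
    A.pA ((g * A.Ntok + c) * A.Lc + l) = g * A.Ntok + c := by
  unfold pA
  rw [A.pκ_link hg hc hl, if_pos rfl]
  exact div_add_of_lt hl

lemma pg_link {g c l : ℕ} (hg : g < A.nG) (hc : c < A.Ntok) (hl : l < A.Lc) :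
    A.pg ((g * A.Ntok + c) * A.Lc + l) = g := by
  unfold pg
  rw [A.pA_link hg hc hl]
  exact div_add_of_lt hc

lemma pc_link {g c l : ℕ} (hg : g < A.nG) (hc : c < A.Ntok) (hl : l < A.Lc) :
    A.pc ((g * A.Ntok + c) * A.Lc + l) = c := by
  unfold pc
  rw [A.pA_link hg hc hl]
  exact mod_add_of_lt hc

lemma pl_link {g c l : ℕ} (hl : l < A.Lc) : A.pl ((g * A.Ntok + c) * A.Lc + l) = l :=
  mod_add_of_lt hl

lemma tok_lt_of {g c n : ℕ} (hg : g < n) (hc : c < A.Ntok) : g * A.Ntok + c < n * A.Ntok := by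
  calc g * A.Ntok + c < g * A.Ntok + A.Ntok := by omega
    _ = (g + 1) * A.Ntok := by ring
    _ ≤ n * A.Ntok := Nat.mul_le_mul_right _ hg

lemma pκ_tr {g c : ℕ} (hg : g < A.nG) (hc : c < A.Ntok) :
    A.pκ (A.N₁ + (g * A.Ntok + c)) = 1 := by
  unfold pκ
  have h1 := A.tok_lt_of hg hc
  rw [if_neg (by omega), if_pos (by unfold N₂; omega)]

lemma pA_tr {g c : ℕ} (hg : g < A.nG) (hc : c < A.Ntok) :
    A.pA (A.N₁ + (g * A.Ntok + c)) = g * A.Ntok + c := by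
  unfold pA
  rw [A.pκ_tr hg hc, if_neg (by omega), if_pos rfl]
  omega

lemma pg_tr {g c : ℕ} (hg : g < A.nG) (hc : c < A.Ntok) :
    A.pg (A.N₁ + (g * A.Ntok + c)) = g := by
  unfold pg
  rw [A.pA_tr hg hc]
  exact div_add_of_lt hc

lemma pc_tr {g c : ℕ} (hg : g < A.nG) (hc : c < A.Ntok) :
    A.pc (A.N₁ + (g * A.Ntok + c)) = c := by
  unfold pc
  rw [A.pA_tr hg hc]
  exact mod_add_of_lt hc

lemma pκ_con {f c : ℕ} : A.pκ (A.N₁ + A.N₂ + (f * A.Ntok + c)) = 2 := by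
  unfold pκ
  rw [if_neg (by omega), if_neg (by omega)]

lemma pA_con {f c : ℕ} :
    A.pA (A.N₁ + A.N₂ + (f * A.Ntok + c)) = f * A.Ntok + c := by
  unfold pA
  rw [A.pκ_con, if_neg (by omega), if_neg (by omega)]
  omega

lemma pg_con {f c : ℕ} (hc : c < A.Ntok) : A.pg (A.N₁ + A.N₂ + (f * A.Ntok + c)) = f := by
  unfold pg
  rw [A.pA_con]
  exact div_add_of_lt hc

lemma pc_con {f c : ℕ} (hc : c < A.Ntok) : A.pc (A.N₁ + A.N₂ + (f * A.Ntok + c)) = c := by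
  unfold pc
  rw [A.pA_con]
  exact mod_add_of_lt hc

/-! ### Local assignments -/

lemma elem_div4 (p a b : ℕ) (ha : a < 2) (hb : b < 2) : (4 * p + 2 * a + b) / 4 = p := by
  omega

lemma elem_div2 (p a b : ℕ) (ha : a < 2) (hb : b < 2) : (4 * p + 2 * a + b) / 2 % 2 = a := by
  omega

lemma elem_mod2 (p a b : ℕ) (hb : b < 2) : (4 * p + 2 * a + b) % 2 = b := by
  omega

/-! ### Variables -/

lemma cutV_ne_zero (cc c : ℕ) : A.cutV cc c ≠ 0 := by
  unfold cutV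
  omega

lemma topV_ne_zero (g c : ℕ) : A.topV g c ≠ 0 := by
  unfold topV
  omega

lemma midV_ne_zero (g c l : ℕ) : A.midV g c l ≠ 0 := by
  unfold midV
  omega

lemma bitV_ne_zero (g l : ℕ) : A.bitV g l ≠ 0 := by
  unfold bitV
  omega

end AD

end Vale.Agent.Lib.P310.Num
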