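import Vale.Agent.Lib.P310.WL

/-!
# `k`-WL equivalence is invariant under renaming of vertices
-/

namespace Vale.Agent.Lib.P310

variable {k : ℕ} {V V' : Type} [Fintype V] [Fintype V']

lemma univ_val_map_equiv (e : V ≃ V') :
    (Finset.univ : Finset V').val = (Finset.univ : Finset V).val.map e := by
  have h := Finset.map_univ_equiv e
  have h2 := congrArg Finset.val h
  rw [Finset.map_val] at h2
  exact h2.symm

lemma wlColor_comap (e : V ≃ V') (G : SimpleGraph V) (r : ℕ) (x : Fin k → V) :
    wlColor (G.comap e.symm) r (e ∘ x) = wlColor G r x := by
  induction r generalizing x with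
  | zero =>
    funext i j
    simp [wlColor, atomicType, SimpleGraph.comap_adj]
  | succ r ih =>
    simp only [wlColor]
    refine Prod.ext (ih x) ?_
    show Multiset.map _ _ = Multiset.map _ _
    rw [univ_val_map_equiv e, Multiset.map_map]
    refine Multiset.map_congr rfl fun z _ => ?_
    funext i
    simp only [Function.comp_apply]
    rw [← Function.comp_update e x i z]
    exact ih _

/-- `k`-WL equivalence is invariant under renaming the vertices of both graphs. -/
theorem wlEquiv_comap {W W' : Type} [Fintype W] [Fintype W'] (e : V ≃ V') (e' : W ≃ W')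
    (G : SimpleGraph V) (H : SimpleGraph W) :
    WLEquiv k (G.comap e.symm) (H.comap e'.symm) ↔ WLEquiv k G H := by
  have key : ∀ {X X' : Type} [Fintype X] [Fintype X'] (f : X ≃ X') (A : SimpleGraph X) (r : ℕ),
      (Finset.univ : Finset (Fin k → X')).val.map (wlColor (A.comap f.symm) r) =
        (Finset.univ : Finset (Fin k → X)).val.map (wlColor A r) := by
    intro X X' _ _ f A r
    classical
    rw [univ_val_map_equiv (Equiv.arrowCongr (Equiv.refl (Fin k)) f), Multiset.map_map]
    refine Multiset.map_congr rfl fun x _ => ?_
    simpa [Equiv.arrowCongr] using wlColor_comap f A r x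
  constructor
  · intro h r
    have := h r
    rwa [key e G r, key e' H r] at this
  · intro h r
    rw [key e G r, key e' H r]
    exact h r

end Vale.Agent.Lib.P310
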