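import Vale.Agent.Lib.P310.Num.AdjSys
import Vale.Agent.Lib.P310.Num.WLIso

/-!
# The graphs of the tableau program are given by the arithmetic adjacency function
-/

set_option linter.unusedSectionVars false
set_option linter.unusedVariables false

namespace Vale.Agent.Lib.P310.Num

open Mach Tab Alt

namespace AD

open Alt'

variable (A : AD)

section Sys

variable {F V : Type} [Field F] [AddCommGroup V] [Module F V] [Fintype V] [DecidableEq V]
  {e : V ≃ Fin A.D.s} {α : Fin A.ρ → F} {hρ : 0 < A.ρ} {C : Checks (V := V) α (2 * A.D.r) A.nM}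

/-! ### The numbering of the constraints -/

lemma pκ_pN_link (g c l) : A.pκ (A.pN e hρ C (.link g c l)) = 0 :=
  A.pκ_link g.isLt (A.tokN_lt e c) l.isLt

lemma pκ_pN_tr (g c) : A.pκ (A.pN e hρ C (.tr g c)) = 1 :=
  A.pκ_tr g.isLt (A.tokN_lt e c)

lemma pκ_pN_con (f c) : A.pκ (A.pN e hρ C (.con f c)) = 2 :=
  A.pκ_con

lemma pN_inj {p p' : Piece (A.sys e hρ C)} (h : A.pN e hρ C p = A.pN e hρ C p') : p = p' := by
  have hκ := congrArg A.pκ h
  cases p with
  | link g c l =>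
    cases p' with
    | link g' c' l' =>
      have h0 : (g.val * A.Ntok + A.tokN e c) * A.Lc + l.val =
        (g'.val * A.Ntok + A.tokN e c') * A.Lc + l'.val := h
      obtain ⟨h1, h2⟩ := mix_inj l.isLt l'.isLt h0
      obtain ⟨h3, h4⟩ := mix_inj (A.tokN_lt e c) (A.tokN_lt e c') h1
      rw [Fin.ext h3, A.tokN_inj e h4, Fin.ext h2]
    | tr g' c' => rw [pκ_pN_link, pκ_pN_tr] at hκ; omega
    | con f' c' => rw [pκ_pN_link, pκ_pN_con] at hκ; omega
  | tr g c =>
    cases p' with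
    | link g' c' l' => rw [pκ_pN_tr, pκ_pN_link] at hκ; omega
    | tr g' c' =>
      have h0 : A.N₁ + (g.val * A.Ntok + A.tokN e c) = A.N₁ + (g'.val * A.Ntok + A.tokN e c') := h
      have h0' : g.val * A.Ntok + A.tokN e c = g'.val * A.Ntok + A.tokN e c' := by omega
      obtain ⟨h3, h4⟩ := mix_inj (A.tokN_lt e c) (A.tokN_lt e c') h0'
      rw [Fin.ext h3, A.tokN_inj e h4]
    | con f' c' => rw [pκ_pN_tr, pκ_pN_con] at hκ; omega
  | con f c =>
    cases p' with
    | link g' c' l' => rw [pκ_pN_con, pκ_pN_link] at hκ; omega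
    | tr g' c' => rw [pκ_pN_con, pκ_pN_tr] at hκ; omega
    | con f' c' =>
      have h0 : A.N₁ + A.N₂ + (f.val * A.Ntok + A.tokN e c) =
        A.N₁ + A.N₂ + (f'.val * A.Ntok + A.tokN e c') := h
      have h0' : f.val * A.Ntok + A.tokN e c = f'.val * A.Ntok + A.tokN e c' := by omega
      obtain ⟨h3, h4⟩ := mix_inj (A.tokN_lt e c) (A.tokN_lt e c') h0'
      rw [Fin.ext h3, A.tokN_inj e h4]

lemma pN_lt (p : Piece (A.sys e hρ C)) : A.pN e hρ C p < A.N := by
  unfold N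
  cases p with
  | link g c l =>
    show (g.val * A.Ntok + A.tokN e c) * A.Lc + l.val < _
    have h1 := A.tok_lt_of (n := A.nG) g.isLt (A.tokN_lt e c)
    have hl : l.val < A.Lc := l.isLt
    have h2 : (g.val * A.Ntok + A.tokN e c + 1) * A.Lc ≤ A.nG * A.Ntok * A.Lc :=
      Nat.mul_le_mul_right _ h1
    have h3 : (g.val * A.Ntok + A.tokN e c + 1) * A.Lc =
      (g.val * A.Ntok + A.tokN e c) * A.Lc + A.Lc := by ring
    unfold N₁
    omega
  | tr g c =>
    show A.N₁ + (g.val * A.Ntok + A.tokN e c) < _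
    have h1 := A.tok_lt_of (n := A.nG) g.isLt (A.tokN_lt e c)
    unfold N₂
    omega
  | con f c =>
    show A.N₁ + A.N₂ + (f.val * A.Ntok + A.tokN e c) < _
    have h1 := A.tok_lt_of (n := A.nF) f.isLt (A.tokN_lt e c)
    unfold N₃
    omega

lemma card_V (e : V ≃ Fin A.D.s) : Fintype.card V = A.s := by
  rw [Fintype.card_congr e, Fintype.card_fin]
  rfl

lemma numPieces_sys (e : V ≃ Fin A.D.s) (hρ : 0 < A.ρ) (C : Checks (V := V) α (2 * A.D.r) A.nM) :
    numPieces (A.sys e hρ C) = A.N := by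
  rw [numPieces_eq, A.card_V e]
  rfl

/-- The numbering of the constraints. -/
noncomputable def pieceEq (A : AD) (e : V ≃ Fin A.D.s) {α : Fin A.ρ → F} (hρ : 0 < A.ρ)
    (C : Checks (V := V) α (2 * A.D.r) A.nM) :
    Piece (A.sys e hρ C) ≃ Fin (numPieces (A.sys e hρ C)) :=
  Equiv.ofBijective
    (fun p => ⟨A.pN e hρ C p, by
      rw [A.numPieces_sys e hρ C]
      exact A.pN_lt p⟩) <|
    (Fintype.bijective_iff_injective_and_card _).mpr
      ⟨fun _ _ h => A.pN_inj (congrArg Fin.val h), by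
        rw [Fintype.card_fin]
        rfl⟩

/-- The numbering of the constraints, as a class. -/
@[instance_reducible] noncomputable def pieceNum (A : AD) (e : V ≃ Fin A.D.s) {α : Fin A.ρ → F} (hρ : 0 < A.ρ)
    (C : Checks (V := V) α (2 * A.D.r) A.nM) : PieceNum (A.sys e hρ C) :=
  ⟨A.pieceEq e hρ C⟩

/-! ### Adjacency of local assignments -/

lemma cmN_ne (hc : A.Compat e C) (x y : Elem (A.sys e hρ C)) {i j : ℕ} (hi : i < 3) (hj : j < 3) :
    A.cmN (A.elN e hρ C x) (A.elN e hρ C y) i j ≠ 0 ↔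
      ∃ z, entV (A.sys e hρ C) x.1 i = some z ∧ entV (A.sys e hρ C) y.1 j = some z := by
  unfold cmN
  rw [A.elN_div4, A.elN_div4, A.eCode_pN hc _ hi, A.eCode_pN hc _ hj]
  cases h1 : entV (A.sys e hρ C) x.1 i with
  | none => simp [oVar]
  | some z =>
    cases h2 : entV (A.sys e hρ C) y.1 j with
    | none => simp [oVar, A.varN_ne_zero]
    | some z' =>
      simp only [oVar, Option.some.injEq, exists_eq_left']
      constructor
      · intro h
        by_cases h3 : A.varN e hρ C z = A.varN e hρ C z'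
        · exact (A.varN_inj e hρ C h3).symm
        · simp [h3] at h
      · rintro rfl
        simp [A.varN_ne_zero]

lemma badN_ne (hc : A.Compat e C) (b : ZMod 2) (x y : Elem (A.sys e hρ C)) {i j : ℕ} (hi : i < 3)
    (hj : j < 3) :
    A.badN b.val (A.elN e hρ C x) (A.elN e hρ C y) i j ≠ 0 ↔
      (∃ z, entV (A.sys e hρ C) x.1 i = some z ∧ entV (A.sys e hρ C) y.1 j = some z) ∧
        entW (A.sys e hρ C) b x.1 x.2.1 x.2.2 i ≠ entW (A.sys e hρ C) b y.1 y.2.1 y.2.2 j := by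
  unfold badN
  rw [A.eVal_elN hc b x hi, A.eVal_elN hc b y hj]
  have h1 := A.cmN_ne hc x y hi hj
  have h2 : (entW (A.sys e hρ C) b x.1 x.2.1 x.2.2 i).val ≠
        (entW (A.sys e hρ C) b y.1 y.2.1 y.2.2 j).val ↔
      entW (A.sys e hρ C) b x.1 x.2.1 x.2.2 i ≠ entW (A.sys e hρ C) b y.1 y.2.1 y.2.2 j :=
    not_congr ⟨fun h => ZMod.val_injective 2 h, fun h => congrArg _ h⟩
  by_cases h3 : (A.cmN (A.elN e hρ C x) (A.elN e hρ C y) i j ≠ 0 ∧
      (entW (A.sys e hρ C) b x.1 x.2.1 x.2.2 i).val ≠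
        (entW (A.sys e hρ C) b y.1 y.2.1 y.2.2 j).val)
  · rw [if_pos h3]
    simp only [ne_eq, one_ne_zero, not_false_eq_true, true_iff]
    exact ⟨h1.mp h3.1, h2.mp h3.2⟩
  · rw [if_neg h3]
    simp only [ne_eq, not_true_eq_false, false_iff]
    intro h4
    exact h3 ⟨h1.mpr h4.1, h2.mpr h4.2⟩

lemma sum9_ne {f : ℕ → ℕ → ℕ} :
    (f 0 0 + f 0 1 + f 0 2 + f 1 0 + f 1 1 + f 1 2 + f 2 0 + f 2 1 + f 2 2) ≠ 0 ↔
      ∃ i j, i < 3 ∧ j < 3 ∧ f i j ≠ 0 := by
  constructor
  · intro h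
    by_contra h'
    push Not at h'
    have h1 : ∀ i j, i < 3 → j < 3 → f i j = 0 := h'
    have h00 := h1 0 0 (by norm_num) (by norm_num)
    have h01 := h1 0 1 (by norm_num) (by norm_num)
    have h02 := h1 0 2 (by norm_num) (by norm_num)
    have h10 := h1 1 0 (by norm_num) (by norm_num)
    have h11 := h1 1 1 (by norm_num) (by norm_num)
    have h12 := h1 1 2 (by norm_num) (by norm_num)
    have h20 := h1 2 0 (by norm_num) (by norm_num)
    have h21 := h1 2 1 (by norm_num) (by norm_num)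
    have h22 := h1 2 2 (by norm_num) (by norm_num)
    omega
  · rintro ⟨i, j, hi, hj, h⟩
    interval_cases i <;> interval_cases j <;> omega

lemma elN_inj {x y : Elem (A.sys e hρ C)} (h : A.elN e hρ C x = A.elN e hρ C y) : x = y := by
  have h1 : A.pN e hρ C x.1 = A.pN e hρ C y.1 := by
    rw [← A.elN_div4, ← A.elN_div4, h]
  have h2 : x.2.1.val = y.2.1.val := by
    rw [← A.elN_div2, ← A.elN_div2, h]
  have h3 : x.2.2.val = y.2.2.val := by
    rw [← A.elN_mod2, ← A.elN_mod2, h]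
  exact Prod.ext (A.pN_inj h1) (Prod.ext (ZMod.val_injective 2 h2) (ZMod.val_injective 2 h3))

/-- Adjacency of local assignments in arithmetic. -/
theorem elemAdjN_iff (hc : A.Compat e C) (b : ZMod 2) (x y : Elem (A.sys e hρ C)) :
    A.elemAdjN b.val (A.elN e hρ C x) (A.elN e hρ C y) = 1 ↔ ElemAdj (A.sys e hρ C) b x y := by
  have h1 : A.elN e hρ C x / 4 ≠ A.elN e hρ C y / 4 ↔ x.1 ≠ y.1 := by
    rw [A.elN_div4, A.elN_div4]
    exact not_congr ⟨fun h => A.pN_inj h, fun h => congrArg _ h⟩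
  have h2 : (A.cmN (A.elN e hρ C x) (A.elN e hρ C y) 0 0 + A.cmN (A.elN e hρ C x) (A.elN e hρ C y) 0 1 +
        A.cmN (A.elN e hρ C x) (A.elN e hρ C y) 0 2 + A.cmN (A.elN e hρ C x) (A.elN e hρ C y) 1 0 +
        A.cmN (A.elN e hρ C x) (A.elN e hρ C y) 1 1 + A.cmN (A.elN e hρ C x) (A.elN e hρ C y) 1 2 +
        A.cmN (A.elN e hρ C x) (A.elN e hρ C y) 2 0 + A.cmN (A.elN e hρ C x) (A.elN e hρ C y) 2 1 +
        A.cmN (A.elN e hρ C x) (A.elN e hρ C y) 2 2) ≠ 0 ↔
      ∃ z w w', (z, w) ∈ (A.sys e hρ C).assign b x.1 x.2.1 x.2.2 ∧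
        (z, w') ∈ (A.sys e hρ C).assign b y.1 y.2.1 y.2.2 := by
    rw [sum9_ne (f := A.cmN (A.elN e hρ C x) (A.elN e hρ C y))]
    constructor
    · rintro ⟨i, j, hi, hj, h⟩
      obtain ⟨z, hz1, hz2⟩ := (A.cmN_ne hc x y hi hj).mp h
      exact ⟨z, _, _, (mem_assign_ent _ b _ _ _ z _).mpr ⟨i, hi, hz1, rfl⟩,
        (mem_assign_ent _ b _ _ _ z _).mpr ⟨j, hj, hz2, rfl⟩⟩
    · rintro ⟨z, w, w', h3, h4⟩
      obtain ⟨i, hi, hz1, -⟩ := (mem_assign_ent _ b _ _ _ z _).mp h3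
      obtain ⟨j, hj, hz2, -⟩ := (mem_assign_ent _ b _ _ _ z _).mp h4
      exact ⟨i, j, hi, hj, (A.cmN_ne hc x y hi hj).mpr ⟨z, hz1, hz2⟩⟩
  have h3 : (A.badN b.val (A.elN e hρ C x) (A.elN e hρ C y) 0 0 +
        A.badN b.val (A.elN e hρ C x) (A.elN e hρ C y) 0 1 +
        A.badN b.val (A.elN e hρ C x) (A.elN e hρ C y) 0 2 +
        A.badN b.val (A.elN e hρ C x) (A.elN e hρ C y) 1 0 +
        A.badN b.val (A.elN e hρ C x) (A.elN e hρ C y) 1 1 +
        A.badN b.val (A.elN e hρ C x) (A.elN e hρ C y) 1 2 +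
        A.badN b.val (A.elN e hρ C x) (A.elN e hρ C y) 2 0 +
        A.badN b.val (A.elN e hρ C x) (A.elN e hρ C y) 2 1 +
        A.badN b.val (A.elN e hρ C x) (A.elN e hρ C y) 2 2) = 0 ↔
      ∀ z w w', (z, w) ∈ (A.sys e hρ C).assign b x.1 x.2.1 x.2.2 →
        (z, w') ∈ (A.sys e hρ C).assign b y.1 y.2.1 y.2.2 → w = w' := by
    rw [← not_iff_not]
    rw [← ne_eq, sum9_ne (f := A.badN b.val (A.elN e hρ C x) (A.elN e hρ C y))]
    constructor
    · rintro ⟨i, j, hi, hj, h⟩ h'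
      obtain ⟨⟨z, hz1, hz2⟩, h5⟩ := (A.badN_ne hc b x y hi hj).mp h
      exact h5 (h' z _ _ ((mem_assign_ent _ b _ _ _ z _).mpr ⟨i, hi, hz1, rfl⟩)
        ((mem_assign_ent _ b _ _ _ z _).mpr ⟨j, hj, hz2, rfl⟩))
    · intro h'
      push Not at h'
      obtain ⟨z, w, w', h4, h5, h6⟩ := h'
      obtain ⟨i, hi, hz1, rfl⟩ := (mem_assign_ent _ b _ _ _ z _).mp h4
      obtain ⟨j, hj, hz2, rfl⟩ := (mem_assign_ent _ b _ _ _ z _).mp h5
      exact ⟨i, j, hi, hj, (A.badN_ne hc b x y hi hj).mpr ⟨⟨z, hz1, hz2⟩, h6⟩⟩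
  have hif : ∀ (c : Prop) [Decidable c], (if c then 1 else 0 : ℕ) = 1 ↔ c := by
    intro c _
    by_cases hc : c <;> simp [hc]
  unfold elemAdjN ElemAdj
  rw [hif, h1, h2, h3]

/-! ### Leaves -/

lemma flagN_ne (p : Piece (A.sys e hρ C)) :
    A.flagN (A.pN e hρ C p) ≠ 0 ↔ (A.sys e hρ C).flagged p := by
  have hb : ∀ g : Fin (A.sys e hρ C).nG, A.botN g.val = 0 ↔ (A.sys e hρ C).bot g = none := by
    intro g
    rw [A.botN_bot]
    cases (A.sys e hρ C).bot g with
    | none => simp [cutNum]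
    | some p => simp [cutNum]
  unfold flagN
  cases p with
  | link g c l =>
    have hg : g.val < A.nG := g.isLt
    have hc' := A.tokN_lt e c
    have hl : l.val < A.Lc := l.isLt
    have h1 : A.pκ (A.pN e hρ C (.link g c l)) = 0 := A.pκ_link hg hc' hl
    have h2 : A.pg (A.pN e hρ C (.link g c l)) = g.val := A.pg_link hg hc' hl
    have h3 : A.pl (A.pN e hρ C (.link g c l)) = l.val := A.pl_link hl
    rw [h1, if_pos rfl, h2, h3]
    simp only [Sys.flagged, ← hb]
    by_cases h : l.val = 0 ∧ A.botN g.val = 0 <;> simp [h]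
  | tr g c =>
    have hg : g.val < A.nG := g.isLt
    have hc' := A.tokN_lt e c
    have h1 : A.pκ (A.pN e hρ C (.tr g c)) = 1 := A.pκ_tr hg hc'
    have h2 : A.pg (A.pN e hρ C (.tr g c)) = g.val := A.pg_tr hg hc'
    rw [h1, if_neg (by norm_num), if_pos rfl, h2]
    simp only [Sys.flagged, ← hb]
    by_cases h : A.botN g.val = 0 <;> simp [h]
  | con f c =>
    have h1 : A.pκ (A.pN e hρ C (.con f c)) = 2 := A.pκ_con
    rw [h1, if_neg (by norm_num), if_neg (by norm_num)]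
    simp [Sys.flagged]

lemma leafN_elN (x : Elem (A.sys e hρ C)) :
    A.leafN (A.elN e hρ C x) = @leafCount _ _ _ _ (A.sys e hρ C) (A.pieceNum e hρ C) x := by
  classical
  unfold leafN leafCount elemCode
  rw [A.elN_div4, A.elN_div2]
  have h3 : A.N = numPieces (A.sys e hρ C) := (A.numPieces_sys e hρ C).symm
  rw [h3]
  have h1 : (if A.flagN (A.pN e hρ C x.1) ≠ 0 ∧ x.2.1.val ≠ 0 then 1 else 0 : ℕ) =
      (if (A.sys e hρ C).flagged x.1 ∧ x.2.1 ≠ 0 then 1 else 0 : ℕ) := by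
    have h2 : (A.flagN (A.pN e hρ C x.1) ≠ 0 ∧ x.2.1.val ≠ 0) ↔
        ((A.sys e hρ C).flagged x.1 ∧ x.2.1 ≠ 0) := by
      rw [A.flagN_ne]
      refine and_congr_right fun _ => not_congr ?_
      exact ZMod.val_eq_zero _
    by_cases h : (A.sys e hρ C).flagged x.1 ∧ x.2.1 ≠ 0
    · rw [if_pos h, if_pos (h2.mpr h)]
    · rw [if_neg h, if_neg (fun h' => h (h2.mp h'))]
  rw [h1]
  rfl

/-! ### Vertices -/

/-- The second part of the number of a vertex. -/
def leafNum {n : ℕ} : Option (Fin n) → ℕ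
  | none => 0
  | some i => i.val + 1

lemma leafNum_inj {n : ℕ} {a b : Option (Fin n)} (h : leafNum a = leafNum b) : a = b := by
  cases a with
  | none =>
    cases b with
    | none => rfl
    | some j => simp [leafNum] at h
  | some i =>
    cases b with
    | none => simp [leafNum] at h
    | some j =>
      simp only [leafNum] at h
      congr 1
      exact Fin.ext (by omega)

/-- The number of a vertex. -/
noncomputable def vtN (A : AD) (e : V ≃ Fin A.D.s) {α : Fin A.ρ → F} (hρ : 0 < A.ρ)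
    (C : Checks (V := V) α (2 * A.D.r) A.nM) (x : Vtx (A.sys e hρ C)) : ℕ :=
  A.elN e hρ C x.1 * (A.L + 1) + leafNum x.2

lemma leafNum_lt (x : Vtx (A.sys e hρ C)) : leafNum x.2 < A.L + 1 := by
  obtain ⟨x1, x2⟩ := x
  cases x2 with
  | none => simp [leafNum]
  | some i =>
    have h3 : numPieces (A.sys e hρ C) = A.N := A.numPieces_sys e hρ C
    have h2 : i.val < A.L :=
      calc i.val < 2 * numPieces (A.sys e hρ C) * (4 * numPieces (A.sys e hρ C) + 1) := i.isLt
        _ = A.L := by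
          rw [h3]
          rfl
    simp only [leafNum]
    omega

lemma vtN_div (x : Vtx (A.sys e hρ C)) : A.vtN e hρ C x / (A.L + 1) = A.elN e hρ C x.1 :=
  div_add_of_lt (A.leafNum_lt x)

lemma vtN_mod (x : Vtx (A.sys e hρ C)) : A.vtN e hρ C x % (A.L + 1) = leafNum x.2 :=
  mod_add_of_lt (A.leafNum_lt x)

lemma vtN_inj {x y : Vtx (A.sys e hρ C)} (h : A.vtN e hρ C x = A.vtN e hρ C y) : x = y := by
  obtain ⟨h1, h2⟩ := mix_inj (A.leafNum_lt x) (A.leafNum_lt y) h
  exact Prod.ext (A.elN_inj h1) (leafNum_inj h2)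

lemma elN_lt (x : Elem (A.sys e hρ C)) : A.elN e hρ C x < 4 * A.N := by
  have h1 := A.pN_lt x.1
  have h2 := zval_lt x.2.1
  have h3 := zval_lt x.2.2
  unfold elN
  omega

lemma vtN_lt (x : Vtx (A.sys e hρ C)) : A.vtN e hρ C x < A.nV := by
  have h1 := A.elN_lt x.1
  have h2 := A.leafNum_lt x
  unfold vtN nV
  calc A.elN e hρ C x.1 * (A.L + 1) + leafNum x.2 < A.elN e hρ C x.1 * (A.L + 1) + (A.L + 1) := by
        omega
    _ = (A.elN e hρ C x.1 + 1) * (A.L + 1) := by ring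
    _ ≤ 4 * A.N * (A.L + 1) := Nat.mul_le_mul_right _ h1

/-- The numbering of the vertices. -/
noncomputable def vtEq (A : AD) (e : V ≃ Fin A.D.s) {α : Fin A.ρ → F} (hρ : 0 < A.ρ)
    (C : Checks (V := V) α (2 * A.D.r) A.nM) : Vtx (A.sys e hρ C) ≃ Fin A.nV :=
  Equiv.ofBijective (fun x => ⟨A.vtN e hρ C x, A.vtN_lt x⟩) <|
    (Fintype.bijective_iff_injective_and_card _).mpr
      ⟨fun _ _ h => A.vtN_inj (congrArg Fin.val h), by
        rw [card_vtx_eq, A.numPieces_sys, Fintype.card_fin]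
        rfl⟩

/-- The adjacency of the graphs of the system, in arithmetic. -/
theorem adjF_iff (hc : A.Compat e C) (b : ZMod 2) (x y : Vtx (A.sys e hρ C)) :
    A.adjF b.val (A.vtN e hρ C x) (A.vtN e hρ C y) = 1 ↔
      (@altGraph _ _ _ _ _ (A.sys e hρ C) (A.pieceNum e hρ C) b).Adj x y := by
  have h0 : A.adjF b.val (A.vtN e hρ C x) (A.vtN e hρ C y) =
      if leafNum x.2 = 0 then
        if leafNum y.2 = 0 then A.elemAdjN b.val (A.elN e hρ C x.1) (A.elN e hρ C y.1)
        else (if A.elN e hρ C x.1 = A.elN e hρ C y.1 ∧ leafNum y.2 - 1 < A.leafN (A.elN e hρ C x.1)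
          then 1 else 0)
      else if leafNum y.2 = 0 then
        (if A.elN e hρ C x.1 = A.elN e hρ C y.1 ∧ leafNum x.2 - 1 < A.leafN (A.elN e hρ C y.1)
          then 1 else 0)
      else 0 := by
    simp only [adjF, A.vtN_div, A.vtN_mod]
  rw [h0]
  have hel : A.elN e hρ C x.1 = A.elN e hρ C y.1 ↔ x.1 = y.1 :=
    ⟨fun h => A.elN_inj h, fun h => congrArg _ h⟩
  obtain ⟨x1, x2⟩ := x
  obtain ⟨y1, y2⟩ := y
  have hif : ∀ (c : Prop) [Decidable c], (if c then 1 else 0 : ℕ) = 1 ↔ c := by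
    intro c _
    by_cases hc : c <;> simp [hc]
  cases x2 with
  | none =>
    cases y2 with
    | none =>
      simp only [leafNum, if_true]
      exact A.elemAdjN_iff hc b x1 y1
    | some i =>
      simp only [leafNum, if_true, Nat.succ_ne_zero, if_false, Nat.add_sub_cancel]
      rw [hif, hel, A.leafN_elN]
      rfl
  | some i =>
    cases y2 with
    | none =>
      simp only [leafNum, if_true, Nat.succ_ne_zero, if_false, Nat.add_sub_cancel]
      rw [hif, hel, A.leafN_elN]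
      rfl
    | some j =>
      simp only [leafNum, Nat.succ_ne_zero, if_false]
      constructor
      · intro h
        norm_num at h
      · intro h
        exact h.elim

/-- The main theorem on the arithmetic description: two graphs on the numbers below `nV`, given by
the function `adjF`, whose `ρ`-WL equivalence says that the query of the tableau program is not
derivable. -/
theorem exists_graphs [CharP F 2] (hρ3 : 3 ≤ A.ρ) (hα : Function.Injective α)
    (hℓ : 2 * (2 * A.D.r) ≤ A.ρ + 1) (hc : A.Compat e C) :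
    ∃ G H : SimpleGraph (Fin A.nV),
      (∀ x y : Fin A.nV, G.Adj x y ↔ A.adjF 0 x y = 1) ∧
      (∀ x y : Fin A.nV, H.Adj x y ↔ A.adjF 1 x y = 1) ∧
      (WLEquiv A.ρ G H ↔ ¬ (A.D.prog e).Derives A.D.stAF (fun _ => TD.toV e 0)) := by
  have hρ : 0 < A.ρ := by omega
  letI := A.pieceNum e hρ C
  refine ⟨(altGraph (A.sys e hρ C) 0).comap (A.vtEq e hρ C).symm,
    (altGraph (A.sys e hρ C) 1).comap (A.vtEq e hρ C).symm, ?_, ?_, ?_⟩
  · intro x y
    obtain ⟨x, rfl⟩ := (A.vtEq e hρ C).surjective x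
    obtain ⟨y, rfl⟩ := (A.vtEq e hρ C).surjective y
    simp only [SimpleGraph.comap_adj, Equiv.symm_apply_apply]
    exact (A.adjF_iff hc 0 x y).symm
  · intro x y
    obtain ⟨x, rfl⟩ := (A.vtEq e hρ C).surjective x
    obtain ⟨y, rfl⟩ := (A.vtEq e hρ C).surjective y
    simp only [SimpleGraph.comap_adj, Equiv.symm_apply_apply]
    exact (A.adjF_iff hc 1 x y).symm
  · rw [wlEquiv_comap]
    exact wlEquiv_progSysPN_iff hρ C (A.D.prog e) A.D.stAF (fun _ => TD.toV e 0) A.ge hρ3 hα hℓ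

end Sys

end AD

end Vale.Agent.Lib.P310.Num
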