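import Vale.Agent.Lib.P310.Num.AdjBasic
import Vale.Agent.Lib.P310.Alt.ProgSize

/-!
# The arithmetic description of the graphs of the tableau program
-/

set_option linter.unusedSectionVars false
set_option linter.unusedVariables false

namespace Vale.Agent.Lib.P310.Num

open Mach Tab Alt

namespace AD

/-- The number of a gate tag. -/
def gn (A : AD) : GateTag A.D.nR → ℕ
  | .inl r => 3 * r
  | .inr (.inl r) => 3 * r + 1
  | .inr (.inr (.inl r)) => 3 * r + 2
  | .inr (.inr (.inr false)) => 3 * A.D.nR
  | .inr (.inr (.inr true)) => 3 * A.D.nR + 1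

/-- The number of the second component of a cut. -/
def μN : Option Bool → ℕ
  | some false => 0
  | some true => 1
  | none => 2

lemma μN_lt (μ : Option Bool) : μN μ < 3 := by
  rcases μ with _ | _ | _ <;> simp [μN]

lemma μN_inj {μ μ' : Option Bool} (h : μN μ = μN μ') : μ = μ' := by
  rcases μ with _ | _ | _ <;> rcases μ' with _ | _ | _ <;> simp_all [μN]

lemma mix_inj {a b c d n : ℕ} (hb : b < n) (hd : d < n) (h : a * n + b = c * n + d) :
    a = c ∧ b = d := by
  have h1 : (a * n + b) / n = a := div_add_of_lt hb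
  have h2 : (c * n + d) / n = c := div_add_of_lt hd
  have h3 : (a * n + b) % n = b := mod_add_of_lt hb
  have h4 : (c * n + d) % n = d := mod_add_of_lt hd
  rw [h] at h1 h3
  exact ⟨h1.symm.trans h2, h3.symm.trans h4⟩

variable (A : AD)

lemma gn_lt (t : GateTag A.D.nR) : A.gn t < A.nG := by
  unfold nG nR
  rcases t with r | r | r | _ | _
  · have := r.isLt
    simp only [gn]
    omega
  · have := r.isLt
    simp only [gn]
    omega
  · have := r.isLt
    simp only [gn]
    omega
  · simp only [gn]
    omega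
  · simp only [gn]
    omega

lemma gn_inj {t t' : GateTag A.D.nR} (h : A.gn t = A.gn t') : t = t' := by
  rcases t with r | r | r | _ | _ <;> rcases t' with r' | r' | r' | _ | _ <;> simp only [gn] at h <;>
    first
    | (have := r.isLt; have := r'.isLt; omega)
    | (have := r.isLt; omega)
    | (have := r'.isLt; omega)
    | omega
    | (congr 1; exact Fin.ext (by omega))
    | (congr 2; exact Fin.ext (by omega))
    | (congr 3; exact Fin.ext (by omega))
    | rfl

lemma card_gate (n : ℕ) : Fintype.card (GateTag n) = 3 * n + 2 := by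
  simp only [GateTag, Fintype.card_sum, Fintype.card_fin, Fintype.card_bool]
  ring

/-- The numbering of the gates. -/
noncomputable def ge : GateTag A.D.nR ≃ Fin A.nG :=
  Equiv.ofBijective (fun t => ⟨A.gn t, A.gn_lt t⟩) <|
    (Fintype.bijective_iff_injective_and_card _).mpr
      ⟨fun _ _ h => A.gn_inj (congrArg Fin.val h), by
        rw [card_gate, Fintype.card_fin]
        rfl⟩

@[simp] lemma ge_val (t : GateTag A.D.nR) : (A.ge t).val = A.gn t := rfl

section Sys

variable {F V : Type} [Field F] [AddCommGroup V] [Module F V] [Fintype V] [DecidableEq V]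
  (e : V ≃ Fin A.D.s) {α : Fin A.ρ → F} (hρ : 0 < A.ρ) (C : Checks (V := V) α (2 * A.D.r) A.nM)

/-- The system of the tableau program. -/
noncomputable abbrev sys : Sys A.ρ V :=
  progSysN hρ C (A.D.prog e) A.D.stAF (fun _ => TD.toV e 0) A.ge

lemma exists_tag (g : Fin (A.sys e hρ C).nG) : ∃ t, g = A.ge t :=
  ⟨A.ge.symm g, (A.ge.apply_symm_apply g).symm⟩

/-- The number of a token. -/
def tokN (c : Tok A.ρ V) : ℕ := c.1.val * A.s + (e c.2).val

lemma val_lt_s (x : V) : (e x).val < A.s := (e x).isLt

lemma tokN_lt (c : Tok A.ρ V) : A.tokN e c < A.Ntok := by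
  unfold tokN Ntok
  have h1 := c.1.isLt
  have h2 := A.val_lt_s e c.2
  calc c.1.val * A.s + (e c.2).val < c.1.val * A.s + A.s := by omega
    _ = (c.1.val + 1) * A.s := by ring
    _ ≤ A.ρ * A.s := Nat.mul_le_mul_right _ h1

lemma tokN_inj {c c' : Tok A.ρ V} (h : A.tokN e c = A.tokN e c') : c = c' := by
  obtain ⟨h1, h2⟩ := mix_inj (A.val_lt_s e c.2) (A.val_lt_s e c'.2) h
  exact Prod.ext (Fin.ext h1) (e.injective (Fin.ext h2))

lemma tI_tokN (c : Tok A.ρ V) : A.tI (A.tokN e c) = c.1.val := A.tI_tok (A.val_lt_s e c.2)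

lemma tX_tokN (c : Tok A.ρ V) : A.tX (A.tokN e c) = (e c.2).val := A.tX_tok (A.val_lt_s e c.2)

/-- The number of a constraint. -/
noncomputable def pN : Piece (A.sys e hρ C) → ℕ
  | .link g c l => (g.val * A.Ntok + A.tokN e c) * A.Lc + l.val
  | .tr g c => A.N₁ + (g.val * A.Ntok + A.tokN e c)
  | .con f c => A.N₁ + A.N₂ + (f.val * A.Ntok + A.tokN e c)

/-- The number of a variable. -/
noncomputable def varN : XVar (A.sys e hρ C) → ℕ
  | .cut f μ c => A.cutV (3 * f.val + μN μ) (A.tokN e c)
  | .top g c => A.topV (g.val) (A.tokN e c)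
  | .mid g c l => A.midV (g.val) (A.tokN e c) l.val
  | .bit g l => A.bitV (g.val) l.val

lemma varN_ne_zero (z : XVar (A.sys e hρ C)) : A.varN e hρ C z ≠ 0 := by
  cases z with
  | cut f μ c => exact A.cutV_ne_zero _ _
  | top g c => exact A.topV_ne_zero _ _
  | mid g c l => exact A.midV_ne_zero _ _ _
  | bit g l => exact A.bitV_ne_zero _ _

lemma Lc_eq : (2 * A.ρ * (A.sys e hρ C).m) = A.Lc := rfl

lemma varN_inj {z z' : XVar (A.sys e hρ C)} (h : A.varN e hρ C z = A.varN e hρ C z') : z = z' := by
  have hL : ∀ l : Fin (2 * A.ρ * (A.sys e hρ C).m), l.val < A.Lc := fun l => l.isLt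
  cases z with
  | cut f μ c =>
    cases z' with
    | cut f' μ' c' =>
      simp only [varN, cutV] at h
      have h1 : (3 * f.val + μN μ) * A.Ntok + A.tokN e c =
          (3 * f'.val + μN μ') * A.Ntok + A.tokN e c' := by omega
      obtain ⟨h2, h3⟩ := mix_inj (A.tokN_lt e c) (A.tokN_lt e c') h1
      have h4 := μN_lt μ
      have h5 := μN_lt μ'
      have h6 : f.val = f'.val := by omega
      have h7 : μN μ = μN μ' := by omega
      rw [Fin.ext h6, μN_inj h7, A.tokN_inj e h3]
    | top g c' => simp only [varN, cutV, topV] at h; omega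
    | mid g c' l => simp only [varN, cutV, midV] at h; omega
    | bit g l => simp only [varN, cutV, bitV] at h; omega
  | top g c =>
    cases z' with
    | cut f' μ' c' => simp only [varN, cutV, topV] at h; omega
    | top g' c' =>
      simp only [varN, topV] at h
      have h1 : g.val * A.Ntok + A.tokN e c = g'.val * A.Ntok + A.tokN e c' := by
        omega
      obtain ⟨h2, h3⟩ := mix_inj (A.tokN_lt e c) (A.tokN_lt e c') h1
      rw [Fin.ext h2, A.tokN_inj e h3]
    | mid g' c' l => simp only [varN, topV, midV] at h; omega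
    | bit g' l => simp only [varN, topV, bitV] at h; omega
  | mid g c l =>
    cases z' with
    | cut f' μ' c' => simp only [varN, cutV, midV] at h; omega
    | top g' c' => simp only [varN, topV, midV] at h; omega
    | mid g' c' l' =>
      simp only [varN, midV] at h
      have h1 : (g.val * A.Ntok + A.tokN e c) * A.Lc + l.val =
          (g'.val * A.Ntok + A.tokN e c') * A.Lc + l'.val := by omega
      obtain ⟨h2, h3⟩ := mix_inj (hL l) (hL l') h1
      obtain ⟨h4, h5⟩ := mix_inj (A.tokN_lt e c) (A.tokN_lt e c') h2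
      rw [Fin.ext h4, A.tokN_inj e h5, Fin.ext h3]
    | bit g' l' => simp only [varN, midV, bitV] at h; omega
  | bit g l =>
    cases z' with
    | cut f' μ' c' => simp only [varN, cutV, bitV] at h; omega
    | top g' c' => simp only [varN, topV, bitV] at h; omega
    | mid g' c' l' => simp only [varN, midV, bitV] at h; omega
    | bit g' l' =>
      simp only [varN, bitV] at h
      have h1 : g.val * A.Lc + l.val = g'.val * A.Lc + l'.val := by omega
      obtain ⟨h2, h3⟩ := mix_inj (hL l) (hL l') h1
      rw [Fin.ext h2, Fin.ext h3]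

/-! ### The data of a gate -/

/-- The number of an optional cut, plus one; `0` for none. -/
def cutNum {n : ℕ} : Option (Fin n × Option Bool) → ℕ
  | none => 0
  | some p => 3 * p.1.val + μN p.2 + 1

lemma premCut_map (n : ℕ) :
    cutNum ((A.D.optP n).map fun q => ((stF (A.D.prog e) q, some false) :
        Fin ((A.D.prog e).nQ + (A.D.prog e).nR + 1) × Option Bool)) = A.premCut n := by
  unfold premCut nP
  cases n with
  | zero =>
    simp [TD.optP, cutNum]
    rfl
  | succ q =>
    by_cases hq : q < A.D.nP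
    · have h1 : A.D.optP (q + 1) = some ⟨q, hq⟩ := by simp [TD.optP, hq]
      rw [h1]
      simp [cutNum, stF, μN, hq]
      rfl
    · have h1 : A.D.optP (q + 1) = none := by simp [TD.optP, hq]
      rw [h1]
      simp [cutNum, hq]
      rfl

/-- The bottom of a gate, as a number. -/
lemma botN_ge (t : GateTag A.D.nR) :
    A.botN (A.gn t) = cutNum (gateBot (A.D.prog e) A.D.stAF t) := by
  rcases t with r | r | r | _ | _
  · have h1 : A.gn (.inl r) = 3 * r.val + 0 := rfl
    rw [h1]
    unfold botN
    rw [A.gκ_rule _ _ r.isLt (by norm_num), if_pos rfl, gτ_three _ _ (by norm_num)]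
    exact (A.premCut_map e _).symm
  · have h1 : A.gn (.inr (.inl r)) = 3 * r.val + 1 := rfl
    rw [h1]
    unfold botN
    rw [A.gκ_rule _ _ r.isLt (by norm_num), if_neg (by norm_num), if_pos rfl,
      gτ_three _ _ (by norm_num)]
    exact (A.premCut_map e _).symm
  · have h1 : A.gn (.inr (.inr (.inl r))) = 3 * r.val + 2 := rfl
    rw [h1]
    unfold botN
    rw [A.gκ_rule _ _ r.isLt (by norm_num), if_neg (by norm_num), if_neg (by norm_num), if_pos rfl,
      gτ_three _ _ (by norm_num)]
    simp [gateBot, ruF, μN, cutNum, nP]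
    rfl
  · have h1 : A.gn (.inr (.inr (.inr false))) = 3 * A.nR := rfl
    rw [h1]
    unfold botN
    rw [A.gκ_root0]
    simp [gateBot, cutNum]
  · have h1 : A.gn (.inr (.inr (.inr true))) = 3 * A.nR + 1 := rfl
    rw [h1]
    unfold botN
    rw [A.gκ_root1]
    simp [gateBot, stF, μN, TD.stAF, cutNum]
    rfl

/-- The top of a gate, as a number. -/
lemma topN_ge (t : GateTag A.D.nR) :
    A.topN (A.gn t) = 3 * (gateTop (A.D.prog e) t).1.val + μN (some (gateTop (A.D.prog e) t).2) := by
  rcases t with r | r | r | _ | _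
  · have h1 : A.gn (.inl r) = 3 * r.val + 0 := rfl
    rw [h1]
    unfold topN
    rw [A.gκ_rule _ _ r.isLt (by norm_num), if_pos rfl, gτ_three _ _ (by norm_num)]
    simp [gateTop, ruF, μN]
    rfl
  · have h1 : A.gn (.inr (.inl r)) = 3 * r.val + 1 := rfl
    rw [h1]
    unfold topN
    rw [A.gκ_rule _ _ r.isLt (by norm_num), if_neg (by norm_num), if_pos rfl,
      gτ_three _ _ (by norm_num)]
    simp [gateTop, ruF, μN]
    rfl
  · have h1 : A.gn (.inr (.inr (.inl r))) = 3 * r.val + 2 := rfl
    rw [h1]
    unfold topN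
    rw [A.gκ_rule _ _ r.isLt (by norm_num), if_neg (by norm_num), if_neg (by norm_num), if_pos rfl,
      gτ_three _ _ (by norm_num)]
    simp [gateTop, stF, μN, TD.prog, TD.rule]
    rfl
  · have h1 : A.gn (.inr (.inr (.inr false))) = 3 * A.nR := rfl
    rw [h1]
    unfold topN
    rw [A.gκ_root0]
    simp [gateTop, μN, nP, nR, TD.prog]
  · have h1 : A.gn (.inr (.inr (.inr true))) = 3 * A.nR + 1 := rfl
    rw [h1]
    unfold topN
    rw [A.gκ_root1]
    simp [gateTop, μN, nP, nR, TD.prog]

end Sys

end AD

end Vale.Agent.Lib.P310.Num
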