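import Vale.Agent.Lib.P310.Num.AdjSpec

/-!
# The entries of the constraints, as numbers
-/

set_option linter.unusedSectionVars false
set_option linter.unusedVariables false

namespace Vale.Agent.Lib.P310.Num

open Mach Tab Alt

namespace Alt'

variable {ρ : ℕ} {V : Type} [AddCommGroup V] (S : Sys ρ V)

/-- The variable of entry `j` of a constraint. -/
def entV : Piece S → ℕ → Option (XVar S)
  | .link g _ l, 0 => some (.bit g l)
  | .link g c l, 1 =>
      if l.val = 0 then (S.bot g).map (fun p => .cut p.1 p.2 c) else some (.mid g c l)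
  | .link g c l, _ => some (S.rightVar g c l)
  | .tr g c, 0 => (S.bot g).map (fun p => .cut p.1 p.2 c)
  | .tr g c, 1 => some (.cut (S.top g).1 (some (S.top g).2) (S.shift g c))
  | .tr g c, _ => some (.top g c)
  | .con f c, 0 => some (.cut f.castSucc (some false) c)
  | .con f c, 1 => some (.cut f.castSucc (some true) c)
  | .con f c, _ => some (.cut f.castSucc none c)

/-- The value of entry `j` of a constraint. -/
def entW (b : ZMod 2) : Piece S → ZMod 2 → ZMod 2 → ℕ → ZMod 2
  | .link _ _ _, _, β, 0 => β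
  | .link _ _ _, a, _, 1 => a
  | .link g c l, a, β, _ => a + S.v g c l * β + (if l.val = 0 then b * S.twist g c else 0)
  | .tr _ _, a, _, 0 => a
  | .tr _ _, _, β, 1 => β
  | .tr _ _, a, β, _ => a + β
  | .con _ _, a, _, 0 => a
  | .con _ _, _, β, 1 => β
  | .con _ _, a, β, _ => a + β

lemma mem_botEntry {g : Fin S.nG} {c : Tok ρ V} {a : ZMod 2} {z : XVar S} {w : ZMod 2} :
    (z, w) ∈ S.botEntry g c a ↔
      (S.bot g).map (fun p => XVar.cut p.1 p.2 c) = some z ∧ a = w := by
  unfold Sys.botEntry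
  cases h : S.bot g with
  | none => simp
  | some p =>
    simp only [List.mem_singleton, Prod.mk.injEq, Option.map_some, Option.some.injEq]
    constructor
    · rintro ⟨rfl, rfl⟩
      exact ⟨rfl, rfl⟩
    · rintro ⟨rfl, rfl⟩
      exact ⟨rfl, rfl⟩

/-- The entries of a constraint. -/
lemma mem_assign_ent (b : ZMod 2) (p : Piece S) (a β : ZMod 2) (z : XVar S) (w : ZMod 2) :
    (z, w) ∈ S.assign b p a β ↔ ∃ j, j < 3 ∧ entV S p j = some z ∧ entW S b p a β j = w := by
  have h3 : ∀ P : ℕ → Prop, (∃ j, j < 3 ∧ P j) ↔ P 0 ∨ P 1 ∨ P 2 := by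
    intro P
    constructor
    · rintro ⟨j, hj, h⟩
      interval_cases j <;> simp_all
    · rintro (h | h | h)
      · exact ⟨0, by norm_num, h⟩
      · exact ⟨1, by norm_num, h⟩
      · exact ⟨2, by norm_num, h⟩
  rw [h3]
  cases p with
  | link g c l =>
    simp only [Sys.assign, List.mem_cons, List.mem_append, entV, entW, Option.some.injEq,
      Prod.mk.injEq, List.not_mem_nil, or_false]
    by_cases hl : l.val = 0
    · simp only [hl, if_true, mem_botEntry]
      simp only [eq_comm]
    · simp only [hl, if_false, List.mem_singleton, Prod.mk.injEq, add_zero, Option.some.injEq]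
      simp only [eq_comm]
  | tr g c =>
    simp only [Sys.assign, List.mem_cons, List.mem_append, entV, entW, Option.some.injEq,
      Prod.mk.injEq, List.not_mem_nil, or_false, mem_botEntry]
    simp only [eq_comm]
  | con f c =>
    simp only [Sys.assign, List.mem_cons, entV, entW, Option.some.injEq,
      Prod.mk.injEq, List.not_mem_nil, or_false]
    simp only [eq_comm]

end Alt'

namespace AD

open Alt'

variable (A : AD)

section Sys

variable {F V : Type} [Field F] [AddCommGroup V] [Module F V] [Fintype V] [DecidableEq V]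
  (e : V ≃ Fin A.D.s) {α : Fin A.ρ → F} (hρ : 0 < A.ρ) (C : Checks (V := V) α (2 * A.D.r) A.nM)

/-- The tables agree with the operations of the field. -/
structure Compat : Prop where
  shift : ∀ (τ : Fin A.D.nR) (i : Fin A.ρ) (x : V),
    (e (x + encode α (A.D.rule e τ).add i)).val = A.shiftVal τ.val i.val (e x).val
  base : ∀ (t : GateTag A.D.nR) (i : Fin A.ρ) (x : V) (q : Fin (A.ρ + A.nM)),
    (baseVec C (gateGuard (A.D.prog e) (fun _ => TD.toV e 0) t) i x q).val =
      A.uN (A.gn t) (i.val * A.s + (e x).val) q.val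

variable {e hρ C}

/-- The kind of the gate of a tag. -/
lemma gκ_gn_ne {t : GateTag A.D.nR} (h : ∀ r, t ≠ .inr (.inr (.inl r))) : A.gκ (A.gn t) ≠ 2 := by
  rcases t with r | r | r | _ | _
  · have h1 : A.gn (.inl r) = 3 * r.val + 0 := rfl
    rw [h1, A.gκ_rule _ _ r.isLt (by norm_num)]
    norm_num
  · have h1 : A.gn (.inr (.inl r)) = 3 * r.val + 1 := rfl
    rw [h1, A.gκ_rule _ _ r.isLt (by norm_num)]
    norm_num
  · exact absurd rfl (h r)
  · have h1 : A.gn (.inr (.inr (.inr false))) = 3 * A.nR := rfl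
    rw [h1, A.gκ_root0]
    norm_num
  · have h1 : A.gn (.inr (.inr (.inr true))) = 3 * A.nR + 1 := rfl
    rw [h1, A.gκ_root1]
    norm_num

lemma shiftTok_tok (hc : A.Compat e C) (g : Fin (A.sys e hρ C).nG) (c : Tok A.ρ V) :
    A.shiftTok g.val (A.tokN e c) = A.tokN e ((A.sys e hρ C).shift g c) := by
  obtain ⟨t, rfl⟩ := A.exists_tag e hρ C g
  have hlam : (A.sys e hρ C).lam (A.ge t) = encode α (gateAdd (A.D.prog e) t) := by
    exact progSys_lam hρ C (A.D.prog e) A.D.stAF (fun _ => TD.toV e 0) A.ge t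
  by_cases ht : ∃ r, t = .inr (.inr (.inl r))
  · obtain ⟨r, rfl⟩ := ht
    have h1 : A.gn (.inr (.inr (.inl r))) = 3 * r.val + 2 := rfl
    unfold shiftTok
    rw [ge_val, h1, A.gκ_rule _ _ r.isLt (by norm_num), if_pos rfl, gτ_three _ _ (by norm_num),
      A.tI_tokN e c, A.tX_tokN e c]
    unfold tokN Sys.shift
    rw [hlam]
    exact congrArg (c.1.val * A.s + ·) (hc.shift r c.1 c.2).symm
  · push Not at ht
    unfold shiftTok
    rw [ge_val, if_neg (A.gκ_gn_ne ht)]
    have h0 : gateAdd (A.D.prog e) t = fun _ => 0 := by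
      rcases t with r | r | r | _ | _
      · rfl
      · rfl
      · exact absurd rfl (ht r)
      · rfl
      · rfl
    unfold tokN Sys.shift
    rw [hlam, h0, encode_zero]
    simp

lemma vN_tok (hc : A.Compat e C) (g : Fin (A.sys e hρ C).nG) (c : Tok A.ρ V)
    (l : Fin (2 * A.ρ * (A.sys e hρ C).m)) :
    A.vN g.val (A.tokN e c) l.val = ((A.sys e hρ C).v g c l).val := by
  obtain ⟨t, rfl⟩ := A.exists_tag e hρ C g
  have hu : (A.sys e hρ C).u (A.ge t) =
      baseVec C (gateGuard (A.D.prog e) (fun _ => TD.toV e 0) t) := by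
    show baseVec C (gateGuard (A.D.prog e) (fun _ => TD.toV e 0) (A.ge.symm (A.ge t))) = _
    rw [Equiv.symm_apply_apply]
  unfold Sys.v
  rw [hu]
  exact (hc.base t c.1 c.2 ⟨l.val % (A.sys e hρ C).m, Nat.mod_lt _ (A.sys e hρ C).m_pos⟩).symm

lemma twist_tok (g : Fin (A.sys e hρ C).nG) (c : Tok A.ρ V) :
    A.twist g.val (A.tokN e c) = ((A.sys e hρ C).twist g c).val := by
  have hgt : g = (A.sys e hρ C).gt ↔ g.val = 3 * A.nR + 1 := by
    have h1 : (A.sys e hρ C).gt = A.ge (.inr (.inr (.inr true))) := rfl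
    rw [h1]
    constructor
    · rintro rfl
      rfl
    · intro h
      exact Fin.ext h
  unfold twist Sys.twist
  rw [A.tI_tokN e c]
  by_cases h1 : g = (A.sys e hρ C).gt ∧ c.1.val = 0
  · rw [if_pos h1, if_pos ⟨hgt.mp h1.1, h1.2⟩]
    rfl
  · rw [if_neg h1, if_neg (fun h => h1 ⟨hgt.mpr h.1, h.2⟩)]
    rfl

/-- The number of the bottom of a gate. -/
lemma botN_bot (g : Fin (A.sys e hρ C).nG) :
    A.botN g.val = cutNum ((A.sys e hρ C).bot g) := by
  obtain ⟨t, rfl⟩ := A.exists_tag e hρ C g
  have h1 : (A.sys e hρ C).bot (A.ge t) = gateBot (A.D.prog e) A.D.stAF t :=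
    progSys_bot hρ C (A.D.prog e) A.D.stAF (fun _ => TD.toV e 0) A.ge t
  rw [h1, ge_val]
  exact A.botN_ge e t

/-- The number of the top of a gate. -/
lemma topN_top (g : Fin (A.sys e hρ C).nG) :
    A.topN g.val = 3 * ((A.sys e hρ C).top g).1.val + μN (some ((A.sys e hρ C).top g).2) := by
  obtain ⟨t, rfl⟩ := A.exists_tag e hρ C g
  have h1 : (A.sys e hρ C).top (A.ge t) = gateTop (A.D.prog e) t :=
    progSys_top hρ C (A.D.prog e) A.D.stAF (fun _ => TD.toV e 0) A.ge t
  rw [h1, ge_val]
  exact A.topN_ge e t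

/-- The variable of the bottom of a gate. -/
lemma botV_var (g : Fin (A.sys e hρ C).nG) (c : Tok A.ρ V) :
    A.botV g.val (A.tokN e c) =
      match ((A.sys e hρ C).bot g).map (fun p => XVar.cut p.1 p.2 c) with
      | none => 0
      | some z => A.varN e hρ C z := by
  unfold botV
  rw [A.botN_bot]
  cases h : (A.sys e hρ C).bot g with
  | none => rfl
  | some p =>
    simp only [cutNum, Option.map_some]
    rfl

lemma rightV_var (g : Fin (A.sys e hρ C).nG) (c : Tok A.ρ V)
    (l : Fin (2 * A.ρ * (A.sys e hρ C).m)) :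
    A.rightV g.val (A.tokN e c) l.val = A.varN e hρ C ((A.sys e hρ C).rightVar g c l) := by
  unfold rightV Sys.rightVar
  by_cases h : l.val + 1 < A.Lc
  · have h' : l.val + 1 < 2 * A.ρ * (A.sys e hρ C).m := h
    rw [if_pos h, dif_pos h']
    rfl
  · have h' : ¬ l.val + 1 < 2 * A.ρ * (A.sys e hρ C).m := h
    rw [if_neg h, dif_neg h']
    rfl

/-- The number of an optional variable. -/
noncomputable def oVar (A : AD) (e : V ≃ Fin A.D.s) {α : Fin A.ρ → F} (hρ : 0 < A.ρ)
    (C : Checks (V := V) α (2 * A.D.r) A.nM) : Option (XVar (A.sys e hρ C)) → ℕ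
  | none => 0
  | some z => A.varN e hρ C z

lemma oVar_eq_zero {o : Option (XVar (A.sys e hρ C))} : A.oVar e hρ C o = 0 ↔ o = none := by
  cases o with
  | none => simp [oVar]
  | some z => simp [oVar, A.varN_ne_zero]

/-- The numbers of the variables of the entries of a constraint. -/
lemma eCode_pN (hc : A.Compat e C) (p : Piece (A.sys e hρ C)) {j : ℕ} (hj : j < 3) :
    A.eCode (A.pN e hρ C p) j = A.oVar e hρ C (entV (A.sys e hρ C) p j) := by
  cases p with
  | link g c l =>
    have hg : g.val < A.nG := g.isLt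
    have hc' := A.tokN_lt e c
    have hl : l.val < A.Lc := l.isLt
    show A.eCode ((g.val * A.Ntok + A.tokN e c) * A.Lc + l.val) j = _
    unfold eCode
    rw [A.pκ_link hg hc' hl, if_pos rfl, A.pg_link hg hc' hl, A.pc_link hg hc' hl, A.pl_link hl]
    interval_cases j
    · rfl
    · simp only [entV, if_true, one_ne_zero, if_false]
      by_cases h0 : l.val = 0
      · rw [if_pos h0, if_pos h0, A.botV_var]
        cases (((A.sys e hρ C).bot g).map (fun p => XVar.cut p.1 p.2 c)) <;> rfl
      · rw [if_neg h0, if_neg h0]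
        rfl
    · simp only [entV, OfNat.ofNat_ne_zero, OfNat.ofNat_ne_one, if_false]
      rw [A.rightV_var]
      rfl
  | tr g c =>
    have hg : g.val < A.nG := g.isLt
    have hc' := A.tokN_lt e c
    show A.eCode (A.N₁ + (g.val * A.Ntok + A.tokN e c)) j = _
    unfold eCode
    rw [A.pκ_tr hg hc', if_neg (by norm_num), if_pos rfl, A.pg_tr hg hc', A.pc_tr hg hc']
    interval_cases j
    · simp only [entV, if_true]
      rw [A.botV_var]
      cases (((A.sys e hρ C).bot g).map (fun p => XVar.cut p.1 p.2 c)) <;> rfl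
    · simp only [entV, one_ne_zero, if_false, if_true]
      rw [A.shiftTok_tok hc, A.topN_top]
      rfl
    · rfl
  | con f c =>
    have hc' := A.tokN_lt e c
    show A.eCode (A.N₁ + A.N₂ + (f.val * A.Ntok + A.tokN e c)) j = _
    unfold eCode
    rw [A.pκ_con, if_neg (by norm_num), if_neg (by norm_num), A.pg_con hc', A.pc_con hc']
    interval_cases j <;> rfl

/-- The number of a local assignment. -/
noncomputable def elN (A : AD) (e : V ≃ Fin A.D.s) {α : Fin A.ρ → F} (hρ : 0 < A.ρ)
    (C : Checks (V := V) α (2 * A.D.r) A.nM) (x : Elem (A.sys e hρ C)) : ℕ :=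
  4 * A.pN e hρ C x.1 + 2 * x.2.1.val + x.2.2.val

lemma zval_lt (a : ZMod 2) : a.val < 2 := ZMod.val_lt a

lemma elN_div4 (x : Elem (A.sys e hρ C)) : A.elN e hρ C x / 4 = A.pN e hρ C x.1 := by
  have h1 := zval_lt x.2.1
  have h2 := zval_lt x.2.2
  unfold elN
  omega

lemma elN_div2 (x : Elem (A.sys e hρ C)) : A.elN e hρ C x / 2 % 2 = x.2.1.val := by
  have h1 := zval_lt x.2.1
  have h2 := zval_lt x.2.2
  unfold elN
  omega

lemma elN_mod2 (x : Elem (A.sys e hρ C)) : A.elN e hρ C x % 2 = x.2.2.val := by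
  have h2 := zval_lt x.2.2
  unfold elN
  omega

lemma zval_add (a b : ZMod 2) : (a + b).val = (a.val + b.val) % 2 := ZMod.val_add a b

lemma zval_link (a v β t : ZMod 2) : (a + v * β + t).val = (a.val + v.val * β.val + t.val) % 2 := by
  revert a v β t
  decide

lemma zval_mul (a b : ZMod 2) : (a * b).val = a.val * b.val := by
  revert a b
  decide

/-- The values of the entries of a constraint. -/
lemma eVal_elN (hc : A.Compat e C) (b : ZMod 2) (x : Elem (A.sys e hρ C)) {j : ℕ} (hj : j < 3) :
    A.eVal b.val (A.elN e hρ C x) j = (entW (A.sys e hρ C) b x.1 x.2.1 x.2.2 j).val := by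
  obtain ⟨p, a, β⟩ := x
  unfold eVal
  simp only [A.elN_div4, A.elN_div2, A.elN_mod2]
  cases p with
  | link g c l =>
    have hg : g.val < A.nG := g.isLt
    have hc' := A.tokN_lt e c
    have hl : l.val < A.Lc := l.isLt
    show (if A.pκ ((g.val * A.Ntok + A.tokN e c) * A.Lc + l.val) = 0 then _ else _) = _
    rw [A.pκ_link hg hc' hl, if_pos rfl]
    have h1 : A.pg (A.pN e hρ C (.link g c l)) = g.val := A.pg_link hg hc' hl
    have h2 : A.pc (A.pN e hρ C (.link g c l)) = A.tokN e c := A.pc_link hg hc' hl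
    have h3 : A.pl (A.pN e hρ C (.link g c l)) = l.val := A.pl_link hl
    rw [h1, h2, h3]
    interval_cases j
    · rfl
    · rfl
    · simp only [entW, OfNat.ofNat_ne_zero, OfNat.ofNat_ne_one, if_false]
      rw [zval_link, A.vN_tok hc]
      by_cases h0 : l.val = 0
      · rw [if_pos h0, if_pos h0, zval_mul, A.twist_tok]
      · rw [if_neg h0, if_neg h0]
        rfl
  | tr g c =>
    have hg : g.val < A.nG := g.isLt
    have hc' := A.tokN_lt e c
    show (if A.pκ (A.N₁ + (g.val * A.Ntok + A.tokN e c)) = 0 then _ else _) = _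
    rw [A.pκ_tr hg hc', if_neg (by norm_num)]
    interval_cases j
    · rfl
    · rfl
    · exact (zval_add a β).symm
  | con f c =>
    have hc' := A.tokN_lt e c
    show (if A.pκ (A.N₁ + A.N₂ + (f.val * A.Ntok + A.tokN e c)) = 0 then _ else _) = _
    rw [A.pκ_con, if_neg (by norm_num)]
    interval_cases j
    · rfl
    · rfl
    · exact (zval_add a β).symm

end Sys

end AD

end Vale.Agent.Lib.P310.Num
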