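import Vale.Agent.Lib.P310.Num.Code

/-!
# Terms for the numeric rules of the tableau
-/

set_option linter.unusedSimpArgs false

namespace Vale.Agent.Lib.P310.Num

open Mach Tab

namespace Tm'

open Tm TD

variable {π : ℕ → ℕ} {w : List Bool} {env : List ℕ}

/-- Term for the tape symbol of a tableau symbol. -/
def symAT (σ : Tm) : Tm := modT σ hBT
/-- Term for the head part of a tableau symbol. -/
def symHT (σ : Tm) : Tm := divT σ hBT
/-- Term for the sentinel. -/
def sentT : Tm := .mul hBT (.add hAT (.lit 1))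
/-- Term for the number of tableau symbols. -/
def SzT : Tm := .add sentT (.lit 1)
/-- Truth value: a head in a state that is not halting. -/
def activeT (σ : Tm) : Tm :=
  andT (neT (symHT σ) (.lit 0)) (andT (neT (symHT σ) (.lit 2)) (neT (symHT σ) (.lit 3)))

/-- Term for the next state at a tableau symbol. -/
def ndq (σ : Tm) : Tm := call2 dqB (.sub (symHT σ) (.lit 1)) (symAT σ)
/-- Term for the written symbol at a tableau symbol. -/
def nda (σ : Tm) : Tm := call2 daB (.sub (symHT σ) (.lit 1)) (symAT σ)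
/-- Term for the direction at a tableau symbol. -/
def ndm (σ : Tm) : Tm := call2 dmB (.sub (symHT σ) (.lit 1)) (symAT σ)

/-- Term for `TD.next`. -/
def nextT (l c r : Tm) : Tm :=
  .ite (activeT c)
    (.ite (andT (eqT (ndm c) (.lit 0)) (eqT l sentT))
      (.add (nda c) (.mul hBT (.add (ndq c) (.lit 1))))
      (nda c))
    (.ite (neT (symHT c) (.lit 0)) c
      (.ite (andT (neT l sentT) (andT (activeT l) (eqT (ndm l) (.lit 1))))
        (.add (symAT c) (.mul hBT (.add (ndq l) (.lit 1))))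
        (.ite (andT (activeT r) (eqT (ndm r) (.lit 0)))
          (.add (symAT c) (.mul hBT (.add (ndq r) (.lit 1))))
          (symAT c))))

@[simp] lemma eval_symAT (σ : Tm) :
    eval π w (symAT σ) env = (tdW π w).symA (eval π w σ env) := by
  simp only [symAT, eval_modT, eval_hBT, TD.symA, tdW]

@[simp] lemma eval_symHT (σ : Tm) :
    eval π w (symHT σ) env = (tdW π w).symH (eval π w σ env) := by
  simp only [symHT, eval_divT, eval_hBT, TD.symH, tdW]

@[simp] lemma eval_sentT : eval π w sentT env = (tdW π w).sent := by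
  simp only [sentT, eval_mul, eval_add, eval_lit, eval_hAT, eval_hBT, TD.sent, tdW]

@[simp] lemma eval_SzT : eval π w SzT env = (tdW π w).S := by
  simp only [SzT, eval_add, eval_lit, eval_sentT, TD.sent, TD.S]

lemma act_aux (h : ℕ) : andN (neN h 0) (andN (neN h 2) (neN h 3)) =
    boolN (decide (h ≠ 0 ∧ h ≠ 2 ∧ h ≠ 3)) := by
  by_cases h0 : h = 0
  · simp [andN, neN, boolN, h0]
  · by_cases h2 : h = 2
    · simp [andN, neN, boolN, h2]
    · by_cases h3 : h = 3
      · simp [andN, neN, boolN, h3]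
      · simp [andN, neN, boolN, h0, h2, h3]

@[simp] lemma eval_activeT (σ : Tm) :
    eval π w (activeT σ) env = boolN ((tdW π w).active (eval π w σ env)) := by
  simp only [activeT, eval_andT, eval_neT, eval_symHT, eval_lit, TD.active, act_aux]

@[simp] lemma eval_ndq (σ : Tm) : eval π w (ndq σ) env =
    (tdW π w).dq ((tdW π w).symH (eval π w σ env) - 1) ((tdW π w).symA (eval π w σ env)) := by
  simp only [ndq, eval_dqT, eval_sub, eval_lit, eval_symHT, eval_symAT]
  rfl

@[simp] lemma eval_nda (σ : Tm) : eval π w (nda σ) env =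
    (tdW π w).da ((tdW π w).symH (eval π w σ env) - 1) ((tdW π w).symA (eval π w σ env)) := by
  simp only [nda, eval_daT, eval_sub, eval_lit, eval_symHT, eval_symAT]
  rfl

@[simp] lemma eval_ndm (σ : Tm) : eval π w (ndm σ) env =
    (tdW π w).dm ((tdW π w).symH (eval π w σ env) - 1) ((tdW π w).symA (eval π w σ env)) := by
  simp only [ndm, eval_dmT, eval_sub, eval_lit, eval_symHT, eval_symAT]
  rfl

@[simp] lemma eval_nextT (l c r : Tm) : eval π w (nextT l c r) env =
    (tdW π w).next (eval π w l env) (eval π w c env) (eval π w r env) := by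
  simp only [nextT, TD.next, eval_ite, eval_andT, eval_eqT, eval_neT, eval_activeT, eval_ndm,
    eval_nda, eval_ndq, eval_add, eval_mul, eval_lit, eval_hBT, eval_sentT, eval_symHT, eval_symAT,
    iteN_boolN, iteN_andN, iteN_neN, eqN_ne, neN_ne, andN_ne, boolN_ne]
  rfl

/-- Term for the number of digits. -/
def rT : Tm := .par 2
/-- Term for the kind of a rule. -/
def kT (τ : Tm) : Tm := modT τ (.lit 10)
/-- Fields of a rule number. -/
def fs1T (τ : Tm) : Tm := modT (divT τ (.lit 10)) SzT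
def fs2T (τ : Tm) : Tm := modT (divT (divT τ (.lit 10)) SzT) SzT
def fs3T (τ : Tm) : Tm := modT (divT (divT (divT τ (.lit 10)) SzT) SzT) SzT
def fjT (τ : Tm) : Tm := modT (divT (divT (divT (divT τ (.lit 10)) SzT) SzT) SzT) (.mul (.lit 2) rT)
def faT (τ : Tm) : Tm := divT (divT (divT (divT (divT τ (.lit 10)) SzT) SzT) SzT) (.mul (.lit 2) rT)

/-- Terms for the control states. -/
def stLT (σ : Tm) : Tm := .add SzT σ
def stRT (σ : Tm) : Tm := .add (.mul (.lit 2) SzT) σ
def stPT (a b : Tm) : Tm := .add (.add (.mul (.lit 3) SzT) (.mul a SzT)) b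
def stAT : Tm := .add (.mul (.lit 3) SzT) (.mul SzT SzT)
def stDT : Tm := .add stAT (.lit 1)
def nPT : Tm := .add stDT (.lit 1)
/-- Term for the number of rules. -/
def nRT : Tm :=
  .mul (.mul (.mul (.mul (.mul (.lit 10) SzT) SzT) SzT) (.mul (.lit 2) rT)) sT
/-- Term for the initial symbol of a cell. -/
def initT (a : Tm) : Tm := .add (inST a) (.mul hBT (.ite (eqT a (.lit 0)) (.lit 1) (.lit 0)))
/-- Term for the clamp of a symbol. -/
def clampT (σ : Tm) : Tm := .ite (ltT σ SzT) σ (.lit 0)

/-- Truth value: the rule is switched off. -/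
def offT (τ : Tm) : Tm :=
  .ite (eqT (kT τ) (.lit 1))
    (notT (andT (andT (ltT (fjT τ) rT) (leT (.lit 1) (fjT τ))) (neT (faT τ) (.lit 0))))
    (.ite (orT (eqT (kT τ) (.lit 2)) (orT (eqT (kT τ) (.lit 4)) (eqT (kT τ) (.lit 7))))
      (notT (andT (ltT (fjT τ) rT) (ltT (.add (faT τ) (.lit 1)) sT)))
      (.ite (eqT (kT τ) (.lit 8)) (neT (symHT (fs1T τ)) (.lit 2)) (.lit 0)))

/-- Term for the first premise. -/
def prem1T (τ : Tm) : Tm :=
  .ite (offT τ) (.add stDT (.lit 1))
    (.ite (orT (eqT (kT τ) (.lit 2)) (orT (eqT (kT τ) (.lit 4)) (eqT (kT τ) (.lit 8))))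
      (.add (fs1T τ) (.lit 1))
      (.ite (eqT (kT τ) (.lit 6)) (.add (stLT (fs1T τ)) (.lit 1))
        (.ite (eqT (kT τ) (.lit 7)) (.add (stPT (fs1T τ) (fs2T τ)) (.lit 1))
          (.ite (eqT (kT τ) (.lit 9)) (.add stAT (.lit 1)) (.lit 0)))))

/-- Term for the second premise. -/
def prem2T (τ : Tm) : Tm :=
  .ite (eqT (kT τ) (.lit 6)) (.add (fs2T τ) (.lit 1))
    (.ite (eqT (kT τ) (.lit 7)) (.add (stRT (fs3T τ)) (.lit 1)) (.lit 0))

/-- Term for the conclusion. -/
def conclT (τ : Tm) : Tm :=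
  .ite (eqT (kT τ) (.lit 0)) (clampT (initT (faT τ)))
    (.ite (eqT (kT τ) (.lit 1)) (.lit 0)
      (.ite (eqT (kT τ) (.lit 2)) (stLT (fs1T τ))
        (.ite (eqT (kT τ) (.lit 3)) (stLT sentT)
          (.ite (eqT (kT τ) (.lit 4)) (stRT (fs1T τ))
            (.ite (eqT (kT τ) (.lit 5)) (stRT (.lit 0))
              (.ite (eqT (kT τ) (.lit 6)) (stPT (fs1T τ) (fs2T τ))
                (.ite (eqT (kT τ) (.lit 7)) (clampT (nextT (fs1T τ) (fs2T τ) (fs3T τ)))
                  stAT)))))))

/-- Term for the guard of an increment. -/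
def incGT (b j a i : Tm) : Tm :=
  .ite (andT (ltT i (.add b j)) (leT b i)) sT
    (.ite (eqT i (.add b j)) (.add a (.lit 1)) (.lit 0))

/-- Term for the guard of a decrement. -/
def decGT (b j a i : Tm) : Tm :=
  .ite (andT (ltT i (.add b j)) (leT b i)) (.lit 1)
    (.ite (eqT i (.add b j)) (.add a (.lit 2)) (.lit 0))

/-- Term for the guard of a rule at a register. -/
def guardT (τ i : Tm) : Tm :=
  .ite (eqT (kT τ) (.lit 0))
    (.ite (eqT i rT) (.add (faT τ) (.lit 1))
      (.ite (ltT i (.mul (.lit 2) rT)) (.lit 1) (.lit 0)))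
    (.ite (eqT (kT τ) (.lit 1))
      (.ite (ltT i rT) (.lit 1) (.ite (eqT i (.add rT (fjT τ))) (.add (faT τ) (.lit 1)) (.lit 0)))
      (.ite (eqT (kT τ) (.lit 2)) (incGT rT (fjT τ) (faT τ) i)
        (.ite (eqT (kT τ) (.lit 3))
          (.ite (andT (leT rT i) (ltT i (.mul (.lit 2) rT))) (.lit 1) (.lit 0))
          (.ite (eqT (kT τ) (.lit 4)) (decGT rT (fjT τ) (faT τ) i)
            (.ite (eqT (kT τ) (.lit 5))
              (.ite (andT (leT rT i) (ltT i (.mul (.lit 2) rT))) sT (.lit 0))
              (.ite (eqT (kT τ) (.lit 7)) (incGT (.lit 0) (fjT τ) (faT τ) i)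
                (.ite (eqT (kT τ) (.lit 9))
                  (.ite (eqT i (fjT τ)) (.add (faT τ) (.lit 1)) (.lit 0))
                  (.lit 0))))))))

/-- Term for the source value of the translation. -/
def fromT (τ i : Tm) : Tm :=
  .ite (eqT (kT τ) (.lit 2))
    (.ite (andT (ltT i (.add rT (fjT τ))) (leT rT i)) (.sub sT (.lit 1))
      (.ite (eqT i (.add rT (fjT τ))) (faT τ) (.lit 0)))
    (.ite (eqT (kT τ) (.lit 4))
      (.ite (andT (ltT i (.add rT (fjT τ))) (leT rT i)) (.lit 0)
        (.ite (eqT i (.add rT (fjT τ))) (.add (faT τ) (.lit 1)) (.lit 0)))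
      (.ite (eqT (kT τ) (.lit 7))
        (.ite (ltT i (fjT τ)) (.sub sT (.lit 1)) (.ite (eqT i (fjT τ)) (faT τ) (.lit 0)))
        (.ite (eqT (kT τ) (.lit 9))
          (.ite (eqT i (fjT τ)) (faT τ) (.lit 0))
          (.lit 0))))

/-- Term for the target value of the translation. -/
def toT (τ i : Tm) : Tm :=
  .ite (eqT (kT τ) (.lit 2))
    (.ite (andT (ltT i (.add rT (fjT τ))) (leT rT i)) (.lit 0)
      (.ite (eqT i (.add rT (fjT τ))) (.add (faT τ) (.lit 1)) (.lit 0)))
    (.ite (eqT (kT τ) (.lit 4))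
      (.ite (andT (ltT i (.add rT (fjT τ))) (leT rT i)) (.sub sT (.lit 1))
        (.ite (eqT i (.add rT (fjT τ))) (faT τ) (.lit 0)))
      (.ite (eqT (kT τ) (.lit 7))
        (.ite (ltT i (fjT τ)) (.lit 0) (.ite (eqT i (fjT τ)) (.add (faT τ) (.lit 1)) (.lit 0)))
        (.lit 0)))

@[simp] lemma eval_rT : eval π w rT env = (tdW π w).r := rfl
@[simp] lemma eval_sT' : eval π w sT env = (tdW π w).s := eval_sT
@[simp] lemma eval_kT (τ : Tm) : eval π w (kT τ) env = fκ (eval π w τ env) := by
  simp only [kT, eval_modT, eval_lit, fκ]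
@[simp] lemma eval_fs1T (τ : Tm) : eval π w (fs1T τ) env = (tdW π w).fs₁ (eval π w τ env) := by
  simp only [fs1T, eval_modT, eval_divT, eval_lit, eval_SzT, fs₁]
@[simp] lemma eval_fs2T (τ : Tm) : eval π w (fs2T τ) env = (tdW π w).fs₂ (eval π w τ env) := by
  simp only [fs2T, eval_modT, eval_divT, eval_lit, eval_SzT, fs₂]
@[simp] lemma eval_fs3T (τ : Tm) : eval π w (fs3T τ) env = (tdW π w).fs₃ (eval π w τ env) := by
  simp only [fs3T, eval_modT, eval_divT, eval_lit, eval_SzT, fs₃]
@[simp] lemma eval_fjT (τ : Tm) : eval π w (fjT τ) env = (tdW π w).fj (eval π w τ env) := by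
  simp only [fjT, eval_modT, eval_divT, eval_lit, eval_mul, eval_rT, eval_SzT, fj]
@[simp] lemma eval_faT (τ : Tm) : eval π w (faT τ) env = (tdW π w).fa (eval π w τ env) := by
  simp only [faT, eval_divT, eval_lit, eval_mul, eval_rT, eval_SzT, fa]
@[simp] lemma eval_stLT (σ : Tm) : eval π w (stLT σ) env = (tdW π w).stL (eval π w σ env) := by
  simp only [stLT, eval_add, eval_SzT, stL]
@[simp] lemma eval_stRT (σ : Tm) : eval π w (stRT σ) env = (tdW π w).stR (eval π w σ env) := by
  simp only [stRT, eval_add, eval_mul, eval_lit, eval_SzT, stR]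
@[simp] lemma eval_stPT (a b : Tm) : eval π w (stPT a b) env =
    (tdW π w).stP (eval π w a env) (eval π w b env) := by
  simp only [stPT, eval_add, eval_mul, eval_lit, eval_SzT, stP]
@[simp] lemma eval_stAT : eval π w stAT env = (tdW π w).stA := by
  simp only [stAT, eval_add, eval_mul, eval_lit, eval_SzT, stA]
@[simp] lemma eval_stDT : eval π w stDT env = (tdW π w).stD := by
  simp only [stDT, eval_add, eval_lit, eval_stAT, stD]
@[simp] lemma eval_nPT : eval π w nPT env = (tdW π w).nP := by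
  simp only [nPT, eval_add, eval_lit, eval_stDT, nP]
@[simp] lemma eval_nRT : eval π w nRT env = (tdW π w).nR := by
  simp only [nRT, eval_mul, eval_lit, eval_SzT, eval_rT, eval_sT', nR]
@[simp] lemma eval_initT (a : Tm) : eval π w (initT a) env = (tdW π w).initSym (eval π w a env) := by
  simp only [initT, initSym, eval_add, eval_mul, eval_inST, eval_hBT, eval_ite, eval_eqT, eval_lit,
    iteN_eqN, tdW]
@[simp] lemma eval_clampT (σ : Tm) : eval π w (clampT σ) env = (tdW π w).clampS (eval π w σ env) := by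
  simp only [clampT, clampS, eval_ite, eval_ltT, eval_SzT, eval_lit, iteN_ltN]

@[simp] lemma eval_offT (τ : Tm) : eval π w (offT τ) env = boolN ((tdW π w).off (eval π w τ env)) := by
  simp only [offT, off, eval_ite, eval_eqT, eval_orT, eval_notT, eval_andT, eval_ltT, eval_leT,
    eval_neT, eval_kT, eval_fjT, eval_faT, eval_fs1T, eval_symHT, eval_rT, eval_sT', eval_add,
    eval_lit, iteN_eqN, iteN_orN, eqN_ne, orN_ne, ltN_boolN, leN_boolN, neN_boolN, andN_boolN,
    notN_boolN, apply_ite boolN]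
  rfl

@[simp] lemma eval_prem1T (τ : Tm) :
    eval π w (prem1T τ) env = (tdW π w).prem₁N (eval π w τ env) := by
  simp only [prem1T, prem₁N, eval_ite, eval_eqT, eval_orT, eval_offT, eval_kT, eval_fs1T, eval_fs2T,
    eval_stLT, eval_stPT, eval_stAT, eval_stDT, eval_add, eval_lit, iteN_boolN, iteN_eqN, iteN_orN,
    eqN_ne, orN_ne, stC]

@[simp] lemma eval_prem2T (τ : Tm) :
    eval π w (prem2T τ) env = (tdW π w).prem₂N (eval π w τ env) := by
  simp only [prem2T, prem₂N, eval_ite, eval_eqT, eval_kT, eval_fs2T, eval_fs3T,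
    eval_stRT, eval_add, eval_lit, iteN_eqN, stC]

@[simp] lemma eval_conclT (τ : Tm) :
    eval π w (conclT τ) env = (tdW π w).conclN (eval π w τ env) := by
  simp only [conclT, conclN, eval_ite, eval_eqT, eval_kT, eval_fs1T, eval_fs2T, eval_fs3T, eval_faT,
    eval_sentT, eval_nextT, eval_initT, eval_clampT, eval_stLT, eval_stRT, eval_stPT, eval_stAT,
    eval_lit, iteN_eqN, stC]

@[simp] lemma eval_incGT (b j a i : Tm) : eval π w (incGT b j a i) env =
    (tdW π w).incGuard (eval π w b env) (eval π w j env) (eval π w a env) (eval π w i env) := by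
  simp only [incGT, incGuard, eval_ite, eval_andT, eval_ltT, eval_leT, eval_eqT, eval_add, eval_lit,
    eval_sT', iteN_andN, iteN_eqN, ltN_ne, leN_ne]

@[simp] lemma eval_decGT (b j a i : Tm) : eval π w (decGT b j a i) env =
    decGuard (eval π w b env) (eval π w j env) (eval π w a env) (eval π w i env) := by
  simp only [decGT, decGuard, eval_ite, eval_andT, eval_ltT, eval_leT, eval_eqT, eval_add, eval_lit,
    iteN_andN, iteN_eqN, ltN_ne, leN_ne]

@[simp] lemma eval_guardT (τ i : Tm) :
    eval π w (guardT τ i) env = (tdW π w).guardN (eval π w τ env) (eval π w i env) := by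
  simp only [guardT, guardN, eval_ite, eval_eqT, eval_ltT, eval_leT, eval_andT, eval_mul, eval_add,
    eval_lit, eval_kT, eval_faT, eval_fjT, eval_rT, eval_sT', eval_incGT, eval_decGT,
    iteN_eqN, iteN_ltN, iteN_andN, ltN_ne, leN_ne]

@[simp] lemma eval_fromT (τ i : Tm) :
    eval π w (fromT τ i) env = (tdW π w).fromN (eval π w τ env) (eval π w i env) := by
  simp only [fromT, fromN, eval_ite, eval_eqT, eval_ltT, eval_leT, eval_andT, eval_sub, eval_add,
    eval_lit, eval_kT, eval_faT, eval_fjT, eval_rT, eval_sT', iteN_eqN, iteN_ltN, iteN_andN, ltN_ne,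
    leN_ne]

@[simp] lemma eval_toT (τ i : Tm) :
    eval π w (toT τ i) env = (tdW π w).toN (eval π w τ env) (eval π w i env) := by
  simp only [toT, toN, eval_ite, eval_eqT, eval_ltT, eval_leT, eval_andT, eval_sub, eval_add,
    eval_lit, eval_kT, eval_faT, eval_fjT, eval_rT, eval_sT', iteN_eqN, iteN_ltN, iteN_andN, ltN_ne,
    leN_ne]

end Tm'

end Vale.Agent.Lib.P310.Num
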