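import Vale.Agent.Lib.P310.Num.Defs
import Vale.Agent.Lib.P310.Num.TabT

/-!
# Terms for the graphs of the tableau program

The data `A : AD` are read from the parameters `π` and the word `w`: `π 0 = ρ`, `π 2 = r`, `π 3 = q`,
`π 4 = eb`, and the tables are digits of the literals `π 5, ..., π 9`.
-/

set_option linter.unusedSimpArgs false

namespace Vale.Agent.Lib.P310.Num

open Mach Tab

/-- An entry of a table stored in the digits of a number `L` in base `B`, with `C` columns. -/
def tabRead (L B C x y : ℕ) : ℕ := L / B ^ (x * C + y) % B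

/-- The data read from the parameters and the word. -/
def adOf (π : ℕ → ℕ) (w : List Bool) : AD where
  D := tdW π w
  ρ := π 0
  q := pQ π
  eb := π 4
  m := mW π w
  addF x y := tabRead (π 5) (pQ π) (pQ π) x y
  mulF x y := tabRead (π 6) (pQ π) (pQ π) x y
  phi x y := tabRead (π 7) 2 (pQ π) x y
  lamT x y := tabRead (π 8) (pQ π) (π 0) x y
  apw x y := tabRead (π 9) (pQ π) (2 * pR π) x y

namespace Tm'

open Tm TD AD

variable {π : ℕ → ℕ} {w : List Bool} {env : List ℕ}

/-- The term for a table entry. -/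
def tabT (L B C x y : Tm) : Tm := digitT (.add L (.lit 1)) B L (.add (.mul x C) y)

@[simp] lemma eval_tabT (L B C x y : Tm) : eval π w (tabT L B C x y) env =
    tabRead (eval π w L env) (eval π w B env) (eval π w C env) (eval π w x env) (eval π w y env) := by
  simp only [tabT, tabRead]
  rw [eval_digitT _ _ _ _ (by simp)]
  simp only [eval_add, eval_mul]

/-- The terms for the constants. -/
def qT : Tm := .par 3
def ebT : Tm := .par 4
def rhoT : Tm := .par 0
def ellT : Tm := .mul (.lit 2) rT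
def nGT : Tm := .add (.mul (.lit 3) nRT) (.lit 2)
def nFT : Tm := .add nPT nRT
def nMT : Tm := .mul (.mul rhoT mT) ebT
def mmT : Tm := .add rhoT nMT
def LcT : Tm := .mul (.mul (.lit 2) rhoT) mmT
def NtokT : Tm := .mul rhoT sT
def N1T : Tm := .mul (.mul nGT NtokT) LcT
def N2T : Tm := .mul nGT NtokT
def N3T : Tm := .mul nFT NtokT
def NT : Tm := .add (.add N1T N2T) N3T
def LT : Tm := .mul (.mul (.lit 2) NT) (.add (.mul (.lit 4) NT) (.lit 1))
def nVT : Tm := .mul (.mul (.lit 4) NT) (.add LT (.lit 1))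

@[simp] lemma eval_qT : eval π w qT env = (adOf π w).q := rfl
@[simp] lemma eval_ebT : eval π w ebT env = (adOf π w).eb := rfl
@[simp] lemma eval_rhoT : eval π w rhoT env = (adOf π w).ρ := rfl
@[simp] lemma eval_ellT : eval π w ellT env = (adOf π w).ℓ := rfl
@[simp] lemma eval_sAT : eval π w sT env = (adOf π w).s := eval_sT'
@[simp] lemma eval_mAT : eval π w mT env = (adOf π w).m := eval_mT
@[simp] lemma eval_nRAT : eval π w nRT env = (adOf π w).nR := eval_nRT
@[simp] lemma eval_nPAT : eval π w nPT env = (adOf π w).nP := eval_nPT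
@[simp] lemma eval_nGT : eval π w nGT env = (adOf π w).nG := by
  simp only [nGT, AD.nG, eval_add, eval_mul, eval_lit, eval_nRAT]
@[simp] lemma eval_nFT : eval π w nFT env = (adOf π w).nF := by
  simp only [nFT, AD.nF, eval_add, eval_nPAT, eval_nRAT]
@[simp] lemma eval_nMT : eval π w nMT env = (adOf π w).nM := by
  simp only [nMT, AD.nM, eval_mul, eval_rhoT, eval_mAT, eval_ebT]
@[simp] lemma eval_mmT : eval π w mmT env = (adOf π w).mm := by
  simp only [mmT, AD.mm, eval_add, eval_rhoT, eval_nMT]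
@[simp] lemma eval_LcT : eval π w LcT env = (adOf π w).Lc := by
  simp only [LcT, AD.Lc, eval_mul, eval_lit, eval_rhoT, eval_mmT]
@[simp] lemma eval_NtokT : eval π w NtokT env = (adOf π w).Ntok := by
  simp only [NtokT, AD.Ntok, eval_mul, eval_rhoT, eval_sAT]
@[simp] lemma eval_N1T : eval π w N1T env = (adOf π w).N₁ := by
  simp only [N1T, AD.N₁, eval_mul, eval_nGT, eval_NtokT, eval_LcT]
@[simp] lemma eval_N2T : eval π w N2T env = (adOf π w).N₂ := by
  simp only [N2T, AD.N₂, eval_mul, eval_nGT, eval_NtokT]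
@[simp] lemma eval_N3T : eval π w N3T env = (adOf π w).N₃ := by
  simp only [N3T, AD.N₃, eval_mul, eval_nFT, eval_NtokT]
@[simp] lemma eval_NT : eval π w NT env = (adOf π w).N := by
  simp only [NT, AD.N, eval_add, eval_N1T, eval_N2T, eval_N3T]
@[simp] lemma eval_LT : eval π w LT env = (adOf π w).L := by
  simp only [LT, AD.L, eval_add, eval_mul, eval_lit, eval_NT]
@[simp] lemma eval_nVT : eval π w nVT env = (adOf π w).nV := by
  simp only [nVT, AD.nV, eval_add, eval_mul, eval_lit, eval_NT, eval_LT]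

/-- Terms for the tables. -/
def addFT (x y : Tm) : Tm := tabT (.par 5) qT qT x y
def mulFT (x y : Tm) : Tm := tabT (.par 6) qT qT x y
def phiT (x y : Tm) : Tm := tabT (.par 7) (.lit 2) qT x y
def lamTT (x y : Tm) : Tm := tabT (.par 8) qT rhoT x y
def apwT (x y : Tm) : Tm := tabT (.par 9) qT ellT x y

@[simp] lemma eval_addFT (x y : Tm) :
    eval π w (addFT x y) env = (adOf π w).addF (eval π w x env) (eval π w y env) := by
  simp only [addFT, eval_tabT, eval_par, eval_qT]
  rfl
@[simp] lemma eval_mulFT (x y : Tm) :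
    eval π w (mulFT x y) env = (adOf π w).mulF (eval π w x env) (eval π w y env) := by
  simp only [mulFT, eval_tabT, eval_par, eval_qT]
  rfl
@[simp] lemma eval_phiT (x y : Tm) :
    eval π w (phiT x y) env = (adOf π w).phi (eval π w x env) (eval π w y env) := by
  simp only [phiT, eval_tabT, eval_par, eval_qT, eval_lit]
  rfl
@[simp] lemma eval_lamTT (x y : Tm) :
    eval π w (lamTT x y) env = (adOf π w).lamT (eval π w x env) (eval π w y env) := by
  simp only [lamTT, eval_tabT, eval_par, eval_qT, eval_rhoT]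
  rfl
@[simp] lemma eval_apwT (x y : Tm) :
    eval π w (apwT x y) env = (adOf π w).apw (eval π w x env) (eval π w y env) := by
  simp only [apwT, eval_tabT, eval_par, eval_qT, eval_ellT]
  rfl

/-- Terms for digits and values. -/
def dgT (x c : Tm) : Tm := digitT (.add x (.lit 1)) qT x c
def tvT (n : Tm) : Tm := .ite (ltT n sT) n (.lit 0)

@[simp] lemma eval_dgT (x c : Tm) :
    eval π w (dgT x c) env = (adOf π w).dg (eval π w x env) (eval π w c env) := by
  simp only [dgT, AD.dg]
  rw [eval_digitT _ _ _ _ (by simp)]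
  simp only [eval_qT]

@[simp] lemma eval_tvT (n : Tm) : eval π w (tvT n) env = (adOf π w).tv (eval π w n env) := by
  simp only [tvT, AD.tv, eval_ite, eval_ltT, eval_sAT, eval_lit, iteN_ltN]

/-- Terms for gates. -/
def gτT (g : Tm) : Tm := divT g (.lit 3)
def gκT (g : Tm) : Tm :=
  .ite (ltT g (.mul (.lit 3) nRT)) (modT g (.lit 3))
    (.ite (eqT g (.mul (.lit 3) nRT)) (.lit 3) (.lit 4))
def premCutT (n : Tm) : Tm :=
  .ite (eqT n (.lit 0)) (.lit 0)
    (.ite (ltT (.sub n (.lit 1)) nPT) (.add (.mul (.lit 3) (.sub n (.lit 1))) (.lit 1)) (.lit 0))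
def botNT (g : Tm) : Tm :=
  .ite (eqT (gκT g) (.lit 0)) (premCutT (prem1T (gτT g)))
    (.ite (eqT (gκT g) (.lit 1)) (premCutT (prem2T (gτT g)))
      (.ite (eqT (gκT g) (.lit 2)) (.add (.add (.mul (.lit 3) (.add nPT (gτT g))) (.lit 2)) (.lit 1))
        (.ite (eqT (gκT g) (.lit 4)) (.add (.mul (.lit 3) stAT) (.lit 1)) (.lit 0))))
def topNT (g : Tm) : Tm :=
  .ite (eqT (gκT g) (.lit 0)) (.mul (.lit 3) (.add nPT (gτT g)))
    (.ite (eqT (gκT g) (.lit 1)) (.add (.mul (.lit 3) (.add nPT (gτT g))) (.lit 1))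
      (.ite (eqT (gκT g) (.lit 2)) (.mul (.lit 3) (modT (conclT (gτT g)) nPT))
        (.mul (.lit 3) (.add nPT nRT))))
def gGuardT (g κ : Tm) : Tm :=
  .ite (eqT (gκT g) (.lit 2)) (guardT (gτT g) κ)
    (.ite (orT (eqT (gκT g) (.lit 3)) (eqT (gκT g) (.lit 4))) (.lit 1) (.lit 0))

@[simp] lemma eval_gτT (g : Tm) : eval π w (gτT g) env = gτ (eval π w g env) := by
  simp only [gτT, gτ, eval_divT, eval_lit]
@[simp] lemma eval_gκT (g : Tm) : eval π w (gκT g) env = (adOf π w).gκ (eval π w g env) := by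
  simp only [gκT, gκ, eval_ite, eval_ltT, eval_eqT, eval_mul, eval_modT, eval_lit, eval_nRAT,
    iteN_ltN, iteN_eqN]
@[simp] lemma eval_premCutT (n : Tm) :
    eval π w (premCutT n) env = (adOf π w).premCut (eval π w n env) := by
  simp only [premCutT, premCut, eval_ite, eval_ltT, eval_eqT, eval_sub, eval_add, eval_mul, eval_lit,
    eval_nPAT, iteN_ltN, iteN_eqN]
lemma eval_prem1A (τ : Tm) : eval π w (prem1T τ) env = (adOf π w).D.prem₁N (eval π w τ env) :=
  eval_prem1T τ
lemma eval_prem2A (τ : Tm) : eval π w (prem2T τ) env = (adOf π w).D.prem₂N (eval π w τ env) :=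
  eval_prem2T τ
lemma eval_conclA (τ : Tm) : eval π w (conclT τ) env = (adOf π w).D.conclN (eval π w τ env) :=
  eval_conclT τ
lemma eval_guardA (τ i : Tm) :
    eval π w (guardT τ i) env = (adOf π w).D.guardN (eval π w τ env) (eval π w i env) :=
  eval_guardT τ i
lemma eval_fromA (τ i : Tm) :
    eval π w (fromT τ i) env = (adOf π w).D.fromN (eval π w τ env) (eval π w i env) :=
  eval_fromT τ i
lemma eval_toA (τ i : Tm) :
    eval π w (toT τ i) env = (adOf π w).D.toN (eval π w τ env) (eval π w i env) :=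
  eval_toT τ i
lemma eval_stAA : eval π w stAT env = (adOf π w).D.stA := eval_stAT

@[simp] lemma eval_botNT (g : Tm) : eval π w (botNT g) env = (adOf π w).botN (eval π w g env) := by
  simp only [botNT, botN, eval_ite, eval_eqT, eval_add, eval_mul, eval_lit, eval_gκT, eval_gτT,
    eval_premCutT, eval_prem1A, eval_prem2A, eval_stAA, eval_nPAT, iteN_eqN]
@[simp] lemma eval_topNT (g : Tm) : eval π w (topNT g) env = (adOf π w).topN (eval π w g env) := by
  simp only [topNT, topN, eval_ite, eval_eqT, eval_add, eval_mul, eval_modT, eval_lit, eval_gκT,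
    eval_gτT, eval_conclA, eval_nPAT, eval_nRAT, iteN_eqN]
@[simp] lemma eval_gGuardT (g κ : Tm) :
    eval π w (gGuardT g κ) env = (adOf π w).gGuard (eval π w g env) (eval π w κ env) := by
  simp only [gGuardT, gGuard, eval_ite, eval_eqT, eval_orT, eval_lit, eval_gκT, eval_gτT,
    eval_guardA, iteN_eqN, iteN_orN, eqN_ne]

/-- The body of `shiftSum`: the environment holds `τ, i, c`. -/
def shiftSumB : Tm :=
  .iter ellT qT (.lit 0)
    (addFT (.var 1) (mulFT (apwT (.var 3) (.var 0))
      (addFT (dgT (tvT (toT (.var 2) (.var 0))) (.var 4))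
        (dgT (tvT (fromT (.var 2) (.var 0))) (.var 4)))))

/-- The term for `shiftSum`. -/
def shiftSumT (τ i c : Tm) : Tm := .app shiftSumB τ i c (.lit 0)

@[simp] lemma eval_shiftSumT (τ i c : Tm) : eval π w (shiftSumT τ i c) env =
    (adOf π w).shiftSum (eval π w τ env) (eval π w i env) (eval π w c env) := by
  simp only [shiftSumT, shiftSumB, shiftSum, eval_app, eval_iter, eval_ellT, eval_qT, eval_lit,
    eval_addFT, eval_mulFT, eval_apwT, eval_dgT, eval_tvT, eval_toA, eval_fromA, eval_var,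
    List.getD_cons_zero, List.getD_cons_succ]

/-- The term for `shiftDg`. -/
def shiftDgT (τ i x c : Tm) : Tm := addFT (dgT x c) (shiftSumT τ i c)

@[simp] lemma eval_shiftDgT (τ i x c : Tm) : eval π w (shiftDgT τ i x c) env =
    (adOf π w).shiftDg (eval π w τ env) (eval π w i env) (eval π w x env) (eval π w c env) := by
  simp only [shiftDgT, shiftDg, eval_addFT, eval_dgT, eval_shiftSumT]

/-- The body of `shiftVal`: the environment holds `τ, i, x`. -/
def shiftValB : Tm :=
  .iter mT sT (.lit 0)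
    (.add (.mul (.var 1) qT)
      (shiftDgT (.var 2) (.var 3) (.var 4) (.sub (.sub mT (.lit 1)) (.var 0))))

/-- The term for `shiftVal`. -/
def shiftValT (τ i x : Tm) : Tm := .app shiftValB τ i x (.lit 0)

@[simp] lemma eval_shiftValT (τ i x : Tm) : eval π w (shiftValT τ i x) env =
    (adOf π w).shiftVal (eval π w τ env) (eval π w i env) (eval π w x env) := by
  simp only [shiftValT, shiftValB, shiftVal, eval_app, eval_iter, eval_mAT, eval_sAT, eval_lit,
    eval_add, eval_mul, eval_sub, eval_qT, eval_shiftDgT, eval_var, List.getD_cons_zero,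
    List.getD_cons_succ]

/-- Terms for tokens. -/
def tIT (c : Tm) : Tm := divT c sT
def tXT (c : Tm) : Tm := modT c sT
def shiftTokT (g c : Tm) : Tm :=
  .ite (eqT (gκT g) (.lit 2))
    (.add (.mul (tIT c) sT) (shiftValT (gτT g) (tIT c) (tXT c))) c

@[simp] lemma eval_tIT (c : Tm) : eval π w (tIT c) env = (adOf π w).tI (eval π w c env) := by
  simp only [tIT, tI, eval_divT, eval_sAT]
@[simp] lemma eval_tXT (c : Tm) : eval π w (tXT c) env = (adOf π w).tX (eval π w c env) := by
  simp only [tXT, tX, eval_modT, eval_sAT]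
@[simp] lemma eval_shiftTokT (g c : Tm) :
    eval π w (shiftTokT g c) env = (adOf π w).shiftTok (eval π w g env) (eval π w c env) := by
  simp only [shiftTokT, shiftTok, eval_ite, eval_eqT, eval_add, eval_mul, eval_lit, eval_gκT,
    eval_gτT, eval_tIT, eval_tXT, eval_sAT, eval_shiftValT, iteN_eqN]

/-- The term for `uN`. -/
def uNT (g c t : Tm) : Tm :=
  .ite (ltT t rhoT)
    (modT (.add (.ite (eqT (tIT c) t) (.lit 1) (.lit 0)) (.ite (eqT (tIT c) (.lit 0)) (.lit 1) (.lit 0)))
      (.lit 2))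
    (modT (.add
      (.ite (andT (ltT (divT (.sub t rhoT) (.mul mT ebT)) ellT)
          (eqT (gGuardT g (divT (.sub t rhoT) (.mul mT ebT))) (.lit 0)))
        (.lit 0)
        (phiT (modT (.sub t rhoT) ebT)
          (mulFT (lamTT (divT (.sub t rhoT) (.mul mT ebT)) (tIT c))
            (dgT (tXT c) (modT (divT (.sub t rhoT) ebT) mT)))))
      (.ite (andT (ltT (divT (.sub t rhoT) (.mul mT ebT)) ellT)
          (andT (neT (gGuardT g (divT (.sub t rhoT) (.mul mT ebT))) (.lit 0))
            (eqT (tIT c) (.lit 0))))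
        (phiT (modT (.sub t rhoT) ebT)
          (dgT (tvT (.sub (gGuardT g (divT (.sub t rhoT) (.mul mT ebT))) (.lit 1)))
            (modT (divT (.sub t rhoT) ebT) mT)))
        (.lit 0)))
      (.lit 2))

@[simp] lemma eval_uNT (g c t : Tm) : eval π w (uNT g c t) env =
    (adOf π w).uN (eval π w g env) (eval π w c env) (eval π w t env) := by
  simp only [uNT, uN, eval_ite, eval_ltT, eval_eqT, eval_neT, eval_andT, eval_modT, eval_divT,
    eval_add, eval_sub, eval_mul, eval_lit, eval_rhoT, eval_mAT, eval_ebT, eval_ellT, eval_tIT,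
    eval_tXT, eval_gGuardT, eval_phiT, eval_mulFT, eval_lamTT, eval_dgT, eval_tvT, iteN_ltN, iteN_eqN,
    iteN_andN, ltN_ne, eqN_ne, neN_ne, andN_ne]

/-- Terms for coefficients and the twist. -/
def vNT (g c l : Tm) : Tm := uNT g c (modT l mmT)
def twistT (g c : Tm) : Tm :=
  .ite (andT (eqT g (.add (.mul (.lit 3) nRT) (.lit 1))) (eqT (tIT c) (.lit 0))) (.lit 1) (.lit 0)

@[simp] lemma eval_vNT (g c l : Tm) : eval π w (vNT g c l) env =
    (adOf π w).vN (eval π w g env) (eval π w c env) (eval π w l env) := by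
  simp only [vNT, vN, eval_uNT, eval_modT, eval_mmT]
@[simp] lemma eval_twistT (g c : Tm) :
    eval π w (twistT g c) env = (adOf π w).twist (eval π w g env) (eval π w c env) := by
  simp only [twistT, twist, eval_ite, eval_andT, eval_eqT, eval_add, eval_mul, eval_lit, eval_nRAT,
    eval_tIT, iteN_andN, eqN_ne]

/-- Terms for variables. -/
def cutVT (cc c : Tm) : Tm := .add (.mul (.lit 4) (.add (.mul cc NtokT) c)) (.lit 1)
def topVT (g c : Tm) : Tm := .add (.mul (.lit 4) (.add (.mul g NtokT) c)) (.lit 2)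
def midVT (g c l : Tm) : Tm :=
  .add (.mul (.lit 4) (.add (.mul (.add (.mul g NtokT) c) LcT) l)) (.lit 3)
def bitVT (g l : Tm) : Tm := .add (.mul (.lit 4) (.add (.mul g LcT) l)) (.lit 4)
def botVT (g c : Tm) : Tm :=
  .ite (eqT (botNT g) (.lit 0)) (.lit 0) (cutVT (.sub (botNT g) (.lit 1)) c)
def rightVT (g c l : Tm) : Tm :=
  .ite (ltT (.add l (.lit 1)) LcT) (midVT g c (.add l (.lit 1))) (topVT g c)

@[simp] lemma eval_cutVT (cc c : Tm) :
    eval π w (cutVT cc c) env = (adOf π w).cutV (eval π w cc env) (eval π w c env) := by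
  simp only [cutVT, cutV, eval_add, eval_mul, eval_lit, eval_NtokT]
@[simp] lemma eval_topVT (g c : Tm) :
    eval π w (topVT g c) env = (adOf π w).topV (eval π w g env) (eval π w c env) := by
  simp only [topVT, topV, eval_add, eval_mul, eval_lit, eval_NtokT]
@[simp] lemma eval_midVT (g c l : Tm) : eval π w (midVT g c l) env =
    (adOf π w).midV (eval π w g env) (eval π w c env) (eval π w l env) := by
  simp only [midVT, midV, eval_add, eval_mul, eval_lit, eval_NtokT, eval_LcT]
@[simp] lemma eval_bitVT (g l : Tm) :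
    eval π w (bitVT g l) env = (adOf π w).bitV (eval π w g env) (eval π w l env) := by
  simp only [bitVT, bitV, eval_add, eval_mul, eval_lit, eval_LcT]
@[simp] lemma eval_botVT (g c : Tm) :
    eval π w (botVT g c) env = (adOf π w).botV (eval π w g env) (eval π w c env) := by
  simp only [botVT, botV, eval_ite, eval_eqT, eval_sub, eval_lit, eval_botNT, eval_cutVT, iteN_eqN]
@[simp] lemma eval_rightVT (g c l : Tm) : eval π w (rightVT g c l) env =
    (adOf π w).rightV (eval π w g env) (eval π w c env) (eval π w l env) := by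
  simp only [rightVT, rightV, eval_ite, eval_ltT, eval_add, eval_lit, eval_LcT, eval_midVT,
    eval_topVT, iteN_ltN]

/-- Terms for constraints. -/
def pκT (p : Tm) : Tm :=
  .ite (ltT p N1T) (.lit 0) (.ite (ltT p (.add N1T N2T)) (.lit 1) (.lit 2))
def pAT (p : Tm) : Tm :=
  .ite (eqT (pκT p) (.lit 0)) (divT p LcT)
    (.ite (eqT (pκT p) (.lit 1)) (.sub p N1T) (.sub p (.add N1T N2T)))
def pgT (p : Tm) : Tm := divT (pAT p) NtokT
def pcT (p : Tm) : Tm := modT (pAT p) NtokT
def plT (p : Tm) : Tm := modT p LcT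

@[simp] lemma eval_pκT (p : Tm) : eval π w (pκT p) env = (adOf π w).pκ (eval π w p env) := by
  simp only [pκT, pκ, eval_ite, eval_ltT, eval_add, eval_lit, eval_N1T, eval_N2T, iteN_ltN]
@[simp] lemma eval_pAT (p : Tm) : eval π w (pAT p) env = (adOf π w).pA (eval π w p env) := by
  simp only [pAT, pA, eval_ite, eval_eqT, eval_divT, eval_sub, eval_add, eval_lit, eval_N1T, eval_N2T,
    eval_LcT, eval_pκT, iteN_eqN]
@[simp] lemma eval_pgT (p : Tm) : eval π w (pgT p) env = (adOf π w).pg (eval π w p env) := by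
  simp only [pgT, pg, eval_divT, eval_pAT, eval_NtokT]
@[simp] lemma eval_pcT (p : Tm) : eval π w (pcT p) env = (adOf π w).pc (eval π w p env) := by
  simp only [pcT, pc, eval_modT, eval_pAT, eval_NtokT]
@[simp] lemma eval_plT (p : Tm) : eval π w (plT p) env = (adOf π w).pl (eval π w p env) := by
  simp only [plT, pl, eval_modT, eval_LcT]

/-- The term for `eCode`. -/
def eCodeT (p j : Tm) : Tm :=
  .ite (eqT (pκT p) (.lit 0))
    (.ite (eqT j (.lit 0)) (bitVT (pgT p) (plT p))
      (.ite (eqT j (.lit 1))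
        (.ite (eqT (plT p) (.lit 0)) (botVT (pgT p) (pcT p)) (midVT (pgT p) (pcT p) (plT p)))
        (rightVT (pgT p) (pcT p) (plT p))))
    (.ite (eqT (pκT p) (.lit 1))
      (.ite (eqT j (.lit 0)) (botVT (pgT p) (pcT p))
        (.ite (eqT j (.lit 1)) (cutVT (topNT (pgT p)) (shiftTokT (pgT p) (pcT p)))
          (topVT (pgT p) (pcT p))))
      (cutVT (.add (.mul (.lit 3) (pgT p)) j) (pcT p)))

@[simp] lemma eval_eCodeT (p j : Tm) :
    eval π w (eCodeT p j) env = (adOf π w).eCode (eval π w p env) (eval π w j env) := by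
  simp only [eCodeT, eCode, eval_ite, eval_eqT, eval_add, eval_mul, eval_lit, eval_pκT, eval_pgT,
    eval_pcT, eval_plT, eval_bitVT, eval_botVT, eval_midVT, eval_rightVT, eval_cutVT, eval_topNT,
    eval_shiftTokT, eval_topVT, iteN_eqN]

/-- The term for `eVal`. -/
def eValT (b e j : Tm) : Tm :=
  .ite (eqT (pκT (divT e (.lit 4))) (.lit 0))
    (.ite (eqT j (.lit 0)) (modT e (.lit 2))
      (.ite (eqT j (.lit 1)) (modT (divT e (.lit 2)) (.lit 2))
        (modT (.add (.add (modT (divT e (.lit 2)) (.lit 2))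
            (.mul (vNT (pgT (divT e (.lit 4))) (pcT (divT e (.lit 4))) (plT (divT e (.lit 4))))
              (modT e (.lit 2))))
            (.ite (eqT (plT (divT e (.lit 4))) (.lit 0))
              (.mul b (twistT (pgT (divT e (.lit 4))) (pcT (divT e (.lit 4))))) (.lit 0)))
          (.lit 2))))
    (.ite (eqT j (.lit 0)) (modT (divT e (.lit 2)) (.lit 2))
      (.ite (eqT j (.lit 1)) (modT e (.lit 2))
        (modT (.add (modT (divT e (.lit 2)) (.lit 2)) (modT e (.lit 2))) (.lit 2))))

@[simp] lemma eval_eValT (b e j : Tm) : eval π w (eValT b e j) env =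
    (adOf π w).eVal (eval π w b env) (eval π w e env) (eval π w j env) := by
  simp only [eValT, eVal, eval_ite, eval_eqT, eval_add, eval_mul, eval_modT, eval_divT, eval_lit,
    eval_pκT, eval_pgT, eval_pcT, eval_plT, eval_vNT, eval_twistT, iteN_eqN]

/-- Terms for adjacency. -/
def cmT (e e' i j : Tm) : Tm :=
  .ite (andT (neT (eCodeT (divT e (.lit 4)) i) (.lit 0))
      (eqT (eCodeT (divT e (.lit 4)) i) (eCodeT (divT e' (.lit 4)) j))) (.lit 1) (.lit 0)
def badT (b e e' i j : Tm) : Tm :=
  .ite (andT (neT (cmT e e' i j) (.lit 0)) (neT (eValT b e i) (eValT b e' j))) (.lit 1) (.lit 0)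

@[simp] lemma eval_cmT (e e' i j : Tm) : eval π w (cmT e e' i j) env =
    (adOf π w).cmN (eval π w e env) (eval π w e' env) (eval π w i env) (eval π w j env) := by
  simp only [cmT, cmN, eval_ite, eval_andT, eval_neT, eval_eqT, eval_divT, eval_lit, eval_eCodeT,
    iteN_andN, neN_ne, eqN_ne]
@[simp] lemma eval_badT (b e e' i j : Tm) : eval π w (badT b e e' i j) env =
    (adOf π w).badN (eval π w b env) (eval π w e env) (eval π w e' env) (eval π w i env)
      (eval π w j env) := by
  simp only [badT, badN, eval_ite, eval_andT, eval_neT, eval_lit, eval_cmT, eval_eValT,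
    iteN_andN, neN_ne]

/-- The sum over nine pairs of entries. -/
def sum9 (f : Tm → Tm → Tm) : Tm :=
  .add (.add (.add (.add (.add (.add (.add (.add (f (.lit 0) (.lit 0)) (f (.lit 0) (.lit 1)))
    (f (.lit 0) (.lit 2))) (f (.lit 1) (.lit 0))) (f (.lit 1) (.lit 1))) (f (.lit 1) (.lit 2)))
    (f (.lit 2) (.lit 0))) (f (.lit 2) (.lit 1))) (f (.lit 2) (.lit 2))

/-- The term for `elemAdjN`. -/
def elemAdjT (b e e' : Tm) : Tm :=
  .ite (andT (neT (divT e (.lit 4)) (divT e' (.lit 4)))
      (andT (neT (sum9 fun i j => cmT e e' i j) (.lit 0))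
        (eqT (sum9 fun i j => badT b e e' i j) (.lit 0))))
    (.lit 1) (.lit 0)

@[simp] lemma eval_elemAdjT (b e e' : Tm) : eval π w (elemAdjT b e e') env =
    (adOf π w).elemAdjN (eval π w b env) (eval π w e env) (eval π w e' env) := by
  simp only [elemAdjT, elemAdjN, sum9, eval_ite, eval_andT, eval_neT, eval_eqT, eval_add, eval_divT,
    eval_lit, eval_cmT, eval_badT, iteN_andN, neN_ne, eqN_ne, andN_ne]

/-- The term for `flagN`. -/
def flagT (p : Tm) : Tm :=
  .ite (eqT (pκT p) (.lit 0))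
    (.ite (andT (eqT (plT p) (.lit 0)) (eqT (botNT (pgT p)) (.lit 0))) (.lit 1) (.lit 0))
    (.ite (eqT (pκT p) (.lit 1)) (.ite (eqT (botNT (pgT p)) (.lit 0)) (.lit 1) (.lit 0)) (.lit 0))

@[simp] lemma eval_flagT (p : Tm) : eval π w (flagT p) env = (adOf π w).flagN (eval π w p env) := by
  simp only [flagT, flagN, eval_ite, eval_andT, eval_eqT, eval_lit, eval_pκT, eval_plT, eval_botNT,
    eval_pgT, iteN_andN, iteN_eqN, eqN_ne]

/-- The term for `leafN`. -/
def leafT (e : Tm) : Tm :=
  .mul (.add (.add (.mul (.lit 2) (divT e (.lit 4)))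
      (.ite (andT (neT (flagT (divT e (.lit 4))) (.lit 0))
          (neT (modT (divT e (.lit 2)) (.lit 2)) (.lit 0))) (.lit 1) (.lit 0)))
      (.lit 1))
    (.add (.mul (.lit 4) NT) (.lit 1))

@[simp] lemma eval_leafT (e : Tm) : eval π w (leafT e) env = (adOf π w).leafN (eval π w e env) := by
  simp only [leafT, leafN, eval_add, eval_mul, eval_ite, eval_andT, eval_neT, eval_divT, eval_modT,
    eval_lit, eval_flagT, eval_NT, iteN_andN, neN_ne]

/-- The term for `adjF`. -/
def adjT (b x y : Tm) : Tm :=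
  .ite (eqT (modT x (.add LT (.lit 1))) (.lit 0))
    (.ite (eqT (modT y (.add LT (.lit 1))) (.lit 0))
      (elemAdjT b (divT x (.add LT (.lit 1))) (divT y (.add LT (.lit 1))))
      (.ite (andT (eqT (divT x (.add LT (.lit 1))) (divT y (.add LT (.lit 1))))
          (ltT (.sub (modT y (.add LT (.lit 1))) (.lit 1)) (leafT (divT x (.add LT (.lit 1))))))
        (.lit 1) (.lit 0)))
    (.ite (eqT (modT y (.add LT (.lit 1))) (.lit 0))
      (.ite (andT (eqT (divT x (.add LT (.lit 1))) (divT y (.add LT (.lit 1))))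
          (ltT (.sub (modT x (.add LT (.lit 1))) (.lit 1)) (leafT (divT y (.add LT (.lit 1))))))
        (.lit 1) (.lit 0))
      (.lit 0))

@[simp] lemma eval_adjT (b x y : Tm) : eval π w (adjT b x y) env =
    (adOf π w).adjF (eval π w b env) (eval π w x env) (eval π w y env) := by
  simp only [adjT, adjF, eval_ite, eval_andT, eval_eqT, eval_ltT, eval_sub, eval_add, eval_divT,
    eval_modT, eval_lit, eval_LT, eval_elemAdjT, eval_leafT, iteN_andN, iteN_eqN, eqN_ne, ltN_ne]

/-- The number of output bits: two adjacency matrices. -/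
def sizeT : Tm := .mul (.lit 2) (.mul nVT nVT)

/-- The output bit with number `var 0`. -/
def bitT : Tm :=
  .ite (ltT (.var 0) (.mul nVT nVT))
    (adjT (.lit 0) (divT (.var 0) nVT) (modT (.var 0) nVT))
    (adjT (.lit 1) (divT (.sub (.var 0) (.mul nVT nVT)) nVT) (modT (.sub (.var 0) (.mul nVT nVT)) nVT))

@[simp] lemma eval_sizeT : eval π w sizeT env = 2 * ((adOf π w).nV * (adOf π w).nV) := by
  simp only [sizeT, eval_mul, eval_lit, eval_nVT]

lemma eval_bitT (i : ℕ) : eval π w bitT [i] =
    if i < (adOf π w).nV * (adOf π w).nV then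
      (adOf π w).adjF 0 (i / (adOf π w).nV) (i % (adOf π w).nV)
    else (adOf π w).adjF 1 ((i - (adOf π w).nV * (adOf π w).nV) / (adOf π w).nV)
      ((i - (adOf π w).nV * (adOf π w).nV) % (adOf π w).nV) := by
  simp only [bitT, eval_ite, eval_ltT, eval_mul, eval_adjT, eval_divT, eval_modT, eval_sub, eval_var,
    eval_lit, eval_nVT, List.getD_cons_zero, iteN_ltN]

end Tm'

end Vale.Agent.Lib.P310.Num
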