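import Vale.Agent.Lib.P310.Num.Code

/-!
# The code of a machine as a word, and the tables read from it
-/

set_option linter.unusedSimpArgs false

namespace Vale.Agent.Lib.P310.Num

open Mach Tab

variable {a b : ℕ}

/-- The length of the code of a machine with `a` states and `b` symbols. -/
def codeLen (a b : ℕ) : ℕ := a + b + 2 + a * b * (a + b + 1)

/-- The bits of the code of a machine. -/
def codeBit (M : TM (Fin a) (Fin b)) (i : ℕ) : Bool :=
  if i < a then true
  else if i = a then false
  else if i < a + 1 + b then true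
  else if i = a + 1 + b then false
  else
    if h : (i - (a + b + 2)) / (a + b + 1) / b < a ∧ (i - (a + b + 2)) / (a + b + 1) % b < b then
      if (i - (a + b + 2)) % (a + b + 1) < a then
        decide ((i - (a + b + 2)) % (a + b + 1) <
          (M.δ ⟨_, h.1⟩ ⟨_, h.2⟩).1.val)
      else if (i - (a + b + 2)) % (a + b + 1) < a + b then
        decide ((i - (a + b + 2)) % (a + b + 1) - a <
          (M.δ ⟨_, h.1⟩ ⟨_, h.2⟩).2.1.val)
      else (M.δ ⟨_, h.1⟩ ⟨_, h.2⟩).2.2
    else false

/-- The word: the code of a machine followed by zeros. -/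
def wordOf (M : TM (Fin a) (Fin b)) (pad : ℕ) : List Bool :=
  (List.range (codeLen a b + pad)).map fun i => decide (i < codeLen a b) && codeBit M i

variable (M : TM (Fin a) (Fin b)) (pad : ℕ)

@[simp] lemma length_wordOf : (wordOf M pad).length = codeLen a b + pad := by
  simp [wordOf]

lemma inBit_wordOf (i : ℕ) (hi : i < codeLen a b) : inBit (wordOf M pad) i = codeBit M i := by
  have h : i < (wordOf M pad).length := by
    rw [length_wordOf]
    omega
  unfold inBit
  rw [List.getD_eq_getElem _ _ h]
  simp only [wordOf, List.getElem_map, List.getElem_range]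
  simp [hi]

lemma le_codeLen_a : a + b + 2 ≤ codeLen a b := by
  simp only [codeLen]
  omega

lemma recVal_count (f : ℕ → Bool) (v c : ℕ) (hv : v ≤ c) (h1 : ∀ i, i < v → f i = true)
    (h2 : f v = false) : ∀ i, recVal (fun i acc => if acc = i ∧ f i = true then acc + 1 else acc) c 0 i =
      min i v := by
  intro i
  induction i with
  | zero => simp [recVal]
  | succ i ih =>
    simp only [recVal, ih]
    by_cases hi : i < v
    · have h3 : min i v = i := by omega
      rw [h3]
      simp only [h1 i hi, and_self, if_true]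
      omega
    · have h3 : min i v = v := by omega
      rw [h3]
      by_cases hiv : i = v
      · subst hiv
        simp [h2]
        omega
      · have : ¬ (v = i) := fun h => hiv h.symm
        simp only [this, false_and, if_false]
        omega

lemma hA_wordOf : hA (wordOf M pad) = a := by
  have hlen := le_codeLen_a (a := a) (b := b)
  have h := recVal_count (fun i => inBit (wordOf M pad) i) a (wordOf M pad).length
    (by rw [length_wordOf]; omega)
    (fun i hi => by
      show inBit (wordOf M pad) i = true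
      rw [inBit_wordOf M pad i (by omega)]
      simp [codeBit, hi])
    (by
      show inBit (wordOf M pad) a = false
      rw [inBit_wordOf M pad a (by omega)]
      simp [codeBit])
    (wordOf M pad).length
  simp only [hA]
  rw [h, length_wordOf]
  omega

lemma hB_wordOf : hB (wordOf M pad) = b := by
  have hlen := le_codeLen_a (a := a) (b := b)
  have hAe := hA_wordOf M pad
  have h := recVal_count (fun i => inBit (wordOf M pad) (a + 1 + i)) b (wordOf M pad).length
    (by rw [length_wordOf]; omega)
    (fun i hi => by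
      show inBit (wordOf M pad) (a + 1 + i) = true
      rw [inBit_wordOf M pad _ (by omega)]
      have h1 : ¬ (a + 1 + i < a) := by omega
      have h2 : ¬ (a + 1 + i = a) := by omega
      have h3 : a + 1 + i < a + 1 + b := by omega
      simp [codeBit, h1, h2, h3])
    (by
      show inBit (wordOf M pad) (a + 1 + b) = false
      rw [inBit_wordOf M pad _ (by omega)]
      have h1 : ¬ (a + 1 + b < a) := by omega
      have h2 : ¬ (a + 1 + b = a) := by omega
      simp [codeBit, h1, h2])
    (wordOf M pad).length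
  simp only [hB, hAe]
  rw [h, length_wordOf]
  omega

lemma mul_bound {q x : ℕ} (hq : q < a) (hx : x < b) : q * b + x < a * b := by
  have : (q + 1) * b ≤ a * b := Nat.mul_le_mul_right _ hq
  rw [Nat.add_mul, Nat.one_mul] at this
  omega

/-- The entries: position of a field in an entry, and the value of the bit there. -/
lemma codeBit_entry {q x f : ℕ} (hq : q < a) (hx : x < b) (hf : f < a + b + 1) :
    (a + b + 2 + (q * b + x) * (a + b + 1) + f) < codeLen a b ∧
    codeBit M (a + b + 2 + (q * b + x) * (a + b + 1) + f) =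
      if f < a then decide (f < (M.δ ⟨q, hq⟩ ⟨x, hx⟩).1.val)
      else if f < a + b then decide (f - a < (M.δ ⟨q, hq⟩ ⟨x, hx⟩).2.1.val)
      else (M.δ ⟨q, hq⟩ ⟨x, hx⟩).2.2 := by
  have hb0 : 0 < b := by omega
  have hm := mul_bound (a := a) hq hx
  have hW : 0 < a + b + 1 := by omega
  constructor
  · have h1 : (q * b + x + 1) * (a + b + 1) ≤ a * b * (a + b + 1) := Nat.mul_le_mul_right _ hm
    rw [Nat.add_mul, Nat.one_mul] at h1
    simp only [codeLen]
    omega
  · set i := a + b + 2 + (q * b + x) * (a + b + 1) + f with hi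
    have h1 : ¬ i < a := by omega
    have h2 : ¬ i = a := by omega
    have h3 : ¬ i < a + 1 + b := by omega
    have h4 : ¬ i = a + 1 + b := by omega
    have h5 : i - (a + b + 2) = f + (a + b + 1) * (q * b + x) := by
      rw [hi, Nat.mul_comm (a + b + 1)]
      omega
    have h6 : (i - (a + b + 2)) / (a + b + 1) = q * b + x := by
      rw [h5, Nat.add_mul_div_left _ _ hW, Nat.div_eq_of_lt hf, Nat.zero_add]
    have h7 : (i - (a + b + 2)) % (a + b + 1) = f := by
      rw [h5, Nat.add_mul_mod_self_left, Nat.mod_eq_of_lt hf]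
    have h8 : (q * b + x) / b = q := by
      rw [Nat.mul_comm q b, Nat.mul_add_div hb0, Nat.div_eq_of_lt hx, Nat.add_zero]
    have h9 : (q * b + x) % b = x := by
      rw [Nat.mul_comm q b, Nat.mul_add_mod, Nat.mod_eq_of_lt hx]
    simp only [codeBit, h1, h2, h3, h4, if_false]
    have hc : (i - (a + b + 2)) / (a + b + 1) / b < a ∧ (i - (a + b + 2)) / (a + b + 1) % b < b := by
      rw [h6, h8, h9]
      exact ⟨hq, hx⟩
    rw [dif_pos hc]
    have hδ : (⟨(i - (a + b + 2)) / (a + b + 1) / b, hc.1⟩ : Fin a) = ⟨q, hq⟩ := by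
      apply Fin.ext
      simp only [h6, h8]
    have hδ' : (⟨(i - (a + b + 2)) / (a + b + 1) % b, hc.2⟩ : Fin b) = ⟨x, hx⟩ := by
      apply Fin.ext
      simp only [h6, h9]
    rw [hδ, hδ', h7]

lemma recVal_unary (f : ℕ → ℕ) (v n : ℕ) (hv : v ≤ n) (h : ∀ i, i < n → f i = if i < v then 1 else 0) :
    ∀ i, i ≤ n → recVal (fun i acc => acc + f i) n 0 i = min i v := by
  intro i
  induction i with
  | zero => intro _; simp [recVal]
  | succ i ih =>
    intro hi
    simp only [recVal, ih (by omega), h i (by omega)]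
    split_ifs <;> omega

lemma entry_wordOf (q x : ℕ) : entry (wordOf M pad) q x =
    a + b + 2 + (q * b + x) * (a + b + 1) := by
  simp only [entry, hA_wordOf, hB_wordOf]

lemma bitN_wordOf {q x f : ℕ} (hq : q < a) (hx : x < b) (hf : f < a + b + 1) :
    bitN (wordOf M pad) (a + b + 2 + (q * b + x) * (a + b + 1) + f) =
      if (if f < a then decide (f < (M.δ ⟨q, hq⟩ ⟨x, hx⟩).1.val)
        else if f < a + b then decide (f - a < (M.δ ⟨q, hq⟩ ⟨x, hx⟩).2.1.val)
        else (M.δ ⟨q, hq⟩ ⟨x, hx⟩).2.2) = true then 1 else 0 := by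
  obtain ⟨h1, h2⟩ := codeBit_entry M hq hx hf
  simp only [bitN]
  rw [inBit_wordOf M pad _ h1, h2]

lemma dqW_wordOf (q x : ℕ) : dqW (wordOf M pad) q x =
    if h : q < a ∧ x < b then (M.δ ⟨q, h.1⟩ ⟨x, h.2⟩).1.val else 0 := by
  simp only [dqW, hA_wordOf, hB_wordOf]
  by_cases h : q < a ∧ x < b
  · rw [if_pos h, dif_pos h]
    have hv : (M.δ ⟨q, h.1⟩ ⟨x, h.2⟩).1.val ≤ a := (M.δ ⟨q, h.1⟩ ⟨x, h.2⟩).1.isLt.le
    have := recVal_unary (fun i => bitN (wordOf M pad) (entry (wordOf M pad) q x + i))
      (M.δ ⟨q, h.1⟩ ⟨x, h.2⟩).1.val a hv (fun i hi => by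
        simp only [entry, hA_wordOf, hB_wordOf]
        rw [bitN_wordOf M pad h.1 h.2 (by omega)]
        simp [hi]) a le_rfl
    rw [this]
    omega
  · rw [if_neg h, dif_neg h]

lemma daW_wordOf (q x : ℕ) : daW (wordOf M pad) q x =
    if h : q < a ∧ x < b then (M.δ ⟨q, h.1⟩ ⟨x, h.2⟩).2.1.val else 0 := by
  simp only [daW, hA_wordOf, hB_wordOf]
  by_cases h : q < a ∧ x < b
  · rw [if_pos h, dif_pos h]
    have hv : (M.δ ⟨q, h.1⟩ ⟨x, h.2⟩).2.1.val ≤ b := (M.δ ⟨q, h.1⟩ ⟨x, h.2⟩).2.1.isLt.le
    have := recVal_unary (fun i => bitN (wordOf M pad) (entry (wordOf M pad) q x + a + i))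
      (M.δ ⟨q, h.1⟩ ⟨x, h.2⟩).2.1.val b hv (fun i hi => by
        simp only [entry, hA_wordOf, hB_wordOf]
        rw [Nat.add_assoc _ a i, bitN_wordOf M pad h.1 h.2 (by omega)]
        have h1 : ¬ (a + i < a) := by omega
        have h2 : a + i < a + b := by omega
        have h3 : a + i - a = i := by omega
        simp [h1, h2, h3]) b le_rfl
    rw [this]
    omega
  · rw [if_neg h, dif_neg h]

lemma dmW_wordOf (q x : ℕ) : dmW (wordOf M pad) q x =
    if h : q < a ∧ x < b then (if (M.δ ⟨q, h.1⟩ ⟨x, h.2⟩).2.2 then 1 else 0) else 0 := by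
  simp only [dmW, hA_wordOf, hB_wordOf]
  by_cases h : q < a ∧ x < b
  · rw [if_pos h, dif_pos h]
    simp only [entry, hA_wordOf, hB_wordOf]
    rw [Nat.add_assoc _ a b, bitN_wordOf M pad h.1 h.2 (by omega)]
    have h1 : ¬ (a + b < a + b) := by omega
    by_cases hb' : b = 0
    · have := h.2
      omega
    · have h2 : ¬ (a + b < a) := by omega
      simp [h1, h2]
  · rw [if_neg h, dif_neg h]

lemma inSW_eq (w : List Bool) (i : ℕ) : inSW w i =
    match w[i]? with
    | none => 0
    | some false => 1
    | some true => 2 := by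
  simp only [inSW]
  by_cases h : i < w.length
  · have h1 : inBit w i = w[i] := by
      unfold inBit
      rw [List.getD_eq_getElem _ _ h]
    rw [if_pos h, h1, List.getElem?_eq_getElem h]
    cases w[i] <;> simp
  · rw [if_neg h, List.getElem?_eq_none (by omega)]

/-- On the word of a machine, the tables read from the word are those of the machine. -/
theorem tdW_wordOf (π : ℕ → ℕ) : tdW π (wordOf M pad) =
    ofTM M (wordOf M pad) (sW π (wordOf M pad)) (pR π) := by
  simp only [tdW, ofTM, hA_wordOf, hB_wordOf]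
  congr 1
  · funext q x
    exact dqW_wordOf M pad q x
  · funext q x
    exact daW_wordOf M pad q x
  · funext q x
    exact dmW_wordOf M pad q x
  · funext i
    exact inSW_eq _ i

section Size

variable (π : ℕ → ℕ) (w : List Bool)

lemma mW_eq (hQ : 2 ≤ pQ π) : mW π w = Nat.clog (pQ π) w.length := by
  set N := w.length with hN
  set Q := pQ π with hQd
  have hc : Nat.clog Q N ≤ N := by
    by_cases hN1 : N ≤ 1
    · rw [Nat.clog_of_right_le_one hN1]
      omega
    · have h1 : N < Q ^ N := by
        calc N < 2 ^ N := Nat.lt_two_pow_self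
          _ ≤ Q ^ N := Nat.pow_le_pow_left hQ N
      exact Nat.clog_le_of_le_pow h1.le
  have key : ∀ i, recVal (fun _ acc => if min (Q ^ acc) N < N then acc + 1 else acc) N 0 i =
      min i (Nat.clog Q N) := by
    intro i
    induction i with
    | zero => simp [recVal]
    | succ i ih =>
      simp only [recVal, ih]
      by_cases hi : i < Nat.clog Q N
      · have h1 : min i (Nat.clog Q N) = i := by omega
        rw [h1]
        have h2 : Q ^ i < N := Nat.pow_lt_of_lt_clog hi
        have h3 : min (Q ^ i) N < N := by omega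
        rw [if_pos h3]
        omega
      · have h1 : min i (Nat.clog Q N) = Nat.clog Q N := by omega
        rw [h1]
        have h2 : N ≤ Q ^ Nat.clog Q N := Nat.le_pow_clog (by omega) N
        have h3 : ¬ min (Q ^ Nat.clog Q N) N < N := by omega
        rw [if_neg h3]
        omega
  simp only [mW]
  rw [← hN, ← hQd]
  rw [key N]
  omega

/-- The number of register values is a power of `Q`, at least the length of the word, and at most
about `Q` times the length. -/
lemma sW_eq (hQ : 2 ≤ pQ π) : sW π w = pQ π ^ mW π w := by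
  rw [sW, mW_eq π w hQ]
  apply min_eq_left
  set N := w.length
  set Q := pQ π
  by_cases hc : Nat.clog Q N = 0
  · rw [hc, pow_zero]
    omega
  · have h1 : Q ^ (Nat.clog Q N - 1) < N := Nat.pow_lt_of_lt_clog (by omega)
    have h2 : Q ^ Nat.clog Q N = Q * Q ^ (Nat.clog Q N - 1) := by
      rw [← pow_succ']
      congr 1
      omega
    rw [h2]
    have := Nat.mul_le_mul_left Q h1.le
    omega

lemma le_sW (hQ : 2 ≤ pQ π) : w.length ≤ sW π w := by
  rw [sW_eq π w hQ, mW_eq π w hQ]
  exact Nat.le_pow_clog (by omega) _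

lemma sW_le : sW π w ≤ pQ π * w.length + 1 := min_le_right _ _

end Size

end Vale.Agent.Lib.P310.Num
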