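import Vale.Agent.Lib.P310.Mach.Bound
import Vale.Agent.Lib.P310.Mach.Normal
import Vale.Agent.Lib.P310.Num.CodeSpec

/-!
# The diagonal argument

From the composition of counter programs with machines, and the reduction, we get the lower bound.
-/

set_option linter.unusedSimpArgs false

namespace Vale.Agent.Lib.P310.Mach

section Halt

variable {Q Γ : Type} (M : TM Q Γ)

lemma TM.step_halted {c : Cfg Q Γ} (h : c.q = M.acc ∨ c.q = M.rej) : M.step c = c := by
  simp only [TM.step]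
  rw [if_pos h]

lemma TM.run_succ (w : List Bool) (t : ℕ) : M.run w (t + 1) = M.step (M.run w t) := by
  simp only [TM.run, Function.iterate_succ_apply']

lemma TM.run_of_halted {w : List Bool} {t : ℕ} (h : (M.run w t).q = M.acc ∨ (M.run w t).q = M.rej)
    (d : ℕ) : M.run w (t + d) = M.run w t := by
  induction d with
  | zero => rfl
  | succ d ih =>
    rw [← Nat.add_assoc, TM.run_succ, ih]
    exact M.step_halted h

lemma TM.acc_mono {w : List Bool} {t t' : ℕ} (h : (M.run w t).q = M.acc) (ht : t ≤ t') :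
    (M.run w t').q = M.acc := by
  obtain ⟨d, rfl⟩ := Nat.exists_eq_add_of_le ht
  rw [M.run_of_halted (Or.inl h)]
  exact h

lemma TM.rej_mono {w : List Bool} {t t' : ℕ} (h : (M.run w t).q = M.rej) (ht : t ≤ t') :
    (M.run w t').q = M.rej := by
  obtain ⟨d, rfl⟩ := Nat.exists_eq_add_of_le ht
  rw [M.run_of_halted (Or.inr h)]
  exact h

lemma TM.not_acc_rej {w : List Bool} {t t' : ℕ} (h : (M.run w t).q = M.acc)
    (h' : (M.run w t').q = M.rej) : False := by
  have h1 := M.acc_mono h (Nat.le_max_left t t')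
  have h2 := M.rej_mono h' (Nat.le_max_right t t')
  exact M.acc_ne_rej (h1.symm.trans h2)

end Halt

end Vale.Agent.Lib.P310.Mach

namespace Vale.Agent.Lib.P310.Num

open Mach Tab

/-- The statement of the composition theorem. -/
def ComposedStmt : Prop :=
  ∀ (p : Stmt) (Q Γ : Type) [Finite Q] [Finite Γ] (A : TM Q Γ),
    ∃ (Q' Γ' : Type) (_ : Finite Q') (_ : Finite Γ') (B : TM Q' Γ') (c : ℕ),
      B.start ≠ B.acc ∧ B.start ≠ B.rej ∧ B.blank ≠ B.bit false ∧ B.blank ≠ B.bit true ∧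
      B.bit false ≠ B.bit true ∧
      ∀ (w : List Bool) (t : ℕ) (s' : St), (sstep w)^[t] ([p], St.init w) = ([], s') →
        ∃ T ≤ c * (t + w.length + 1) ^ 2, ∀ u,
          ((A.run s'.out u).q = A.acc → (B.run w (T + u)).q = B.acc) ∧
          ((A.run s'.out u).q = A.rej → (B.run w (T + u)).q = B.rej)

/-- The statement on the reduction: the terms `sizeT`, `bitT`, with the parameters for `k`, write
on the word of a machine a pair of graphs whose `k`-WL equivalence says that the machine does not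
accept the word within `s ^ r` steps. -/
def RedStmt (sizeT bitT : Tm) (par : ℕ → ℕ → ℕ) : Prop :=
  ∀ k, 3 ≤ k → pR (par k) = (k + 1) / 4 ∧ 2 ≤ pQ (par k) ∧
    ∀ (a b : ℕ) (M : TM (Fin a) (Fin b)), IsNormal M → ∃ C : ℕ, ∀ pad : ℕ,
      ∃ (n : ℕ) (G H : SimpleGraph (Fin n)),
        outWord (par k) (wordOf M pad) sizeT bitT = encPair G H ∧
        (WLEquiv k G H ↔ ¬ ∃ t < sW (par k) (wordOf M pad) ^ pR (par k),
          (M.run (wordOf M pad) t).q = M.acc) ∧
        (wordOf M pad).length ≤ n ∧ n ≤ C * (wordOf M pad).length ^ 9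

/-- A polynomial of smaller degree is eventually below a power. -/
lemma poly_lt_pow (C d r : ℕ) (h : d < r) : ∃ N₀, ∀ N, N₀ ≤ N → C * (N + 1) ^ d < N ^ r := by
  refine ⟨C * 2 ^ d + 2, fun N hN => ?_⟩
  have hN1 : 1 ≤ N := by omega
  have h1 : (N + 1) ^ d ≤ (2 * N) ^ d := Nat.pow_le_pow_left (by omega) d
  have h2 : C * (N + 1) ^ d ≤ C * 2 ^ d * N ^ d := by
    calc C * (N + 1) ^ d ≤ C * (2 * N) ^ d := Nat.mul_le_mul_left _ h1
      _ = C * 2 ^ d * N ^ d := by rw [mul_pow]; ring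
  have h3 : C * 2 ^ d * N ^ d < N * N ^ d := by
    have hpos : 0 < N ^ d := Nat.pow_pos (by omega)
    exact Nat.mul_lt_mul_of_pos_right (by omega) hpos
  have h4 : N * N ^ d = N ^ (d + 1) := by rw [pow_succ]; ring
  have h5 : N ^ (d + 1) ≤ N ^ r := Nat.pow_le_pow_right hN1 (by omega)
  omega

/-- The diagonal argument. -/
theorem lower_bound_of (sizeT bitT : Tm) (par : ℕ → ℕ → ℕ) (hC : ComposedStmt)
    (hR : RedStmt sizeT bitT par) :
    ∃ c₀ k₀ : ℕ, 0 < c₀ ∧ ∀ k, k₀ ≤ k → ∀ (Q Γ : Type) [Finite Q] [Finite Γ] (A : TM Q Γ),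
      DecidesWL k A → ¬ TimeBigO A (k / c₀) := by
  obtain ⟨D, hD⟩ := outProg_spec sizeT bitT
  refine ⟨72, 4 * (2 * D + 3) + 16, by norm_num, fun k hk Q Γ _ _ A hdec hbig => ?_⟩
  obtain ⟨hr, hQ, hred⟩ := hR k (by omega)
  set π := par k with hπ
  obtain ⟨C₀, hC₀⟩ := hD π
  obtain ⟨Q', Γ', _, _, B, c, h1, h2, h3, h4, h5, hB⟩ := hC (outProg π sizeT bitT) Q Γ A
  obtain ⟨a, b, M, hM, hrun⟩ := exists_normal B h1 h2 h3 h4 h5
  obtain ⟨C₂, hC₂⟩ := hred a b M hM
  obtain ⟨C₁, n₀, hbig⟩ := hbig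
  set e := k / 72 with he
  set r := pR π with hrd
  have hr1 : 2 * D + 2 < r := by omega
  have hr2 : 9 * e < r := by omega
  set d := max (2 * D + 2) (9 * e) with hd
  have hdr : d < r := max_lt hr1 hr2
  -- the constant
  set K := c * (C₀ + 2) ^ 2 + C₁ * C₂ ^ e with hK
  obtain ⟨N₀, hN₀⟩ := poly_lt_pow K d r hdr
  set pad := N₀ + n₀ + 1 with hpad
  set w := wordOf M pad with hw
  set N := w.length with hN
  have hNpad : pad ≤ N := by
    rw [hN, hw, length_wordOf]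
    omega
  obtain ⟨n, G, H, hout, hiff, hlen, hn⟩ := hC₂ pad
  rw [← hw] at hout hiff hlen hn
  obtain ⟨t, s', hite, hs', ht⟩ := hC₀ w
  obtain ⟨T, hT, hAB⟩ := hB w t s' hite
  rw [hs', hout] at hAB
  have hn₀ : n₀ ≤ n := by omega
  set u := C₁ * n ^ e with hu
  have hhalt := hbig n hn₀ G H
  -- the time bound
  have hN1 : 1 ≤ N + 1 := by omega
  have htb : T + u < N ^ r := by
    have h10 : (N + 1) ^ D ≤ (N + 1) ^ (D + 1) := Nat.pow_le_pow_right hN1 (by omega)
    have h11 : N + 1 ≤ (N + 1) ^ (D + 1) := by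
      calc N + 1 = (N + 1) ^ 1 := (pow_one _).symm
        _ ≤ (N + 1) ^ (D + 1) := Nat.pow_le_pow_right hN1 (by omega)
    have h12 : t + N + 1 ≤ (C₀ + 2) * (N + 1) ^ (D + 1) := by
      have h13 : t ≤ C₀ * (N + 1) ^ (D + 1) := ht.trans (Nat.mul_le_mul_left _ h10)
      have h14 : (C₀ + 2) * (N + 1) ^ (D + 1) =
          C₀ * (N + 1) ^ (D + 1) + 2 * (N + 1) ^ (D + 1) := by ring
      omega
    have h15 : (t + N + 1) ^ 2 ≤ (C₀ + 2) ^ 2 * (N + 1) ^ (2 * D + 2) := by
      calc (t + N + 1) ^ 2 ≤ ((C₀ + 2) * (N + 1) ^ (D + 1)) ^ 2 := Nat.pow_le_pow_left h12 2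
        _ = (C₀ + 2) ^ 2 * (N + 1) ^ (2 * D + 2) := by
            rw [mul_pow, ← pow_mul]
            congr 2
            ring
    have h16 : T ≤ c * (C₀ + 2) ^ 2 * (N + 1) ^ d := by
      calc T ≤ c * (t + N + 1) ^ 2 := hT
        _ ≤ c * ((C₀ + 2) ^ 2 * (N + 1) ^ (2 * D + 2)) := Nat.mul_le_mul_left _ h15
        _ = c * (C₀ + 2) ^ 2 * (N + 1) ^ (2 * D + 2) := by ring
        _ ≤ c * (C₀ + 2) ^ 2 * (N + 1) ^ d :=
            Nat.mul_le_mul_left _ (Nat.pow_le_pow_right hN1 (le_max_left _ _))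
    have h17 : u ≤ C₁ * C₂ ^ e * (N + 1) ^ d := by
      calc u = C₁ * n ^ e := rfl
        _ ≤ C₁ * (C₂ * N ^ 9) ^ e := Nat.mul_le_mul_left _ (Nat.pow_le_pow_left hn e)
        _ = C₁ * C₂ ^ e * N ^ (9 * e) := by rw [mul_pow, ← pow_mul]; ring
        _ ≤ C₁ * C₂ ^ e * (N + 1) ^ (9 * e) :=
            Nat.mul_le_mul_left _ (Nat.pow_le_pow_left (by omega) _)
        _ ≤ C₁ * C₂ ^ e * (N + 1) ^ d :=
            Nat.mul_le_mul_left _ (Nat.pow_le_pow_right hN1 (le_max_right _ _))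
    have h18 : K * (N + 1) ^ d = c * (C₀ + 2) ^ 2 * (N + 1) ^ d + C₁ * C₂ ^ e * (N + 1) ^ d := by
      rw [hK]
      ring
    have h19 := hN₀ N (by omega)
    omega
  have hs2 : N ^ r ≤ sW π w ^ r := Nat.pow_le_pow_left (le_sW π w hQ) r
  by_cases hwl : WLEquiv k G H
  · obtain ⟨t₁, ht₁⟩ := (hdec n G H).1 hwl
    have hacc : (A.run (encPair G H) u).q = A.acc := by
      rcases hhalt with h | h
      · exact h
      · exact (A.not_acc_rej ht₁ h).elim
    have h20 := (hAB u).1 hacc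
    have h21 := ((hrun w (T + u)).1).mpr h20
    exact hiff.mp hwl ⟨T + u, by omega, h21⟩
  · obtain ⟨t₁, ht₁⟩ := (hdec n G H).2 hwl
    have hrej : (A.run (encPair G H) u).q = A.rej := by
      rcases hhalt with h | h
      · exact (A.not_acc_rej h ht₁).elim
      · exact h
    have h20 := (hAB u).2 hrej
    have h21 := ((hrun w (T + u)).2).mpr h20
    have h22 : ∃ t < sW π w ^ r, (M.run w t).q = M.acc := by
      by_contra h
      exact hwl (hiff.mpr h)
    obtain ⟨t₂, -, h23⟩ := h22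
    exact M.not_acc_rej h23 h21

end Vale.Agent.Lib.P310.Num
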