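import Vale.Agent.Lib.P310.Num.Defs

/-!
# Tables that come from a small field

The tables of an `AD` are numeric functions. This structure says that they are the tables of a field
`F` of characteristic two, under a numbering of the field that sends `0` to `0`.
-/

namespace Vale.Agent.Lib.P310.Num

namespace AD

/-- The tables of `A` are those of the field `F`: the sum and the product, the powers of `ρ` distinct
points `α`, the inverse `lam` of the Vandermonde matrix of the points, and `eb` additive functionals
`φ` that separate the elements of `F`. -/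
structure Good (A : AD) (F : Type) [Field F] [Fintype F] [CharP F 2] where
  /-- The numbering of the field. -/
  num : F ≃ Fin A.q
  num_zero : (num 0).val = 0
  addF : ∀ x y : F, A.addF (num x) (num y) = num (x + y)
  mulF : ∀ x y : F, A.mulF (num x) (num y) = num (x * y)
  /-- The points. -/
  α : Fin A.ρ → F
  α_inj : Function.Injective α
  apw : ∀ (i : Fin A.ρ) (j : ℕ), j < A.ℓ → A.apw i j = num (α i ^ j)
  /-- The inverse of the Vandermonde matrix. -/
  lam : Fin A.ρ → Fin A.ρ → F
  lamT : ∀ κ i : Fin A.ρ, A.lamT κ i = num (lam κ i)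
  lam_left : ∀ κ κ' : Fin A.ρ, ∑ i, lam κ i * α i ^ (κ' : ℕ) = if κ = κ' then 1 else 0
  lam_right : ∀ i i' : Fin A.ρ, ∑ κ : Fin A.ρ, α i ^ (κ : ℕ) * lam κ i' = if i = i' then 1 else 0
  /-- The functionals. -/
  φ : Fin A.eb → F →+ ZMod 2
  phi : ∀ (b : Fin A.eb) (y : F), A.phi b (num y) = (φ b y).val
  φ_sep : ∀ y : F, (∀ b, φ b y = 0) → y = 0
  hρ : 3 ≤ A.ρ
  hℓ : 2 * A.ℓ ≤ A.ρ + 1
  hs : A.s = A.q ^ A.m

end AD

end Vale.Agent.Lib.P310.Num
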