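import Vale.Agent.Lib.P310.Num.AdjT
import Vale.Agent.Lib.P310.Num.Good
import Vale.Agent.Lib.P310.Num.Final
import Vale.Agent.Lib.P310.Num.WLIso
import Vale.Agent.Lib.P310.Tab.Main

/-!
# Assembling the reduction

From the numeric description of the graphs and the existence of the parameters we get the statement
on the reduction used by the diagonal argument.
-/

namespace Vale.Agent.Lib.P310.Num

open Mach Tab

/-- The graphs of a program are given by the numeric adjacency function. -/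
def GraphStmt : Prop :=
  ∀ (A : AD) (F : Type) [Field F] [Fintype F] [CharP F 2], A.Good F →
    ∃ (V : Type) (_ : AddCommGroup V) (e : V ≃ Fin A.D.s) (G₀ G₁ : SimpleGraph (Fin A.nV)),
      (∀ x y, G₀.Adj x y ↔ A.adjF 0 x y ≠ 0) ∧ (∀ x y, G₁.Adj x y ↔ A.adjF 1 x y ≠ 0) ∧
      (WLEquiv A.ρ G₀ G₁ ↔ ¬ (A.D.prog e).Derives A.D.stAF (fun _ => TD.toV e 0))

/-- The parameters exist. -/
def ParStmt : Prop :=
  ∀ k, 3 ≤ k → ∃ π : ℕ → ℕ, π 0 = k ∧ pR π = (k + 1) / 4 ∧ 2 ≤ pQ π ∧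
    ∃ (F : Type) (_ : Field F) (_ : Fintype F) (_ : CharP F 2),
      ∀ w : List Bool, Nonempty ((adOf π w).Good F)

section Lists

variable {β : Type}

lemma map_range_mul (n m : ℕ) (f : ℕ → ℕ → β) :
    (List.range (m * n)).map (fun i => f (i / n) (i % n)) =
      (List.range m).flatMap fun x => (List.range n).map (f x) := by
  induction m with
  | zero => simp
  | succ m ih =>
    rw [Nat.succ_mul, List.range_add, List.map_append, ih, List.range_succ, List.flatMap_append,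
      List.map_map]
    simp only [List.flatMap_cons, List.flatMap_nil, List.append_nil]
    congr 1
    refine List.map_congr_left fun i hi => ?_
    have hi' : i < n := List.mem_range.mp hi
    simp only [Function.comp_apply]
    have h0 : 0 < n := by omega
    rw [Nat.add_comm (m * n) i, Nat.add_mul_div_right _ _ h0, Nat.add_mul_mod_self_right,
      Nat.div_eq_of_lt hi', Nat.mod_eq_of_lt hi', Nat.zero_add]

lemma map_val_finRange (n : ℕ) : (List.finRange n).map Fin.val = List.range n := by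
  apply List.ext_getElem
  · simp
  · intro i h1 h2
    simp

open Classical in
lemma adjBits_eq {n : ℕ} (G : SimpleGraph (Fin n)) (f : ℕ → ℕ → ℕ)
    (hG : ∀ x y : Fin n, G.Adj x y ↔ f x y ≠ 0) :
    adjBits G = (List.range (n * n)).map fun i => decide (f (i / n) (i % n) ≠ 0) := by
  rw [map_range_mul n n fun x y => decide (f x y ≠ 0)]
  unfold adjBits
  rw [← map_val_finRange, List.flatMap_map]
  refine List.flatMap_congr fun x _ => ?_
  rw [List.map_map]
  refine List.map_congr_left fun y _ => ?_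
  simp only [Function.comp_apply]
  exact decide_eq_decide.mpr (hG x y)

/-- The word of the pair of graphs, from the values of the bits. -/
lemma word_of_bits (n L : ℕ) (hL : L = 2 * (n * n)) (B : ℕ → ℕ) (f₀ f₁ : ℕ → ℕ → ℕ)
    (hB : ∀ i, B i = if i < n * n then f₀ (i / n) (i % n)
      else f₁ ((i - n * n) / n) ((i - n * n) % n))
    (G₀ G₁ : SimpleGraph (Fin n)) (h₀ : ∀ x y : Fin n, G₀.Adj x y ↔ f₀ x y ≠ 0)
    (h₁ : ∀ x y : Fin n, G₁.Adj x y ↔ f₁ x y ≠ 0) :
    (List.range L).map (fun i => decide (B i ≠ 0)) = encPair G₀ G₁ := by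
  classical
  unfold encPair
  rw [adjBits_eq G₀ _ h₀, adjBits_eq G₁ _ h₁, hL]
  rw [show 2 * (n * n) = n * n + n * n by ring, List.range_add, List.map_append, List.map_map]
  congr 1
  · refine List.map_congr_left fun i hi => ?_
    have hi' : i < n * n := List.mem_range.mp hi
    rw [hB, if_pos hi']
  · refine List.map_congr_left fun i hi => ?_
    have hi' : i < n * n := List.mem_range.mp hi
    simp only [Function.comp_apply]
    rw [hB, if_neg (by omega), Nat.add_sub_cancel_left]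

end Lists

open Tm' in
/-- The word written by the terms `sizeT` and `bitT` is the pair of adjacency matrices. -/
lemma outWord_eq (π : ℕ → ℕ) (w : List Bool) (G₀ G₁ : SimpleGraph (Fin (adOf π w).nV))
    (h₀ : ∀ x y, G₀.Adj x y ↔ (adOf π w).adjF 0 x y ≠ 0)
    (h₁ : ∀ x y, G₁.Adj x y ↔ (adOf π w).adjF 1 x y ≠ 0) :
    outWord π w sizeT bitT = encPair G₀ G₁ := by
  exact word_of_bits (adOf π w).nV _ eval_sizeT _ _ _ eval_bitT G₀ G₁ h₀ h₁

section Sizes

/-- The number of constraints, in terms of the data. -/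
lemma AD.N_eq (A : AD) : A.N = (3 * A.D.nR + 2) * (A.ρ * A.D.s) * (2 * A.ρ * (A.ρ + A.ρ * A.m * A.eb)) +
    (3 * A.D.nR + 2) * (A.ρ * A.D.s) + (A.D.nP + A.D.nR) * (A.ρ * A.D.s) := rfl

lemma AD.nV_eq (A : AD) : A.nV = 4 * A.N * (2 * A.N * (4 * A.N + 1) + 1) := rfl

/-- The numbers of constraints is cubic. -/
lemma N_bound (ρ eb c Pc s m : ℕ) (hm : m ≤ s) (hs : 1 ≤ s) :
    (3 * (c * s) + 2) * (ρ * s) * (2 * ρ * (ρ + ρ * m * eb)) +
      (3 * (c * s) + 2) * (ρ * s) + (Pc + c * s) * (ρ * s) ≤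
    ((3 * c + 2) * ρ * (2 * ρ * (ρ + ρ * eb)) + (3 * c + 2) * ρ + (Pc + c) * ρ) * s ^ 3 := by
  have h1 : 3 * (c * s) + 2 ≤ (3 * c + 2) * s := by nlinarith
  have h2 : Pc + c * s ≤ (Pc + c) * s := by nlinarith
  have h3 : ρ + ρ * m * eb ≤ (ρ + ρ * eb) * s := by
    have : ρ * m * eb ≤ ρ * s * eb := Nat.mul_le_mul_right _ (Nat.mul_le_mul_left _ hm)
    nlinarith
  have hs2 : s ≤ s ^ 2 := by nlinarith
  have hs3 : s ^ 2 ≤ s ^ 3 := Nat.pow_le_pow_right hs (by norm_num)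
  have t1 : (3 * (c * s) + 2) * (ρ * s) * (2 * ρ * (ρ + ρ * m * eb)) ≤
      ((3 * c + 2) * s) * (ρ * s) * (2 * ρ * ((ρ + ρ * eb) * s)) := by gcongr
  have t2 : (3 * (c * s) + 2) * (ρ * s) ≤ ((3 * c + 2) * s) * (ρ * s) := by gcongr
  have t3 : (Pc + c * s) * (ρ * s) ≤ ((Pc + c) * s) * (ρ * s) := by gcongr
  have e1 : ((3 * c + 2) * s) * (ρ * s) * (2 * ρ * ((ρ + ρ * eb) * s)) =
      (3 * c + 2) * ρ * (2 * ρ * (ρ + ρ * eb)) * s ^ 3 := by ring
  have e2 : ((3 * c + 2) * s) * (ρ * s) = (3 * c + 2) * ρ * s ^ 2 := by ring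
  have e3 : ((Pc + c) * s) * (ρ * s) = (Pc + c) * ρ * s ^ 2 := by ring
  have t2' : (3 * c + 2) * ρ * s ^ 2 ≤ (3 * c + 2) * ρ * s ^ 3 := Nat.mul_le_mul_left _ hs3
  have t3' : (Pc + c) * ρ * s ^ 2 ≤ (Pc + c) * ρ * s ^ 3 := Nat.mul_le_mul_left _ hs3
  have e4 : ((3 * c + 2) * ρ * (2 * ρ * (ρ + ρ * eb)) + (3 * c + 2) * ρ + (Pc + c) * ρ) * s ^ 3 =
      (3 * c + 2) * ρ * (2 * ρ * (ρ + ρ * eb)) * s ^ 3 + (3 * c + 2) * ρ * s ^ 3 +
        (Pc + c) * ρ * s ^ 3 := by ring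
  omega

/-- The number of vertices is cubic in the number of constraints. -/
lemma nV_le (N X : ℕ) (h : N ≤ X) :
    4 * N * (2 * N * (4 * N + 1) + 1) ≤ 44 * X ^ 3 := by
  rcases Nat.eq_zero_or_pos X with rfl | hX
  · obtain rfl : N = 0 := by omega
    simp
  have h1 : 4 * N + 1 ≤ 5 * X := by omega
  have h2 : 2 * N * (4 * N + 1) ≤ 2 * X * (5 * X) := by gcongr
  have h3 : 2 * N * (4 * N + 1) + 1 ≤ 11 * X ^ 2 := by nlinarith
  have h4 : 4 * N * (2 * N * (4 * N + 1) + 1) ≤ 4 * X * (11 * X ^ 2) := by gcongr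
  calc _ ≤ 4 * X * (11 * X ^ 2) := h4
    _ = 44 * X ^ 3 := by ring

lemma le_nV (N : ℕ) : N ≤ 4 * N * (2 * N * (4 * N + 1) + 1) := by
  have h : 4 * N * (2 * N * (4 * N + 1) + 1) = N * (4 * (2 * N * (4 * N + 1) + 1)) := by ring
  rw [h]
  exact Nat.le_mul_of_pos_right N (by omega)

lemma nV_final (n c₃ s q L : ℕ) (h1 : n ≤ 44 * (c₃ * s ^ 3) ^ 3) (h2 : s ≤ (q + 1) * L) :
    n ≤ 44 * c₃ ^ 3 * (q + 1) ^ 9 * L ^ 9 := by
  have h3 : s ^ 9 ≤ ((q + 1) * L) ^ 9 := Nat.pow_le_pow_left h2 9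
  calc n ≤ 44 * (c₃ * s ^ 3) ^ 3 := h1
    _ = 44 * c₃ ^ 3 * s ^ 9 := by ring
    _ ≤ 44 * c₃ ^ 3 * ((q + 1) * L) ^ 9 := Nat.mul_le_mul_left _ h3
    _ = 44 * c₃ ^ 3 * (q + 1) ^ 9 * L ^ 9 := by ring

lemma le_pow_self_nat {q : ℕ} (hq : 2 ≤ q) (m : ℕ) : m ≤ q ^ m :=
  le_trans Nat.lt_two_pow_self.le (Nat.pow_le_pow_left hq m)

end Sizes

section Main

variable {a b : ℕ}

lemma derives_transfer (M : TM (Fin a) (Fin b)) (hM : IsNormal M) (w : List Bool) (s r : ℕ)
    (hs : 2 ≤ s) (hr : 1 ≤ r) (hw : w.length ≤ s) (D : TD) (hD : D = ofTM M w s r) {V : Type}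
    [AddCommGroup V] (e : V ≃ Fin D.s) :
    (D.prog e).Derives D.stAF (fun _ => TD.toV e 0) ↔ ∃ t < s ^ r, (M.run w t).q = M.acc := by
  subst hD
  exact derives_iff M hM w s r hs hr hw e

/-- From the two statements, the statement on the reduction. -/
theorem exists_red (hG : GraphStmt) (hP : ParStmt) :
    ∃ par, RedStmt Tm'.sizeT Tm'.bitT par := by
  classical
  refine ⟨fun k => if hk : 3 ≤ k then (hP k hk).choose else fun _ => 0, fun k hk => ?_⟩
  simp only [dif_pos hk]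
  obtain ⟨h0, hr, hq, F, _, _, _, hgood⟩ := (hP k hk).choose_spec
  set π := (hP k hk).choose with hπ
  refine ⟨hr, hq, fun a b M hM => ?_⟩
  -- the constants
  set S := b * (a + 1) + 1 with hS
  set c := 10 * S * S * S * (2 * pR π) with hc
  set Pc := 3 * S + S * S + 1 + 1 with hPc
  set ρ := π 0 with hρ
  set eb := π 4 with heb
  set c₃ := (3 * c + 2) * ρ * (2 * ρ * (ρ + ρ * eb)) + (3 * c + 2) * ρ + (Pc + c) * ρ with hc₃
  refine ⟨44 * c₃ ^ 3 * (pQ π + 1) ^ 9, fun pad => ?_⟩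
  set w := wordOf M pad with hw
  have hgd := hgood w
  obtain ⟨g⟩ := hgd
  obtain ⟨V, _, e, G₀, G₁, h₀, h₁, hwl⟩ := hG (adOf π w) F g
  have hD : (adOf π w).D = ofTM M w (sW π w) (pR π) := tdW_wordOf M pad π
  have hlen : w.length = codeLen a b + pad := length_wordOf M pad
  have hlen2 : 2 ≤ w.length := by
    have := le_codeLen_a (a := a) (b := b)
    omega
  have hws : w.length ≤ sW π w := le_sW π w hq
  have hr1 : 1 ≤ pR π := by
    rw [hr]
    omega
  -- the sizes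
  set s := sW π w with hs
  have hDs : (adOf π w).D.s = s := rfl
  have hm : (adOf π w).m ≤ s := by
    show mW π w ≤ s
    rw [hs, sW_eq π w hq]
    exact le_pow_self_nat hq _
  have hnR : (adOf π w).D.nR = c * s := by
    rw [hD]
    rfl
  have hnP : (adOf π w).D.nP = Pc := by
    rw [hD]
    rfl
  have hs1 : 1 ≤ s := by omega
  have hN : (adOf π w).N = (3 * (c * s) + 2) * (ρ * s) * (2 * ρ * (ρ + ρ * (adOf π w).m * eb)) +
      (3 * (c * s) + 2) * (ρ * s) + (Pc + c * s) * (ρ * s) := by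
    rw [AD.N_eq, hnR, hnP, hDs]
    rfl
  have hNb : (adOf π w).N ≤ c₃ * s ^ 3 := by
    rw [hN]
    exact N_bound ρ eb c Pc s _ hm hs1
  have hnV := AD.nV_eq (adOf π w)
  refine ⟨(adOf π w).nV, G₀, G₁, outWord_eq π w G₀ G₁ h₀ h₁, ?_, ?_, ?_⟩
  · have h1 : (adOf π w).ρ = k := h0
    rw [h1] at hwl
    rw [hwl]
    exact not_congr (derives_transfer M hM w _ _ (by omega) hr1 hws _ hD e)
  · have hρ1 : 1 ≤ ρ := by omega
    have h1 : s ≤ ρ * s := Nat.le_mul_of_pos_left _ hρ1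
    have h2 : ρ * s ≤ (3 * (c * s) + 2) * (ρ * s) := Nat.le_mul_of_pos_left _ (by omega)
    have h3 : (3 * (c * s) + 2) * (ρ * s) ≤ (adOf π w).N := by
      rw [hN]
      omega
    have h4 : (adOf π w).N ≤ (adOf π w).nV := by
      rw [hnV]
      exact le_nV _
    omega
  · have h1 := nV_le _ _ hNb
    rw [← hnV] at h1
    have h2 : s ≤ (pQ π + 1) * w.length := by
      have := sW_le π w
      nlinarith
    exact nV_final _ _ _ _ _ h1 h2

end Main

end Vale.Agent.Lib.P310.Num
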