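import Vale.Agent.Lib.P310.Num.Vals
import Vale.Agent.Lib.P310.Alt.ProgDefs

/-!
# Explicit linear checks

The linear checks of a guard for the Reed-Solomon encodings of register vectors with values in
`Fin A.m → F`, from the inverse of the Vandermonde matrix and the functionals of the small field. A
check is numbered by `κ * (m * eb) + d * eb + b`: the register `κ`, the digit `d` of a value and the
functional `b`. The numeric function `uN` of `Num/Defs.lean` computes the base vectors.
-/

namespace Vale.Agent.Lib.P310.Num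

open Mach Tab Alt

namespace AD

variable {A : AD} {F : Type} [Field F] [Fintype F] [CharP F 2]

/-- The register of a check. -/
def tκ (t : Fin A.nM) : Fin A.ρ :=
  ⟨t.val / (A.m * A.eb), Nat.div_lt_of_lt_mul (by
    have h := t.isLt
    unfold nM at h
    calc t.val < A.ρ * A.m * A.eb := h
      _ = A.m * A.eb * A.ρ := by ring)⟩

lemma m_pos_of (t : Fin A.nM) : 0 < A.m := by
  have h : t.val < A.ρ * A.m * A.eb := t.isLt
  apply Nat.pos_of_ne_zero
  intro h0
  have h1 : A.ρ * A.m * A.eb = 0 := by simp [h0]
  omega

lemma eb_pos_of (t : Fin A.nM) : 0 < A.eb := by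
  have h : t.val < A.ρ * A.m * A.eb := t.isLt
  apply Nat.pos_of_ne_zero
  intro h0
  have h1 : A.ρ * A.m * A.eb = 0 := by simp [h0]
  omega

/-- The digit of a check. -/
def td (t : Fin A.nM) : Fin A.m := ⟨t.val / A.eb % A.m, Nat.mod_lt _ (m_pos_of t)⟩

/-- The functional of a check. -/
def tb (t : Fin A.nM) : Fin A.eb := ⟨t.val % A.eb, Nat.mod_lt _ (eb_pos_of t)⟩

/-- A check for given register, digit and functional. -/
lemma exists_check (κ : Fin A.ρ) (d : Fin A.m) (b : Fin A.eb) :
    ∃ t : Fin A.nM, tκ t = κ ∧ td t = d ∧ tb t = b := by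
  have hm : 0 < A.m := by have := d.isLt; omega
  have heb : 0 < A.eb := by have := b.isLt; omega
  have hlow : d.val * A.eb + b.val < A.m * A.eb := by
    have h1 : (d.val + 1) * A.eb ≤ A.m * A.eb := Nat.mul_le_mul_right _ d.isLt
    have h2 := b.isLt
    linarith [Nat.succ_mul d.val A.eb]
  have ht : κ.val * (A.m * A.eb) + (d.val * A.eb + b.val) < A.nM := by
    unfold nM
    have h1 : (κ.val + 1) * (A.m * A.eb) ≤ A.ρ * (A.m * A.eb) := Nat.mul_le_mul_right _ κ.isLt
    calc κ.val * (A.m * A.eb) + (d.val * A.eb + b.val)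
        < κ.val * (A.m * A.eb) + A.m * A.eb := by omega
      _ = (κ.val + 1) * (A.m * A.eb) := by ring
      _ ≤ A.ρ * (A.m * A.eb) := h1
      _ = A.ρ * A.m * A.eb := by ring
  refine ⟨⟨_, ht⟩, ?_, ?_, ?_⟩
  · apply Fin.ext
    show (κ.val * (A.m * A.eb) + (d.val * A.eb + b.val)) / (A.m * A.eb) = κ.val
    rw [add_comm, Nat.add_mul_div_right _ _ (Nat.mul_pos hm heb), Nat.div_eq_of_lt hlow, zero_add]
  · apply Fin.ext
    show (κ.val * (A.m * A.eb) + (d.val * A.eb + b.val)) / A.eb % A.m = d.val
    have h1 : κ.val * (A.m * A.eb) + (d.val * A.eb + b.val) =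
        b.val + (κ.val * A.m + d.val) * A.eb := by ring
    rw [h1, Nat.add_mul_div_right _ _ heb, Nat.div_eq_of_lt b.isLt, zero_add,
      Nat.mul_comm κ.val, Nat.mul_add_mod, Nat.mod_eq_of_lt d.isLt]
  · apply Fin.ext
    show (κ.val * (A.m * A.eb) + (d.val * A.eb + b.val)) % A.eb = b.val
    have h1 : κ.val * (A.m * A.eb) + (d.val * A.eb + b.val) =
        b.val + A.eb * (κ.val * A.m + d.val) := by ring
    rw [h1, Nat.add_mul_mod_self_left, Nat.mod_eq_of_lt b.isLt]

variable (hG : A.Good F)

include hG in
lemma ell_le_rho : A.ℓ ≤ A.ρ := by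
  have h1 := hG.hℓ
  have h2 := hG.hρ
  omega

/-- The combination of the values of a word with row `κ` of the inverse Vandermonde matrix. -/
def yOf (s : Fin A.ρ → Fin A.m → F) (κ : Fin A.ρ) (d : Fin A.m) : F :=
  ∑ i, hG.lam κ i * s i d

/-- A word is recovered from the combinations. -/
lemma recon (s : Fin A.ρ → Fin A.m → F) (i : Fin A.ρ) (d : Fin A.m) :
    ∑ κ : Fin A.ρ, hG.α i ^ (κ : ℕ) * yOf hG s κ d = s i d := by
  unfold yOf
  simp only [Finset.mul_sum]
  rw [Finset.sum_comm]
  have h : ∀ i' : Fin A.ρ, ∑ κ : Fin A.ρ, hG.α i ^ (κ : ℕ) * (hG.lam κ i' * s i' d) =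
      (if i = i' then 1 else 0) * s i' d := by
    intro i'
    rw [← hG.lam_right i i', Finset.sum_mul]
    refine Finset.sum_congr rfl fun κ _ => ?_
    ring
  simp only [h]
  simp

open scoped Classical in
/-- The rows of the checks. -/
noncomputable def rowN (G : Guard (Fin A.m → F) A.ℓ) (t : Fin A.nM) (i : Fin A.ρ)
    (a : Fin A.m → F) : ZMod 2 :=
  if ∃ h : (tκ t).val < A.ℓ, G ⟨(tκ t).val, h⟩ = none then 0
  else hG.φ (tb t) (hG.lam (tκ t) i * a (td t))

/-- The constants of the checks. -/
noncomputable def cstN (G : Guard (Fin A.m → F) A.ℓ) (t : Fin A.nM) : ZMod 2 :=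
  if h : (tκ t).val < A.ℓ then
    match G ⟨(tκ t).val, h⟩ with
    | none => 0
    | some v => hG.φ (tb t) (v (td t))
  else 0

lemma sum_rowN (G : Guard (Fin A.m → F) A.ℓ) (t : Fin A.nM) (s : Fin A.ρ → Fin A.m → F) :
    ∑ i, rowN hG G t i (s i) =
      (open scoped Classical in
        if ∃ h : (tκ t).val < A.ℓ, G ⟨(tκ t).val, h⟩ = none then 0
        else hG.φ (tb t) (yOf hG s (tκ t) (td t))) := by
  classical
  unfold rowN yOf
  split_ifs
  · simp
  · rw [map_sum]

/-- The linear checks, from the tables of the field. -/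
noncomputable def checksN : Checks (F := F) (V := Fin A.m → F) hG.α A.ℓ A.nM where
  row := rowN hG
  row_add := by
    intro G q i a b
    classical
    unfold rowN
    split_ifs
    · simp
    · simp [mul_add]
  cst := cstN hG
  spec := by
    classical
    intro G s
    have hle := ell_le_rho hG
    constructor
    · intro h
      -- the equations on the combinations
      have h1 : ∀ (κ : Fin A.ρ) (d : Fin A.m) (b : Fin A.eb) (hκ : ¬ κ.val < A.ℓ),
          hG.φ b (yOf hG s κ d) = 0 := by
        intro κ d b hκ
        obtain ⟨t, rfl, rfl, rfl⟩ := exists_check κ d b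
        have h2 := h t
        rw [sum_rowN] at h2
        have h3 : ¬ ∃ h : (tκ t).val < A.ℓ, G ⟨(tκ t).val, h⟩ = none := fun ⟨h, _⟩ => hκ h
        rw [if_neg h3] at h2
        rw [h2]
        simp [cstN, hκ]
      have h2 : ∀ (κ : Fin A.ρ) (d : Fin A.m) (b : Fin A.eb) (hκ : κ.val < A.ℓ)
          (v : Fin A.m → F), G ⟨κ.val, hκ⟩ = some v →
          hG.φ b (yOf hG s κ d) = hG.φ b (v d) := by
        intro κ d b hκ v hv
        obtain ⟨t, rfl, rfl, rfl⟩ := exists_check κ d b
        have h2 := h t
        rw [sum_rowN] at h2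
        have h3 : ¬ ∃ h : (tκ t).val < A.ℓ, G ⟨(tκ t).val, h⟩ = none := fun ⟨h, h'⟩ => by
          rw [hv] at h'
          exact absurd h' (by simp)
        rw [if_neg h3] at h2
        rw [h2]
        simp [cstN, hκ, hv]
      have h3 : ∀ (κ : Fin A.ρ) (d : Fin A.m) (hκ : ¬ κ.val < A.ℓ), yOf hG s κ d = 0 := by
        intro κ d hκ
        exact hG.φ_sep _ fun b => h1 κ d b hκ
      have h4 : ∀ (κ : Fin A.ρ) (d : Fin A.m) (hκ : κ.val < A.ℓ) (v : Fin A.m → F),
          G ⟨κ.val, hκ⟩ = some v → yOf hG s κ d = v d := by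
        intro κ d hκ v hv
        have h5 : yOf hG s κ d - v d = 0 := by
          refine hG.φ_sep _ fun b => ?_
          rw [map_sub, h2 κ d b hκ v hv, sub_self]
        exact sub_eq_zero.mp h5
      refine ⟨fun j d => yOf hG s (Fin.castLE hle j) d, ?_, ?_⟩
      · funext i d
        have h5 := recon hG s i d
        have h6 : ∑ κ : Fin A.ρ, hG.α i ^ (κ : ℕ) * yOf hG s κ d =
            ∑ j : Fin A.ℓ, hG.α i ^ (j : ℕ) * yOf hG s (Fin.castLE hle j) d := by
          have h7 : (Finset.univ : Finset (Fin A.ℓ)).map (Fin.castLEEmb hle) ⊆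
              (Finset.univ : Finset (Fin A.ρ)) := Finset.subset_univ _
          rw [← Finset.sum_subset h7]
          · rw [Finset.sum_map]
            rfl
          · intro κ _ hκ
            have h8 : ¬ κ.val < A.ℓ := by
              intro h9
              apply hκ
              exact Finset.mem_map.mpr ⟨⟨κ.val, h9⟩, Finset.mem_univ _, Fin.ext rfl⟩
            rw [h3 κ d h8, mul_zero]
        rw [← h5, h6]
        simp [encode, Finset.sum_apply, smul_eq_mul]
      · intro j v hv
        funext d
        exact h4 (Fin.castLE hle j) d j.isLt v hv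
    · rintro ⟨x, rfl, hx⟩ t
      -- the combinations of an encoding are the registers
      have h1 : ∀ (κ : Fin A.ρ) (d : Fin A.m), yOf hG (encode hG.α x) κ d =
          if h : κ.val < A.ℓ then x ⟨κ.val, h⟩ d else 0 := by
        intro κ d
        unfold yOf
        have h2 : ∀ i, hG.lam κ i * encode hG.α x i d =
            ∑ j : Fin A.ℓ, hG.lam κ i * hG.α i ^ (j : ℕ) * x j d := by
          intro i
          simp [encode, Finset.sum_apply, smul_eq_mul, Finset.mul_sum, mul_assoc]
        simp only [h2]
        rw [Finset.sum_comm]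
        have h3 : ∀ j : Fin A.ℓ, ∑ i, hG.lam κ i * hG.α i ^ (j : ℕ) * x j d =
            (if κ = Fin.castLE hle j then 1 else 0) * x j d := by
          intro j
          rw [← Finset.sum_mul]
          have h4 := hG.lam_left κ (Fin.castLE hle j)
          simp only [Fin.val_castLE] at h4
          rw [h4]
        simp only [h3]
        split_ifs with h
        · rw [Finset.sum_eq_single ⟨κ.val, h⟩]
          · have h5 : κ = Fin.castLE hle ⟨κ.val, h⟩ := Fin.ext rfl
            rw [if_pos h5, one_mul]
          · intro j _ hj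
            have h5 : κ ≠ Fin.castLE hle j := by
              intro h6
              apply hj
              apply Fin.ext
              have h7 := congrArg Fin.val h6
              simpa using h7.symm
            rw [if_neg h5, zero_mul]
          · simp
        · refine Finset.sum_eq_zero fun j _ => ?_
          have h5 : κ ≠ Fin.castLE hle j := by
            intro h6
            apply h
            rw [h6]
            exact j.isLt
          rw [if_neg h5, zero_mul]
      rw [sum_rowN]
      by_cases hκ : (tκ t).val < A.ℓ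
      · cases hg : G ⟨(tκ t).val, hκ⟩ with
        | none =>
          rw [if_pos ⟨hκ, hg⟩]
          simp [cstN, hκ, hg]
        | some v =>
          have h3 : ¬ ∃ h : (tκ t).val < A.ℓ, G ⟨(tκ t).val, h⟩ = none := fun ⟨h, h'⟩ => by
            rw [hg] at h'
            exact absurd h' (by simp)
          rw [if_neg h3, h1, dif_pos hκ, hx _ _ hg]
          simp [cstN, hκ, hg]
      · have h3 : ¬ ∃ h : (tκ t).val < A.ℓ, G ⟨(tκ t).val, h⟩ = none := fun ⟨h, _⟩ => hκ h
        rw [if_neg h3, h1, dif_neg hκ]
        simp [cstN, hκ]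

/-- The class of a token. -/
lemma tI_tok (i : Fin A.ρ) (x : Fin A.m → F) :
    A.tI (i.val * A.s + (valE hG x).val) = i.val := by
  have h : (valE hG x).val < A.s := (valE hG x).isLt
  unfold tI
  rw [add_comm, Nat.add_mul_div_right _ _ (by omega), Nat.div_eq_of_lt h, zero_add]

/-- The value of a token. -/
lemma tX_tok (i : Fin A.ρ) (x : Fin A.m → F) :
    A.tX (i.val * A.s + (valE hG x).val) = (valE hG x).val := by
  have h : (valE hG x).val < A.s := (valE hG x).isLt
  unfold tX
  rw [add_comm, Nat.add_mul_mod_self_right, Nat.mod_eq_of_lt h]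

/-- The numeric base vector is the base vector of the explicit checks. -/
theorem uN_baseVec (G : Guard (Fin A.m → F) A.ℓ) (g : ℕ)
    (hGd : ∀ (κ : ℕ) (h : κ < A.ℓ), G ⟨κ, h⟩ =
      match A.gGuard g κ with
      | 0 => none
      | v + 1 => some (TD.toV (valE hG) v))
    (i : Fin A.ρ) (x : Fin A.m → F) (t : Fin (A.ρ + A.nM)) :
    A.uN g (i.val * A.s + (valE hG x).val) t = (baseVec (checksN hG) G i x t).val := by
  classical
  induction t using Fin.addCases with
  | left j =>
    have h1 : (Fin.castAdd A.nM j).val < A.ρ := j.isLt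
    unfold uN
    rw [if_pos h1, tI_tok hG]
    simp only [baseVec, Fin.addCases_left, Fin.val_castAdd]
    rw [ZMod.val_add]
    have e1 : ((if i = j then 1 else 0 : ZMod 2)).val = if i.val = j.val then 1 else 0 := by
      by_cases h2 : i = j
      · rw [if_pos h2, if_pos (congrArg Fin.val h2)]
        rfl
      · rw [if_neg h2, if_neg (fun h => h2 (Fin.ext h))]
        rfl
    have e2 : ((if i.val = 0 then 1 else 0 : ZMod 2)).val = if i.val = 0 then 1 else 0 := by
      by_cases h3 : i.val = 0
      · rw [if_pos h3, if_pos h3]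
        rfl
      · rw [if_neg h3, if_neg h3]
        rfl
    rw [e1, e2]
  | right t' =>
    have h1 : ¬ (Fin.natAdd A.ρ t').val < A.ρ := by simp
    have h2 : (Fin.natAdd A.ρ t').val - A.ρ = t'.val := by simp
    unfold uN
    rw [if_neg h1]
    simp only [h2, tI_tok hG, tX_tok hG]
    simp only [baseVec, Fin.addCases_right]
    rw [ZMod.val_add]
    have hκ : t'.val / (A.m * A.eb) = (tκ t').val := rfl
    have hd : t'.val / A.eb % A.m = (td t').val := rfl
    have hb : t'.val % A.eb = (tb t').val := rfl
    rw [hκ, hd, hb]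
    congr 1
    congr 1
    · -- the rows
      by_cases hg : (tκ t').val < A.ℓ ∧ A.gGuard g (tκ t') = 0
      · rw [if_pos hg]
        have h3 : ∃ h : (tκ t').val < A.ℓ, G ⟨(tκ t').val, h⟩ = none := by
          refine ⟨hg.1, ?_⟩
          rw [hGd, hg.2]
        show 0 = (rowN hG G t' i x).val
        unfold rowN
        rw [if_pos h3]
        rfl
      · rw [if_neg hg]
        have h3 : ¬ ∃ h : (tκ t').val < A.ℓ, G ⟨(tκ t').val, h⟩ = none := by
          rintro ⟨h, h'⟩
          apply hg
          refine ⟨h, ?_⟩
          rw [hGd] at h'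
          cases hv : A.gGuard g (tκ t') with
          | zero => rfl
          | succ n =>
            rw [hv] at h'
            simp at h'
        show _ = (rowN hG G t' i x).val
        unfold rowN
        rw [if_neg h3, hG.lamT, dg_valE hG, hG.mulF, ← hG.phi]
    · -- the constants
      by_cases hi : i.val = 0
      · simp only [hi, if_true]
        by_cases hg : (tκ t').val < A.ℓ
        · cases hv : A.gGuard g (tκ t') with
          | zero =>
            have h3 : G ⟨(tκ t').val, hg⟩ = none := by
              rw [hGd, hv]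
            have h4 : (checksN hG).cst G t' = 0 := by
              show cstN hG G t' = 0
              simp [cstN, hg, h3]
            rw [h4]
            simp
          | succ n =>
            have h3 : G ⟨(tκ t').val, hg⟩ = some (TD.toV (valE hG) n) := by
              rw [hGd, hv]
            have h4 : (checksN hG).cst G t' = hG.φ (tb t') (TD.toV (valE hG) n (td t')) := by
              show cstN hG G t' = _
              simp [cstN, hg, h3]
            rw [h4, if_pos ⟨hg, by omega, trivial⟩, Nat.add_sub_cancel, dg_tv hG, ← hG.phi]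
        · have h4 : (checksN hG).cst G t' = 0 := by
            show cstN hG G t' = 0
            simp [cstN, hg]
          rw [h4, if_neg (fun h => hg h.1)]
          simp
      · simp only [hi, if_false]
        rw [if_neg (fun h => h.2.2)]
        simp

end AD

end Vale.Agent.Lib.P310.Num
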