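import Vale.Agent.Lib.P310.Mach.Lib
import Vale.Agent.Lib.P310.Tab.Rules

/-!
# Reading a machine from the input word, as terms

The pure functions here are defined on all words. The word `code M ++ padding` is written in
`Num/CodeSpec.lean`; on such words they give the tables of the machine `M`.

The header of a word is `1^a 0 1^b 0`. It is followed by one entry of width `a + b + 1` for each
pair of a state `q < a` and a symbol `x < b`: the next state and the written symbol in unary in
fields of widths `a` and `b`, and the direction.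
-/

set_option linter.unusedSimpArgs false

namespace Vale.Agent.Lib.P310.Num

open Mach Tab

/-- The parameter: the number of digits of time and position. -/
def pR (π : ℕ → ℕ) : ℕ := π 2
/-- The parameter: the size of the small field. -/
def pQ (π : ℕ → ℕ) : ℕ := π 3

/-- The number of leading ones. -/
def hA (w : List Bool) : ℕ :=
  recVal (fun i acc => if acc = i ∧ inBit w i = true then acc + 1 else acc) w.length 0 w.length

/-- The number of ones after the first zero. -/
def hB (w : List Bool) : ℕ :=
  recVal (fun i acc => if acc = i ∧ inBit w (hA w + 1 + i) = true then acc + 1 else acc) w.length 0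
    w.length

/-- The position of the entry of `q, x`. -/
def entry (w : List Bool) (q x : ℕ) : ℕ :=
  hA w + hB w + 2 + (q * hB w + x) * (hA w + hB w + 1)

/-- The next state, read from the word. -/
def dqW (w : List Bool) (q x : ℕ) : ℕ :=
  if q < hA w ∧ x < hB w then
    recVal (fun i acc => acc + bitN w (entry w q x + i)) (hA w) 0 (hA w)
  else 0

/-- The written symbol, read from the word. -/
def daW (w : List Bool) (q x : ℕ) : ℕ :=
  if q < hA w ∧ x < hB w then
    recVal (fun i acc => acc + bitN w (entry w q x + hA w + i)) (hB w) 0 (hB w)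
  else 0

/-- The direction, read from the word. -/
def dmW (w : List Bool) (q x : ℕ) : ℕ :=
  if q < hA w ∧ x < hB w then bitN w (entry w q x + hA w + hB w) else 0

/-- The initial symbol in a cell. -/
def inSW (w : List Bool) (i : ℕ) : ℕ :=
  if i < w.length then (if inBit w i = true then 2 else 1) else 0

/-- The number of digits of the register values: the smallest `m` with `w.length ≤ Q ^ m`. -/
def mW (π : ℕ → ℕ) (w : List Bool) : ℕ :=
  recVal (fun _ acc => if min (pQ π ^ acc) w.length < w.length then acc + 1 else acc)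
    w.length 0 w.length

/-- The number of register values. -/
def sW (π : ℕ → ℕ) (w : List Bool) : ℕ := min (pQ π ^ mW π w) (pQ π * w.length + 1)

/-- The tables read from the word. -/
def tdW (π : ℕ → ℕ) (w : List Bool) : TD where
  nQ := hA w
  nΓ := hB w
  s := sW π w
  r := pR π
  dq := dqW w
  da := daW w
  dm := dmW w
  inS := inSW w

namespace Tm'

open Tm

/-- The term for `hA`. -/
def hAT : Tm :=
  .iter .len .len (.lit 0)
    (.ite (andT (eqT (.var 1) (.var 0)) (.inp (.var 0))) (.add (.var 1) (.lit 1)) (.var 1))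

/-- The term for `hB`. -/
def hBT : Tm :=
  .iter .len .len (.lit 0)
    (.ite (andT (eqT (.var 1) (.var 0)) (.inp (.add (.add hAT (.lit 1)) (.var 0))))
      (.add (.var 1) (.lit 1)) (.var 1))

/-- The term for `entry`. -/
def entryT (q x : Tm) : Tm :=
  .add (.add (.add hAT hBT) (.lit 2)) (.mul (.add (.mul q hBT) x) (.add (.add hAT hBT) (.lit 1)))

/-- The term for `dqW`; the environment holds `q, x`. -/
def dqB : Tm :=
  .ite (andT (ltT (.var 0) hAT) (ltT (.var 1) hBT))
    (.iter hAT hAT (.lit 0) (.add (.var 1) (.inp (.add (entryT (.var 2) (.var 3)) (.var 0)))))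
    (.lit 0)

/-- The term for `daW`; the environment holds `q, x`. -/
def daB : Tm :=
  .ite (andT (ltT (.var 0) hAT) (ltT (.var 1) hBT))
    (.iter hBT hBT (.lit 0)
      (.add (.var 1) (.inp (.add (.add (entryT (.var 2) (.var 3)) hAT) (.var 0)))))
    (.lit 0)

/-- The term for `dmW`; the environment holds `q, x`. -/
def dmB : Tm :=
  .ite (andT (ltT (.var 0) hAT) (ltT (.var 1) hBT))
    (.inp (.add (.add (entryT (.var 0) (.var 1)) hAT) hBT))
    (.lit 0)

/-- Calls with two arguments. -/
def call2 (b x y : Tm) : Tm := .app b x y (.lit 0) (.lit 0)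

/-- The term for `inSW`. -/
def inST (i : Tm) : Tm :=
  .ite (ltT i .len) (.ite (.inp i) (.lit 2) (.lit 1)) (.lit 0)

/-- The term for `mW`. -/
def mT : Tm :=
  .iter .len .len (.lit 0)
    (.ite (ltT (powT .len (.par 3) (.var 1)) .len) (.add (.var 1) (.lit 1)) (.var 1))

/-- The term for `sW`. -/
def sT : Tm := powT (.add (.mul (.par 3) .len) (.lit 1)) (.par 3) mT

variable {π : ℕ → ℕ} {w : List Bool} {env : List ℕ}

@[simp] lemma eval_hAT : eval π w hAT env = hA w := by
  simp only [hAT, hA, eval_iter, eval_len, eval_lit, eval_ite, eval_andT, eval_eqT, eval_var,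
    eval_inp, eval_add, iteN_ltN, iteN_leN, iteN_eqN, iteN_notN, iteN_andN, iteN_orN, iteN_bitN, ltN_ne, leN_ne, eqN_ne, notN_ne, andN_ne, orN_ne, bitN_ne, List.getD_cons_zero, List.getD_cons_succ]

@[simp] lemma eval_hBT : eval π w hBT env = hB w := by
  simp only [hBT, hB, eval_iter, eval_len, eval_lit, eval_ite, eval_andT, eval_eqT, eval_var,
    eval_inp, eval_add, eval_hAT, iteN_ltN, iteN_leN, iteN_eqN, iteN_notN, iteN_andN, iteN_orN, iteN_bitN, ltN_ne, leN_ne, eqN_ne, notN_ne, andN_ne, orN_ne, bitN_ne, List.getD_cons_zero, List.getD_cons_succ]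

@[simp] lemma eval_entryT (q x : Tm) :
    eval π w (entryT q x) env = entry w (eval π w q env) (eval π w x env) := by
  simp only [entryT, entry, eval_add, eval_mul, eval_hAT, eval_hBT, eval_lit]

@[simp] lemma eval_dqT (q x : Tm) :
    eval π w (call2 dqB q x) env = dqW w (eval π w q env) (eval π w x env) := by
  simp only [call2, dqB, dqW, eval_ite, eval_andT, eval_ltT, eval_var, eval_lit, eval_add, eval_inp,
    eval_iter, eval_app, eval_hAT, eval_hBT, eval_entryT, iteN_ltN, iteN_leN, iteN_eqN, iteN_notN, iteN_andN, iteN_orN, iteN_bitN, ltN_ne, leN_ne, eqN_ne, notN_ne, andN_ne, orN_ne, bitN_ne, List.getD_cons_zero, List.getD_cons_succ]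

@[simp] lemma eval_daT (q x : Tm) :
    eval π w (call2 daB q x) env = daW w (eval π w q env) (eval π w x env) := by
  simp only [call2, daB, daW, eval_ite, eval_andT, eval_ltT, eval_var, eval_lit, eval_add, eval_inp,
    eval_iter, eval_app, eval_hAT, eval_hBT, eval_entryT, iteN_ltN, iteN_leN, iteN_eqN, iteN_notN, iteN_andN, iteN_orN, iteN_bitN, ltN_ne, leN_ne, eqN_ne, notN_ne, andN_ne, orN_ne, bitN_ne, List.getD_cons_zero, List.getD_cons_succ]

@[simp] lemma eval_dmT (q x : Tm) :
    eval π w (call2 dmB q x) env = dmW w (eval π w q env) (eval π w x env) := by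
  simp only [call2, dmB, dmW, eval_ite, eval_andT, eval_ltT, eval_var, eval_lit, eval_add, eval_inp,
    eval_app, eval_hAT, eval_hBT, eval_entryT, iteN_ltN, iteN_leN, iteN_eqN, iteN_notN, iteN_andN, iteN_orN, iteN_bitN, ltN_ne, leN_ne, eqN_ne, notN_ne, andN_ne, orN_ne, bitN_ne, List.getD_cons_zero, List.getD_cons_succ]

@[simp] lemma eval_inST (i : Tm) : eval π w (inST i) env = inSW w (eval π w i env) := by
  simp only [inST, inSW, eval_ite, eval_ltT, eval_len, eval_lit, eval_inp, iteN_ltN, iteN_leN, iteN_eqN, iteN_notN, iteN_andN, iteN_orN, iteN_bitN, ltN_ne, leN_ne, eqN_ne, notN_ne, andN_ne, orN_ne, bitN_ne]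

@[simp] lemma eval_mT : eval π w mT env = mW π w := by
  simp only [mT, mW, pQ, eval_iter, eval_len, eval_lit, eval_ite, eval_ltT, eval_var, eval_add,
    eval_par, eval_powT, List.getD_cons_zero, List.getD_cons_succ, iteN_ltN]
  rfl

@[simp] lemma eval_sT : eval π w sT env = sW π w := by
  simp only [sT, sW, pQ, eval_powT, eval_mT, eval_add, eval_mul, eval_par, eval_len, eval_lit]

end Tm'

end Vale.Agent.Lib.P310.Num
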