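import Vale.Agent.Lib.P310.Num.Code

/-!
# The graphs of a program in pure arithmetic

All data of the two graphs of the system of the tableau program of `Tab/Rules.lean`, as functions
on natural numbers with at most four arguments besides the data `A : AD` (fixed tables read from
the parameters and the input). Numbering:

* a value of `V` is a number below `s = q ^ m`, digits base `q` are elements of the small field;
* a token `(i, x)` is `i * s + x`;
* a gate is `3 * τ + κ` (`κ = 0, 1` the premises of rule `τ`, `κ = 2` its conclusion), the roots are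
  `3 * nR` (no bottom) and `3 * nR + 1` (the twisted one);
* a cut `(f, μ)` is `3 * f + μ` with `μ = 0` for `some false`, `1` for `some true`, `2` for `none`;
* a constraint: `link g c l` is `(g * Ntok + c) * Lc + l`; then `tr g c` at offset `N₁` and `con f c`
  at offset `N₁ + N₂`, each `g * Ntok + c`;
* a local assignment is `4 * p + 2 * α + β`;
* a vertex is `e * (L + 1) + l`, `l = 0` the assignment itself and `l = i + 1` its possible leaf `i`.
-/

namespace Vale.Agent.Lib.P310.Num

open Mach Tab

/-- The data: the tables of the program, the number of classes `ρ`, the small field with `q = 2 ^ eb`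
elements and its tables, and the number `m` of digits of a value. `phi b y` is bit `b` of `y`,
`lamT κ i` the entry `(κ, i)` of the inverse Vandermonde matrix, `apw i j = α i ^ j`. -/
structure AD where
  D : TD
  ρ : ℕ
  q : ℕ
  eb : ℕ
  m : ℕ
  addF : ℕ → ℕ → ℕ
  mulF : ℕ → ℕ → ℕ
  phi : ℕ → ℕ → ℕ
  lamT : ℕ → ℕ → ℕ
  apw : ℕ → ℕ → ℕ

namespace AD

variable (A : AD)

/-- Number of values. -/
def s : ℕ := A.D.s
/-- Number of registers. -/
def ℓ : ℕ := 2 * A.D.r
/-- Number of rules. -/
def nR : ℕ := A.D.nR
/-- Number of control states. -/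
def nP : ℕ := A.D.nP
/-- Number of gates. -/
def nG : ℕ := 3 * A.nR + 2
/-- Number of families without the root family. -/
def nF : ℕ := A.nP + A.nR
/-- Number of linear checks of a guard. -/
def nM : ℕ := A.ρ * A.m * A.eb
/-- Length of the base vectors. -/
def mm : ℕ := A.ρ + A.nM
/-- Length of a chain. -/
def Lc : ℕ := 2 * A.ρ * A.mm
/-- Number of tokens. -/
def Ntok : ℕ := A.ρ * A.s
/-- Number of link constraints. -/
def N₁ : ℕ := A.nG * A.Ntok * A.Lc
/-- Number of transfer constraints. -/
def N₂ : ℕ := A.nG * A.Ntok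
/-- Number of sum constraints. -/
def N₃ : ℕ := A.nF * A.Ntok
/-- Number of constraints. -/
def N : ℕ := A.N₁ + A.N₂ + A.N₃
/-- Number of possible leaves of a local assignment. -/
def L : ℕ := 2 * A.N * (4 * A.N + 1)
/-- Number of vertices. -/
def nV : ℕ := 4 * A.N * (A.L + 1)

/-- Digit `c` of a value, an element of the small field. -/
def dg (x c : ℕ) : ℕ := x / A.q ^ c % A.q

/-- A number as a value: numbers out of range are read as `0`. -/
def tv (n : ℕ) : ℕ := if n < A.s then n else 0

/-! ### Gates -/

/-- The rule of a gate. -/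
def gτ (g : ℕ) : ℕ := g / 3
/-- The kind of a gate: `0, 1, 2` for rule gates, `3` for the root without bottom and `4` for the
twisted root. -/
def gκ (g : ℕ) : ℕ :=
  if g < 3 * A.nR then g % 3 else if g = 3 * A.nR then 3 else 4

/-- An optional premise as a cut, plus one; `0` for none. -/
def premCut (n : ℕ) : ℕ :=
  if n = 0 then 0 else if n - 1 < A.nP then 3 * (n - 1) + 1 else 0

/-- The bottom cut of a gate, plus one; `0` for none. -/
def botN (g : ℕ) : ℕ :=
  if A.gκ g = 0 then A.premCut (A.D.prem₁N (gτ g))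
  else if A.gκ g = 1 then A.premCut (A.D.prem₂N (gτ g))
  else if A.gκ g = 2 then 3 * (A.nP + gτ g) + 2 + 1
  else if A.gκ g = 4 then 3 * A.D.stA + 1
  else 0

/-- The top cut of a gate. -/
def topN (g : ℕ) : ℕ :=
  if A.gκ g = 0 then 3 * (A.nP + gτ g)
  else if A.gκ g = 1 then 3 * (A.nP + gτ g) + 1
  else if A.gκ g = 2 then 3 * (A.D.conclN (gτ g) % A.nP)
  else 3 * (A.nP + A.nR)

/-- The guard of a gate at register `κ`: `0` for none, `v + 1` for value `v`. -/
def gGuard (g κ : ℕ) : ℕ :=
  if A.gκ g = 2 then A.D.guardN (gτ g) κ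
  else if A.gκ g = 3 ∨ A.gκ g = 4 then 1
  else 0

/-! ### Translations of tokens -/

/-- The sum over the registers `j` of `α i ^ j` times digit `c` of the translation of rule `τ`. -/
def shiftSum (τ i c : ℕ) : ℕ :=
  recVal (fun j acc => A.addF acc (A.mulF (A.apw i j)
      (A.addF (A.dg (A.tv (A.D.toN τ j)) c) (A.dg (A.tv (A.D.fromN τ j)) c))))
    A.q 0 A.ℓ

/-- Digit `c` of the value `x` translated at class `i` by rule `τ`. -/
def shiftDg (τ i x c : ℕ) : ℕ := A.addF (A.dg x c) (A.shiftSum τ i c)

/-- The value `x` translated at class `i` by rule `τ`. -/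
def shiftVal (τ i x : ℕ) : ℕ :=
  recVal (fun k acc => acc * A.q + A.shiftDg τ i x (A.m - 1 - k)) A.s 0 A.m

/-- The class of a token. -/
def tI (c : ℕ) : ℕ := c / A.s
/-- The value of a token. -/
def tX (c : ℕ) : ℕ := c % A.s

/-- The translation of a token by a gate. -/
def shiftTok (g c : ℕ) : ℕ :=
  if A.gκ g = 2 then A.tI c * A.s + A.shiftVal (gτ g) (A.tI c) (A.tX c) else c

/-! ### Base vectors -/

/-- Entry `t` of the base vector of a token `c` at gate `g`, a number mod `2`: the first `ρ`
entries are parity checks, the others the linear checks of the guard of the gate. -/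
def uN (g c t : ℕ) : ℕ :=
  if t < A.ρ then
    ((if A.tI c = t then 1 else 0) + (if A.tI c = 0 then 1 else 0)) % 2
  else
    let t' := t - A.ρ
    let κ := t' / (A.m * A.eb)
    let d := t' / A.eb % A.m
    let b := t' % A.eb
    let row := if κ < A.ℓ ∧ A.gGuard g κ = 0 then 0
      else A.phi b (A.mulF (A.lamT κ (A.tI c)) (A.dg (A.tX c) d))
    let cst := if κ < A.ℓ ∧ A.gGuard g κ ≠ 0 ∧ A.tI c = 0 then
        A.phi b (A.dg (A.tv (A.gGuard g κ - 1)) d)
      else 0
    (row + cst) % 2

/-- The coefficient at position `l` of the chain of a token. -/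
def vN (g c l : ℕ) : ℕ := A.uN g c (l % A.mm)

/-- The twist. -/
def twist (g c : ℕ) : ℕ := if g = 3 * A.nR + 1 ∧ A.tI c = 0 then 1 else 0

/-! ### Variables: numbers at least `1` -/

/-- A cut variable. -/
def cutV (cc c : ℕ) : ℕ := 4 * (cc * A.Ntok + c) + 1
/-- The top variable of a chain. -/
def topV (g c : ℕ) : ℕ := 4 * (g * A.Ntok + c) + 2
/-- An inner variable of a chain. -/
def midV (g c l : ℕ) : ℕ := 4 * ((g * A.Ntok + c) * A.Lc + l) + 3
/-- A bit variable of a gate. -/
def bitV (g l : ℕ) : ℕ := 4 * (g * A.Lc + l) + 4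

/-- The variable of the bottom of a gate at a token, `0` if the gate has no bottom. -/
def botV (g c : ℕ) : ℕ := if A.botN g = 0 then 0 else A.cutV (A.botN g - 1) c

/-- The variable on the right of a position of a chain. -/
def rightV (g c l : ℕ) : ℕ := if l + 1 < A.Lc then A.midV g c (l + 1) else A.topV g c

/-! ### Constraints -/

/-- The kind of a constraint: `0` link, `1` transfer, `2` sum. -/
def pκ (p : ℕ) : ℕ := if p < A.N₁ then 0 else if p < A.N₁ + A.N₂ then 1 else 2
/-- Gate and token of a link, as one number. -/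
def pA (p : ℕ) : ℕ :=
  if A.pκ p = 0 then p / A.Lc else if A.pκ p = 1 then p - A.N₁ else p - (A.N₁ + A.N₂)
/-- The gate of a link or transfer constraint, the family of a sum constraint. -/
def pg (p : ℕ) : ℕ := A.pA p / A.Ntok
/-- The token of a constraint. -/
def pc (p : ℕ) : ℕ := A.pA p % A.Ntok
/-- The position of a link constraint. -/
def pl (p : ℕ) : ℕ := p % A.Lc

/-- The variable of entry `j < 3` of a constraint, `0` if there is no such entry. -/
def eCode (p j : ℕ) : ℕ :=
  if A.pκ p = 0 then
    if j = 0 then A.bitV (A.pg p) (A.pl p)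
    else if j = 1 then
      (if A.pl p = 0 then A.botV (A.pg p) (A.pc p) else A.midV (A.pg p) (A.pc p) (A.pl p))
    else A.rightV (A.pg p) (A.pc p) (A.pl p)
  else if A.pκ p = 1 then
    if j = 0 then A.botV (A.pg p) (A.pc p)
    else if j = 1 then A.cutV (A.topN (A.pg p)) (A.shiftTok (A.pg p) (A.pc p))
    else A.topV (A.pg p) (A.pc p)
  else A.cutV (3 * A.pg p + j) (A.pc p)

/-- The value of entry `j < 3` of the local assignment `e = 4 * p + 2 * α + β`, for twist bit `b`. -/
def eVal (b e j : ℕ) : ℕ :=
  let p := e / 4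
  let α := e / 2 % 2
  let β := e % 2
  if A.pκ p = 0 then
    if j = 0 then β
    else if j = 1 then α
    else (α + A.vN (A.pg p) (A.pc p) (A.pl p) * β +
      (if A.pl p = 0 then b * A.twist (A.pg p) (A.pc p) else 0)) % 2
  else
    if j = 0 then α
    else if j = 1 then β
    else (α + β) % 2

/-- Truth value: entry `i` of `e` and entry `j` of `e'` have a common variable. -/
def cmN (e e' i j : ℕ) : ℕ :=
  if A.eCode (e / 4) i ≠ 0 ∧ A.eCode (e / 4) i = A.eCode (e' / 4) j then 1 else 0

/-- Truth value: entry `i` of `e` and entry `j` of `e'` have a common variable with different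
values. -/
def badN (b e e' i : ℕ) (j : ℕ) : ℕ :=
  if A.cmN e e' i j ≠ 0 ∧ A.eVal b e i ≠ A.eVal b e' j then 1 else 0

/-- Truth value: two local assignments are adjacent. -/
def elemAdjN (b e e' : ℕ) : ℕ :=
  if e / 4 ≠ e' / 4 ∧
      (A.cmN e e' 0 0 + A.cmN e e' 0 1 + A.cmN e e' 0 2 + A.cmN e e' 1 0 + A.cmN e e' 1 1 +
        A.cmN e e' 1 2 + A.cmN e e' 2 0 + A.cmN e e' 2 1 + A.cmN e e' 2 2) ≠ 0 ∧
      (A.badN b e e' 0 0 + A.badN b e e' 0 1 + A.badN b e e' 0 2 + A.badN b e e' 1 0 +
        A.badN b e e' 1 1 + A.badN b e e' 1 2 + A.badN b e e' 2 0 + A.badN b e e' 2 1 +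
        A.badN b e e' 2 2) = 0 then 1 else 0

/-- Truth value: the constraint has a first free value that must vanish. -/
def flagN (p : ℕ) : ℕ :=
  if A.pκ p = 0 then (if A.pl p = 0 ∧ A.botN (A.pg p) = 0 then 1 else 0)
  else if A.pκ p = 1 then (if A.botN (A.pg p) = 0 then 1 else 0)
  else 0

/-- The number of leaves of the local assignment `e`. -/
def leafN (e : ℕ) : ℕ :=
  (2 * (e / 4) + (if A.flagN (e / 4) ≠ 0 ∧ e / 2 % 2 ≠ 0 then 1 else 0) + 1) * (4 * A.N + 1)

/-- Truth value: adjacency of the vertices `x`, `y` in the graph with twist bit `b`. -/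
def adjF (b x y : ℕ) : ℕ :=
  let e := x / (A.L + 1)
  let l := x % (A.L + 1)
  let e' := y / (A.L + 1)
  let l' := y % (A.L + 1)
  if l = 0 then
    if l' = 0 then A.elemAdjN b e e'
    else (if e = e' ∧ l' - 1 < A.leafN e then 1 else 0)
  else if l' = 0 then (if e = e' ∧ l - 1 < A.leafN e' then 1 else 0)
  else 0

end AD

end Vale.Agent.Lib.P310.Num
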