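import Vale.Agent.Lib.P310.Num.AdjT
import Vale.Agent.Lib.P310.Num.Good
import Vale.Agent.Lib.P310.Num.CodeSpec
import Mathlib.FieldTheory.Finite.GaloisField
import Mathlib.LinearAlgebra.Vandermonde

/-!
# Parameters: literal tables of a small field

For every `k ≥ 3` there are parameters `π` whose literals are the tables of a field of characteristic
two with at least `k` elements: sum, product, bit functionals, inverse Vandermonde matrix and powers
of `k` distinct points.
-/

namespace Vale.Agent.Lib.P310.Num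

open Mach Tab

/-- Any finite sequence of digits is read off a number. -/
lemma exists_digits (B : ℕ) (hB : 0 < B) (n : ℕ) : ∀ g : ℕ → ℕ, (∀ i, g i < B) →
    ∃ L, ∀ i, i < n → L / B ^ i % B = g i := by
  induction n with
  | zero => exact fun g _ => ⟨0, fun i hi => absurd hi (Nat.not_lt_zero _)⟩
  | succ n ih =>
    intro g hg
    obtain ⟨L, hL⟩ := ih (fun i => g (i + 1)) (fun i => hg _)
    refine ⟨g 0 + B * L, fun i hi => ?_⟩
    cases i with
    | zero =>
      rw [pow_zero, Nat.div_one, Nat.add_mul_mod_self_left, Nat.mod_eq_of_lt (hg 0)]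
    | succ i =>
      rw [pow_succ', ← Nat.div_div_eq_div_mul, Nat.add_mul_div_left _ _ hB,
        Nat.div_eq_of_lt (hg 0), zero_add]
      exact hL i (by omega)

/-- Any finite table is read off a number. -/
lemma exists_table (B : ℕ) (hB : 0 < B) (R C : ℕ) (f : ℕ → ℕ → ℕ) (hf : ∀ x y, f x y < B) :
    ∃ L, ∀ x y, x < R → y < C → tabRead L B C x y = f x y := by
  obtain ⟨L, hL⟩ := exists_digits B hB (R * C) (fun i => f (i / C) (i % C)) (fun i => hf _ _)
  refine ⟨L, fun x y hx hy => ?_⟩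
  have hC : 0 < C := by omega
  have hlt : x * C + y < R * C := by
    have : (x + 1) * C ≤ R * C := Nat.mul_le_mul_right _ hx
    rw [Nat.add_mul, Nat.one_mul] at this
    omega
  have h1 : (x * C + y) / C = x := by
    rw [Nat.mul_comm x C, Nat.mul_add_div hC, Nat.div_eq_of_lt hy, Nat.add_zero]
  have h2 : (x * C + y) % C = y := by
    rw [Nat.mul_comm x C, Nat.mul_add_mod, Nat.mod_eq_of_lt hy]
  rw [tabRead, hL _ hlt]
  simp only [h1, h2]

/-- The parameters. -/
def parOf (k r q eb L₅ L₆ L₇ L₈ L₉ : ℕ) : ℕ → ℕ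
  | 0 => k
  | 2 => r
  | 3 => q
  | 4 => eb
  | 5 => L₅
  | 6 => L₆
  | 7 => L₇
  | 8 => L₈
  | 9 => L₉
  | _ => 0

/-- The field data. -/
theorem exists_field (k : ℕ) (hk : 3 ≤ k) : ∃ (F : Type) (_ : Field F) (_ : Fintype F) (_ : CharP F 2)
    (eb : ℕ) (_ : 0 < eb) (num : F ≃ Fin (2 ^ eb)) (α : Fin k → F) (lam : Fin k → Fin k → F)
    (φ : Fin eb → F →+ ZMod 2),
    (num 0).val = 0 ∧ Function.Injective α ∧
    (∀ κ κ' : Fin k, ∑ i, lam κ i * α i ^ (κ' : ℕ) = if κ = κ' then 1 else 0) ∧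
    (∀ i i' : Fin k, ∑ κ : Fin k, α i ^ (κ : ℕ) * lam κ i' = if i = i' then 1 else 0) ∧
    (∀ y : F, (∀ b, φ b y = 0) → y = 0) := by
  classical
  have heb : k ≠ 0 := by omega
  have : Fact (Nat.Prime 2) := ⟨Nat.prime_two⟩
  let : Fintype (GaloisField 2 k) := Fintype.ofFinite _
  have hcard : Fintype.card (GaloisField 2 k) = 2 ^ k := by
    rw [← Nat.card_eq_fintype_card]
    exact GaloisField.card 2 k heb
  have hk2 : k ≤ Fintype.card (GaloisField 2 k) := by
    rw [hcard]
    exact Nat.lt_two_pow_self.le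
  set e := Fintype.equivFinOfCardEq hcard with he
  have h0 : 0 < 2 ^ k := by positivity
  set num : GaloisField 2 k ≃ Fin (2 ^ k) := e.trans (Equiv.swap (e 0) ⟨0, h0⟩) with hnum
  have hnum0 : (num 0).val = 0 := by
    simp [hnum]
  obtain ⟨a⟩ := Function.Embedding.nonempty_of_card_le (α := Fin k) (β := GaloisField 2 k)
    (by simpa using hk2)
  have hdet : (Matrix.vandermonde (fun i => a i)).det ≠ 0 :=
    Matrix.det_vandermonde_ne_zero_iff.mpr a.injective
  have hunit : IsUnit (Matrix.vandermonde (fun i => a i)).det := isUnit_iff_ne_zero.mpr hdet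
  have hfin : Module.finrank (ZMod 2) (GaloisField 2 k) = k := GaloisField.finrank 2 heb
  let bas := Module.finBasisOfFinrankEq (ZMod 2) (GaloisField 2 k) hfin
  refine ⟨GaloisField 2 k, inferInstance, inferInstance, inferInstance, k, by omega, num,
    fun i => a i, fun κ i => (Matrix.vandermonde (fun i => a i))⁻¹ κ i,
    fun b => (bas.coord b).toAddMonoidHom, hnum0, a.injective, ?_, ?_, ?_⟩
  · intro κ κ'
    have h1 := Matrix.nonsing_inv_mul _ hunit
    have h2 := congrFun (congrFun h1 κ) κ'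
    simpa [Matrix.mul_apply, Matrix.vandermonde_apply, Matrix.one_apply] using h2
  · intro i i'
    have h1 := Matrix.mul_nonsing_inv _ hunit
    have h2 := congrFun (congrFun h1 i) i'
    simpa [Matrix.mul_apply, Matrix.vandermonde_apply, Matrix.one_apply] using h2
  · intro y hy
    apply bas.ext_elem
    intro b
    simpa using hy b

/-- Parameter existence. -/
theorem exists_par (k : ℕ) (hk : 3 ≤ k) : ∃ (π : ℕ → ℕ), π 0 = k ∧ pR π = (k + 1) / 4 ∧ 2 ≤ pQ π ∧
    ∃ (F : Type) (_ : Field F) (_ : Fintype F) (_ : CharP F 2),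
      ∀ w : List Bool, Nonempty ((adOf π w).Good F) := by
  obtain ⟨F, i1, i2, i3, eb, heb, num, α, lam, φ, hnum0, hα, hl, hr, hφ⟩ := exists_field k hk
  have hq : 0 < 2 ^ eb := by positivity
  have hq2 : 2 ≤ 2 ^ eb := by
    calc 2 = 2 ^ 1 := rfl
      _ ≤ 2 ^ eb := Nat.pow_le_pow_right (by omega) heb
  let inv : ℕ → F := fun x => if h : x < 2 ^ eb then num.symm ⟨x, h⟩ else 0
  have hinv : ∀ a : F, inv (num a) = a := by
    intro a
    simp only [inv]
    rw [dif_pos (num a).isLt]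
    simp
  obtain ⟨L₅, hL₅⟩ := exists_table (2 ^ eb) hq (2 ^ eb) (2 ^ eb)
    (fun x y => (num (inv x + inv y)).val) (fun _ _ => Fin.is_lt _)
  obtain ⟨L₆, hL₆⟩ := exists_table (2 ^ eb) hq (2 ^ eb) (2 ^ eb)
    (fun x y => (num (inv x * inv y)).val) (fun _ _ => Fin.is_lt _)
  obtain ⟨L₇, hL₇⟩ := exists_table 2 (by omega) eb (2 ^ eb)
    (fun b y => ((if h : b < eb then φ ⟨b, h⟩ (inv y) else 0 : ZMod 2)).val)
    (fun _ _ => ZMod.val_lt _)
  obtain ⟨L₈, hL₈⟩ := exists_table (2 ^ eb) hq k k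
    (fun κ i => (num (if h : κ < k ∧ i < k then lam ⟨κ, h.1⟩ ⟨i, h.2⟩ else 0)).val)
    (fun _ _ => Fin.is_lt _)
  obtain ⟨L₉, hL₉⟩ := exists_table (2 ^ eb) hq k (2 * ((k + 1) / 4))
    (fun i j => (num ((if h : i < k then α ⟨i, h⟩ else 0) ^ j)).val)
    (fun _ _ => Fin.is_lt _)
  have hadd : ∀ x y : F, tabRead L₅ (2 ^ eb) (2 ^ eb) (num x) (num y) = num (x + y) := fun x y => by
    rw [hL₅ _ _ (num x).isLt (num y).isLt]
    simp only [hinv]
  have hmul : ∀ x y : F, tabRead L₆ (2 ^ eb) (2 ^ eb) (num x) (num y) = num (x * y) := fun x y => by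
    rw [hL₆ _ _ (num x).isLt (num y).isLt]
    simp only [hinv]
  have hapw : ∀ (i : Fin k) (j : ℕ), j < 2 * ((k + 1) / 4) →
      tabRead L₉ (2 ^ eb) (2 * ((k + 1) / 4)) i j = num (α i ^ j) := fun i j hj => by
    rw [hL₉ _ _ i.isLt hj]
    simp only [dif_pos i.isLt]
  have hlam : ∀ κ i : Fin k, tabRead L₈ (2 ^ eb) k κ i = num (lam κ i) := fun κ i => by
    rw [hL₈ _ _ κ.isLt i.isLt]
    have hi : κ.val < k ∧ i.val < k := ⟨κ.isLt, i.isLt⟩
    simp only [dif_pos hi]
  have hphi : ∀ (b : Fin eb) (y : F), tabRead L₇ 2 (2 ^ eb) b (num y) = (φ b y).val := fun b y => by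
    rw [hL₇ _ _ b.isLt (num y).isLt]
    simp only [dif_pos b.isLt, hinv]
  refine ⟨parOf k ((k + 1) / 4) (2 ^ eb) eb L₅ L₆ L₇ L₈ L₉, rfl, rfl, hq2, F, i1, i2, i3,
    fun w => ⟨?_⟩⟩
  exact {
    num := num
    num_zero := hnum0
    addF := hadd
    mulF := hmul
    α := α
    α_inj := hα
    apw := hapw
    lam := lam
    lamT := hlam
    lam_left := hl
    lam_right := hr
    φ := φ
    phi := hphi
    φ_sep := hφ
    hρ := hk
    hℓ := by
      change 2 * (2 * ((k + 1) / 4)) ≤ k + 1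
      omega
    hs := sW_eq _ w hq2 }

end Vale.Agent.Lib.P310.Num
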