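import Vale.Agent.Lib.P310.Num.Good

/-!
# The numbering of the values

The values are the vectors `Fin A.m → F` over the small field, numbered by their digits in base
`q`. The numeric functions `dg`, `tv`, `shiftSum`, `shiftDg`, `shiftVal` of `Num/Defs.lean` compute
the digits of a value, and the translation of a value at a class by a rule.
-/

namespace Vale.Agent.Lib.P310.Num

open Mach Tab Alt

/-- Horner's rule with a cap that is never reached. -/
lemma recVal_horner (q m cap : ℕ) (hcap : cap = q ^ m) (d : ℕ → ℕ) (hd : ∀ c, c < m → d c < q) :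
    ∀ K, K ≤ m →
      recVal (fun k acc => acc * q + d (m - 1 - k)) cap 0 K =
        ∑ c ∈ Finset.range K, d (m - K + c) * q ^ c ∧
      ∑ c ∈ Finset.range K, d (m - K + c) * q ^ c < q ^ K := by
  intro K
  induction K with
  | zero =>
    intro _
    simp [recVal]
  | succ K ih =>
    intro hK
    obtain ⟨h1, h2⟩ := ih (by omega)
    have h3 : ∑ c ∈ Finset.range (K + 1), d (m - (K + 1) + c) * q ^ c =
        (∑ c ∈ Finset.range K, d (m - K + c) * q ^ c) * q + d (m - 1 - K) := by
      rw [Finset.sum_range_succ', Finset.sum_mul]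
      congr 1
      · refine Finset.sum_congr rfl fun c hc => ?_
        have hc' := Finset.mem_range.mp hc
        have h4 : m - (K + 1) + (c + 1) = m - K + c := by omega
        rw [h4, pow_succ]
        ring
      · have h4 : m - (K + 1) + 0 = m - 1 - K := by omega
        rw [h4, pow_zero, mul_one]
    have hq : d (m - 1 - K) < q := hd _ (by omega)
    have h5 : (∑ c ∈ Finset.range K, d (m - K + c) * q ^ c) * q + d (m - 1 - K) < q ^ (K + 1) := by
      have h6 : (∑ c ∈ Finset.range K, d (m - K + c) * q ^ c) + 1 ≤ q ^ K := h2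
      calc (∑ c ∈ Finset.range K, d (m - K + c) * q ^ c) * q + d (m - 1 - K)
          < (∑ c ∈ Finset.range K, d (m - K + c) * q ^ c) * q + q := by omega
        _ = ((∑ c ∈ Finset.range K, d (m - K + c) * q ^ c) + 1) * q := by ring
        _ ≤ q ^ K * q := Nat.mul_le_mul_right _ h6
        _ = q ^ (K + 1) := (pow_succ _ _).symm
    have h7 : q ^ (K + 1) ≤ cap := by
      rw [hcap]
      exact Nat.pow_le_pow_right (by omega) hK
    rw [h3]
    refine ⟨?_, h5⟩
    simp only [recVal]
    rw [h1]
    omega

namespace AD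

variable {A : AD} {F : Type} [Field F] [Fintype F] [CharP F 2] (hG : A.Good F)

/-- The numbering of the values: the digits of the number of a value are the numbers of its
entries. -/
noncomputable def valE : (Fin A.m → F) ≃ Fin A.D.s :=
  ((Equiv.refl _).arrowCongr hG.num).trans (finFunctionFinEquiv.trans (finCongr hG.hs.symm))

lemma valE_val (x : Fin A.m → F) :
    (valE hG x).val = ∑ c : Fin A.m, (hG.num (x c)).val * A.q ^ (c : ℕ) := by
  have h : (valE hG x).val = (finFunctionFinEquiv (fun c => hG.num (x c))).val := rfl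
  rw [h, finFunctionFinEquiv_apply]

include hG in
lemma q_pos : 0 < A.q := by
  have h : (hG.num 0).val < A.q := Fin.isLt _
  omega

/-- The digits of the number of a value. -/
lemma dg_valE (x : Fin A.m → F) (c : Fin A.m) : A.dg (valE hG x) c = (hG.num (x c)).val := by
  have h := congrFun (finFunctionFinEquiv.symm_apply_apply (fun c => hG.num (x c))) c
  have h2 := congrArg Fin.val h
  exact h2

/-- The value zero has number zero. -/
lemma valE_zero : (valE hG (0 : Fin A.m → F)).val = 0 := by
  rw [valE_val]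
  simp [hG.num_zero]

omit [Fintype F] [CharP F 2] in
lemma dg_zero (c : ℕ) : A.dg 0 c = 0 := by
  simp [dg]

/-- A number as a value has the digits of its number. -/
lemma dg_tv (n : ℕ) (c : Fin A.m) :
    A.dg (A.tv n) c = (hG.num (TD.toV (valE hG) n c)).val := by
  unfold tv TD.toV
  by_cases h : n < A.D.s
  · have h' : n < A.s := h
    rw [if_pos h', dif_pos h]
    have h2 := dg_valE hG ((valE hG).symm ⟨n, h⟩) c
    rwa [Equiv.apply_symm_apply] at h2
  · have h' : ¬ n < A.s := h
    rw [if_neg h', dif_neg h, dg_zero]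
    simp [hG.num_zero]

/-- The translation of rule `τ` at register `j`. -/
noncomputable def addV (τ : ℕ) (j : ℕ) : Fin A.m → F :=
  TD.toV (valE hG) (A.D.toN τ j) - TD.toV (valE hG) (A.D.fromN τ j)

lemma num_lt (y : F) : (hG.num y).val < A.q := Fin.isLt _

/-- The sums in the loop of `shiftSum`. -/
lemma shiftSum_aux (τ : ℕ) (i : Fin A.ρ) (c : Fin A.m) (J : ℕ) (hJ : J ≤ A.ℓ) :
    recVal (fun j acc => A.addF acc (A.mulF (A.apw i j)
        (A.addF (A.dg (A.tv (A.D.toN τ j)) c) (A.dg (A.tv (A.D.fromN τ j)) c)))) A.q 0 J =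
      (hG.num (∑ j ∈ Finset.range J, hG.α i ^ j * addV hG τ j c)).val := by
  induction J with
  | zero => simp [recVal, hG.num_zero]
  | succ J ih =>
    simp only [recVal]
    rw [ih (by omega), hG.apw i J (by omega), dg_tv hG, dg_tv hG, hG.addF, hG.mulF, hG.addF,
      Finset.sum_range_succ]
    rw [min_eq_left (le_of_lt (num_lt hG _))]
    have h : addV hG τ J c = TD.toV (valE hG) (A.D.toN τ J) c + TD.toV (valE hG) (A.D.fromN τ J) c := by
      simp [addV, CharTwo.sub_eq_add]
    rw [h]

/-- The value of `shiftSum`. -/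
lemma shiftSum_eq (τ : ℕ) (i : Fin A.ρ) (c : Fin A.m) :
    A.shiftSum τ i c = (hG.num (∑ j ∈ Finset.range A.ℓ, hG.α i ^ j * addV hG τ j c)).val :=
  shiftSum_aux hG τ i c _ le_rfl

/-- The translation of a value at class `i` by rule `τ`. -/
noncomputable def shiftV (τ : ℕ) (i : Fin A.ρ) (x : Fin A.m → F) : Fin A.m → F :=
  x + encode hG.α (fun j : Fin (2 * A.D.r) => addV hG τ j) i

lemma shiftV_apply (τ : ℕ) (i : Fin A.ρ) (x : Fin A.m → F) (c : Fin A.m) :
    shiftV hG τ i x c = x c + ∑ j ∈ Finset.range A.ℓ, hG.α i ^ j * addV hG τ j c := by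
  have h : A.ℓ = 2 * A.D.r := rfl
  rw [h, ← Fin.sum_univ_eq_sum_range (fun j => hG.α i ^ j * addV hG τ j c) (2 * A.D.r)]
  simp [shiftV, encode, Finset.sum_apply]

/-- The digits of a translated value. -/
lemma shiftDg_eq (τ : ℕ) (i : Fin A.ρ) (x : Fin A.m → F) (c : Fin A.m) :
    A.shiftDg τ i (valE hG x) c = (hG.num (shiftV hG τ i x c)).val := by
  unfold shiftDg
  rw [dg_valE hG, shiftSum_eq hG, hG.addF, shiftV_apply]

/-- The numeric translation of a value computes the number of the translated value. -/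
theorem shiftVal_valE (τ : ℕ) (i : Fin A.ρ) (x : Fin A.m → F) :
    A.shiftVal τ i (valE hG x) = (valE hG (shiftV hG τ i x)).val := by
  unfold shiftVal
  rw [valE_val hG (shiftV hG τ i x)]
  have hd : ∀ c, c < A.m → A.shiftDg τ i (valE hG x) c < A.q := by
    intro c hc
    rw [shiftDg_eq hG τ i x ⟨c, hc⟩]
    exact num_lt hG _
  have h := (recVal_horner A.q A.m A.s hG.hs (fun c => A.shiftDg τ i (valE hG x) c) hd A.m le_rfl).1
  rw [h, ← Fin.sum_univ_eq_sum_range (fun c => A.shiftDg τ i (valE hG x) (A.m - A.m + c) * A.q ^ c) A.m]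
  refine Finset.sum_congr rfl fun c _ => ?_
  have h2 : A.m - A.m + (c : ℕ) = c := by omega
  simp only [h2]
  rw [shiftDg_eq hG]

end AD

end Vale.Agent.Lib.P310.Num
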